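import Mathlib

/-!
# Area toolkit for row 211 (helper9)

`μHE[2]` (Euclidean-normalised 2-dimensional Hausdorff measure) of planar figures in
`EuclideanSpace ℝ (Fin 3)`:

* `area_par_image`: `μHE[2] ((fun x => c + x 0 • a + x 1 • b) '' S) = √(gram a b) * volume S`
  for every set `S` of the Euclidean plane;
* `area_parallelogram`, `area_triangle`, `area_segment`, `area_singleton`.
-/

set_option autoImplicit false
open MeasureTheory

namespace Crest.Agent.Helper9.Area

/-- Euclidean 3-space. -/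
abbrev E3 := EuclideanSpace ℝ (Fin 3)
/-- Euclidean plane. -/
abbrev E2 := EuclideanSpace ℝ (Fin 2)

/-! ### The Euclidean plane: unit square and standard triangle -/

/-- Unit square in `E2`. -/
def Q2 : Set E2 := {x | (0 ≤ x 0 ∧ x 0 ≤ 1) ∧ (0 ≤ x 1 ∧ x 1 ≤ 1)}

/-- Standard triangle in `E2`. -/
def T2 : Set E2 := {x | 0 ≤ x 0 ∧ 0 ≤ x 1 ∧ x 0 + x 1 ≤ 1}

theorem mem_Q2 {x : E2} : x ∈ Q2 ↔ (0 ≤ x 0 ∧ x 0 ≤ 1) ∧ (0 ≤ x 1 ∧ x 1 ≤ 1) := Iff.rfl

theorem mem_T2 {x : E2} : x ∈ T2 ↔ 0 ≤ x 0 ∧ 0 ≤ x 1 ∧ x 0 + x 1 ≤ 1 := Iff.rfl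

theorem volume_Q2 : volume Q2 = 1 := by
  have h1 : Q2 = (WithLp.ofLp : E2 → (Fin 2 → ℝ)) ⁻¹' (Set.Icc (0 : Fin 2 → ℝ) 1) := by
    ext x
    rw [mem_Q2]
    simp only [Set.mem_preimage, Set.mem_Icc, Pi.le_def, Fin.forall_fin_two]
    simp
    tauto
  rw [h1, (PiLp.volume_preserving_ofLp (Fin 2)).measure_preimage
    measurableSet_Icc.nullMeasurableSet, Real.volume_Icc_pi]
  simp

theorem continuous_coord (i : Fin 2) : Continuous (fun x : E2 => x i) := by fun_prop

theorem isClosed_T2 : IsClosed T2 := by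
  have h0 : IsClosed {x : E2 | 0 ≤ x 0} := isClosed_le continuous_const (continuous_coord 0)
  have h1 : IsClosed {x : E2 | 0 ≤ x 1} := isClosed_le continuous_const (continuous_coord 1)
  have h2 : IsClosed {x : E2 | x 0 + x 1 ≤ 1} :=
    isClosed_le ((continuous_coord 0).add (continuous_coord 1)) continuous_const
  have : T2 = {x : E2 | 0 ≤ x 0} ∩ ({x : E2 | 0 ≤ x 1} ∩ {x : E2 | x 0 + x 1 ≤ 1}) := by
    ext x; rfl
  rw [this]
  exact h0.inter (h1.inter h2)

/-- The line `x 0 + x 1 = 0` as a submodule. -/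
def diagK : Submodule ℝ E2 where
  carrier := {x | x 0 + x 1 = 0}
  add_mem' := by
    intro a b ha hb
    have ha' : a 0 + a 1 = 0 := ha
    have hb' : b 0 + b 1 = 0 := hb
    show (a + b) 0 + (a + b) 1 = 0
    simp only [PiLp.add_apply]
    linarith
  zero_mem' := by
    show (0 : E2) 0 + (0 : E2) 1 = 0
    simp
  smul_mem' := by
    intro c x hx
    have hx' : x 0 + x 1 = 0 := hx
    show (c • x) 0 + (c • x) 1 = 0
    simp only [PiLp.smul_apply, smul_eq_mul]
    rw [← mul_add, hx', mul_zero]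

theorem volume_diag : volume {x : E2 | x 0 + x 1 = 1} = 0 := by
  have hK : diagK ≠ ⊤ := by
    intro h
    have : (!₂[1, 0] : E2) ∈ diagK := by rw [h]; trivial
    have h' : (!₂[1, 0] : E2) 0 + (!₂[1, 0] : E2) 1 = 0 := this
    simp at h'
  have h0 : volume (diagK : Set E2) = 0 := Measure.addHaar_submodule volume diagK hK
  have h1 : {x : E2 | x 0 + x 1 = 1} = (fun x : E2 => x + (-!₂[1, 0] : E2)) ⁻¹' (diagK : Set E2) := by
    ext x
    show x 0 + x 1 = 1 ↔ (x + (-!₂[1, 0] : E2)) 0 + (x + (-!₂[1, 0] : E2)) 1 = 0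
    simp only [PiLp.add_apply, PiLp.neg_apply]
    simp
    constructor <;> intro h <;> linarith
  rw [h1, measure_preimage_add_right]
  exact h0

theorem volume_T2 : volume T2 = ENNReal.ofReal (1 / 2) := by
  set T2' : Set E2 := (fun x : E2 => (!₂[1, 1] : E2) - x) ⁻¹' T2 with hT2'
  have hmeas : MeasurableSet T2 := isClosed_T2.measurableSet
  have hvol' : volume T2' = volume T2 :=
    (Measure.measurePreserving_sub_left volume (!₂[1, 1] : E2)).measure_preimage
      hmeas.nullMeasurableSet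
  have hmem' : ∀ x : E2, x ∈ T2' ↔ x 0 ≤ 1 ∧ x 1 ≤ 1 ∧ 1 ≤ x 0 + x 1 := by
    intro x
    show (0 ≤ ((!₂[1, 1] : E2) - x) 0 ∧ 0 ≤ ((!₂[1, 1] : E2) - x) 1 ∧
      ((!₂[1, 1] : E2) - x) 0 + ((!₂[1, 1] : E2) - x) 1 ≤ 1) ↔ _
    simp only [PiLp.sub_apply]
    simp
    intro _ _
    constructor <;> intro h <;> linarith
  have hmeas' : MeasurableSet T2' := by
    have : Continuous (fun x : E2 => (!₂[1, 1] : E2) - x) := by fun_prop
    exact (isClosed_T2.preimage this).measurableSet
  have hunion : T2 ∪ T2' = Q2 := by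
    ext x
    rw [Set.mem_union, hmem', mem_T2, mem_Q2]
    constructor
    · rintro (⟨h1, h2, h3⟩ | ⟨h1, h2, h3⟩)
      · exact ⟨⟨h1, by linarith⟩, ⟨h2, by linarith⟩⟩
      · exact ⟨⟨by linarith, h1⟩, ⟨by linarith, h2⟩⟩
    · rintro ⟨⟨h1, h2⟩, ⟨h3, h4⟩⟩
      rcases le_total (x 0 + x 1) 1 with h | h
      · exact Or.inl ⟨h1, h3, h⟩
      · exact Or.inr ⟨h2, h4, h⟩
  have hinter : volume (T2 ∩ T2') = 0 := by
    apply measure_mono_null _ volume_diag
    intro x hx
    have h1 := (mem_T2.mp hx.1).2.2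
    have h2 := ((hmem' x).mp hx.2).2.2
    exact le_antisymm h1 h2
  have hsum := measure_union_add_inter T2 hmeas' (μ := volume)
  rw [hunion, volume_Q2, hinter, add_zero, hvol'] at hsum
  -- `1 = volume T2 + volume T2`
  have hne : volume T2 ≠ ⊤ := by
    intro h
    rw [h] at hsum
    simp at hsum
  have h2 : (volume T2).toReal = 1 / 2 := by
    have := congrArg ENNReal.toReal hsum
    rw [ENNReal.toReal_add hne hne] at this
    simp at this
    linarith
  rw [← h2, ENNReal.ofReal_toReal hne]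

/-! ### Linear images in the plane -/

theorem det_toEuclideanLin (A : Matrix (Fin 2) (Fin 2) ℝ) :
    LinearMap.det (Matrix.toEuclideanLin A) = A.det := by
  rw [Matrix.toEuclideanLin_eq_toLin, LinearMap.det_toLin]

theorem toEuclideanLin_apply2 (A : Matrix (Fin 2) (Fin 2) ℝ) (x : E2) :
    Matrix.toEuclideanLin A x = !₂[A 0 0 * x 0 + A 0 1 * x 1, A 1 0 * x 0 + A 1 1 * x 1] := by
  ext i
  fin_cases i <;> simp [Matrix.toEuclideanLin_apply]

theorem volume_image_toEuclideanLin (A : Matrix (Fin 2) (Fin 2) ℝ) (S : Set E2) :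
    volume (Matrix.toEuclideanLin A '' S) = ENNReal.ofReal |A.det| * volume S := by
  rw [Measure.addHaar_image_linearMap, det_toEuclideanLin]

/-! ### Planes in 3-space -/

/-- The Gram determinant of two vectors: the squared area of the parallelogram they span. -/
noncomputable def gram (a b : E3) : ℝ := ‖a‖ ^ 2 * ‖b‖ ^ 2 - inner ℝ a b ^ 2

theorem gram_nonneg (a b : E3) : 0 ≤ gram a b := by
  have h := abs_real_inner_le_norm a b
  have h2 : inner ℝ a b ^ 2 ≤ (‖a‖ * ‖b‖) ^ 2 := by
    rw [← sq_abs (inner ℝ a b)]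
    exact pow_le_pow_left₀ (abs_nonneg _) h 2
  unfold gram
  nlinarith

/-- Affine parametrisation of the plane through `c` spanned by `a`, `b`. -/
noncomputable def par (c a b : E3) (x : E2) : E3 := c + x 0 • a + x 1 • b

theorem norm_sq_E2 (x : E2) : ‖x‖ ^ 2 = x 0 ^ 2 + x 1 ^ 2 := by
  rw [EuclideanSpace.norm_eq, Real.sq_sqrt (by positivity), Fin.sum_univ_two]
  simp

theorem isometry_par (c f₁ f₂ : E3) (h1 : ‖f₁‖ = 1) (h2 : ‖f₂‖ = 1)
    (h12 : inner ℝ f₁ f₂ = 0) : Isometry (par c f₁ f₂) := by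
  apply Isometry.of_dist_eq
  intro x y
  rw [dist_eq_norm, dist_eq_norm]
  have e : par c f₁ f₂ x - par c f₁ f₂ y = (x - y) 0 • f₁ + (x - y) 1 • f₂ := by
    simp only [par, PiLp.sub_apply]
    module
  rw [e]
  have hsq : ‖(x - y) 0 • f₁ + (x - y) 1 • f₂‖ ^ 2 = ‖x - y‖ ^ 2 := by
    rw [norm_add_sq_real, norm_smul, norm_smul, h1, h2, inner_smul_left, inner_smul_right, h12,
      norm_sq_E2]
    simp
  have := abs_eq_abs.mpr (sq_eq_sq_iff_eq_or_eq_neg.mp hsq |>.imp id id)
  rwa [abs_of_nonneg (norm_nonneg _), abs_of_nonneg (norm_nonneg _)] at this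

/-- Any two vectors of `E3` lie in a plane with an orthonormal frame `f₁, f₂`, in triangular
form. -/
theorem exists_frame (a b : E3) : ∃ (f₁ f₂ : E3) (α β₁ β₂ : ℝ), ‖f₁‖ = 1 ∧ ‖f₂‖ = 1 ∧
    inner ℝ f₁ f₂ = 0 ∧ a = α • f₁ ∧ b = β₁ • f₁ + β₂ • f₂ := by
  have hfin : Module.finrank ℝ E3 = Fintype.card (Fin 3) := by simp
  set f : Fin 3 → E3 := ![a, b, 0] with hf
  set B := InnerProductSpace.gramSchmidtOrthonormalBasis hfin f with hB
  have h10 : inner ℝ (B 1) a = 0 :=
    InnerProductSpace.gramSchmidtOrthonormalBasis_inv_triangular hfin f (i := 0) (j := 1) (by decide)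
  have h20 : inner ℝ (B 2) a = 0 :=
    InnerProductSpace.gramSchmidtOrthonormalBasis_inv_triangular hfin f (i := 0) (j := 2) (by decide)
  have h21 : inner ℝ (B 2) b = 0 :=
    InnerProductSpace.gramSchmidtOrthonormalBasis_inv_triangular hfin f (i := 1) (j := 2) (by decide)
  refine ⟨B 0, B 1, inner ℝ (B 0) a, inner ℝ (B 0) b, inner ℝ (B 1) b, ?_, ?_, ?_, ?_, ?_⟩
  · exact B.orthonormal.1 0
  · exact B.orthonormal.1 1
  · exact B.orthonormal.2 (by decide)
  · have := B.sum_repr' a
    rw [Fin.sum_univ_three, h10, h20] at this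
    simpa using this.symm
  · have := B.sum_repr' b
    rw [Fin.sum_univ_three, h21] at this
    simpa using this.symm

/-- **Master area formula**: the image of a planar set `S` under the affine parametrisation
`x ↦ c + x 0 • a + x 1 • b` has `μHE[2]`-measure `√(gram a b) * volume S`. -/
theorem area_par_image (c a b : E3) (S : Set E2) :
    μHE[2] (par c a b '' S) = ENNReal.ofReal (Real.sqrt (gram a b)) * volume S := by
  obtain ⟨f₁, f₂, α, β₁, β₂, h1, h2, h12, ha, hb⟩ := exists_frame a b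
  set A : Matrix (Fin 2) (Fin 2) ℝ := !![α, β₁; 0, β₂] with hA
  have hcomp : par c a b = par c f₁ f₂ ∘ (Matrix.toEuclideanLin A) := by
    funext x
    simp only [Function.comp, par, toEuclideanLin_apply2, hA, ha, hb]
    simp
    module
  rw [hcomp, Set.image_comp, (isometry_par c f₁ f₂ h1 h2 h12).euclideanHausdorffMeasure_image,
    EuclideanSpace.euclideanHausdorffMeasure_eq_volume, volume_image_toEuclideanLin]
  congr 2
  have hdet : A.det = α * β₂ := by
    rw [hA, Matrix.det_fin_two_of]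
    ring
  have hgram : gram a b = (α * β₂) ^ 2 := by
    unfold gram
    have na : ‖a‖ ^ 2 = α ^ 2 := by
      rw [ha, norm_smul, h1, mul_one, Real.norm_eq_abs, sq_abs]
    have nb : ‖b‖ ^ 2 = β₁ ^ 2 + β₂ ^ 2 := by
      rw [hb, norm_add_sq_real, norm_smul, norm_smul, h1, h2, inner_smul_left, inner_smul_right,
        h12]
      simp
    have iab : inner ℝ a b = α * β₁ := by
      rw [ha, hb, inner_add_right, inner_smul_left, inner_smul_right, inner_smul_left,
        inner_smul_right, h12, real_inner_self_eq_norm_sq, h1]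
      simp
    rw [na, nb, iab]
    ring
  rw [hdet, hgram, Real.sqrt_sq_eq_abs]

/-! ### Parallelograms and triangles -/

theorem parallelogram_eq_image (c a b : E3) :
    {x : E3 | ∃ s ∈ Set.Icc (0 : ℝ) 1, ∃ t ∈ Set.Icc (0 : ℝ) 1, x = c + s • a + t • b}
      = par c a b '' Q2 := by
  ext x
  constructor
  · rintro ⟨s, hs, t, ht, rfl⟩
    refine ⟨!₂[s, t], ?_, ?_⟩
    · rw [mem_Q2]
      simpa using ⟨hs, ht⟩
    · simp [par]
  · rintro ⟨y, hy, rfl⟩
    rw [mem_Q2] at hy
    exact ⟨y 0, hy.1, y 1, hy.2, rfl⟩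

/-- Area of a parallelogram in 3-space. -/
theorem area_parallelogram (c a b : E3) :
    μHE[2] {x : E3 | ∃ s ∈ Set.Icc (0 : ℝ) 1, ∃ t ∈ Set.Icc (0 : ℝ) 1, x = c + s • a + t • b}
      = ENNReal.ofReal (Real.sqrt (gram a b)) := by
  rw [parallelogram_eq_image, area_par_image, volume_Q2, mul_one]

theorem convexHull_triple_eq (p q r : E3) :
    convexHull ℝ {p, q, r}
      = {x : E3 | ∃ s t : ℝ, 0 ≤ s ∧ 0 ≤ t ∧ s + t ≤ 1 ∧ x = p + s • (q - p) + t • (r - p)} := by
  apply Set.Subset.antisymm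
  · apply convexHull_min
    · intro x hx
      rcases hx with rfl | rfl | rfl
      · exact ⟨0, 0, le_refl _, le_refl _, by norm_num, by simp⟩
      · exact ⟨1, 0, by norm_num, le_refl _, by norm_num, by simp⟩
      · exact ⟨0, 1, le_refl _, by norm_num, by norm_num, by simp⟩
    · rintro x ⟨s, t, hs, ht, hst, rfl⟩ y ⟨s', t', hs', ht', hst', rfl⟩ u v hu hv huv
      refine ⟨u * s + v * s', u * t + v * t', by positivity, by positivity, ?_, ?_⟩
      · nlinarith
      · have hv' : v = 1 - u := by linarith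
        subst hv'
        module
  · rintro x ⟨s, t, hs, ht, hst, rfl⟩
    have hconv := convex_convexHull ℝ ({p, q, r} : Set E3)
    have hp : p ∈ convexHull ℝ ({p, q, r} : Set E3) := subset_convexHull ℝ _ (by simp)
    have hq : q ∈ convexHull ℝ ({p, q, r} : Set E3) := subset_convexHull ℝ _ (by simp)
    have hr : r ∈ convexHull ℝ ({p, q, r} : Set E3) := subset_convexHull ℝ _ (by simp)
    have key := hconv.sum_mem (t := Finset.univ) (w := ![1 - s - t, s, t]) (z := ![p, q, r])
      (by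
        intro i _
        fin_cases i
        · simp; linarith
        · simpa using hs
        · simpa using ht)
      (by simp [Fin.sum_univ_three]; ring)
      (by
        intro i _
        fin_cases i
        · simpa using hp
        · simpa using hq
        · simpa using hr)
    have e : ∑ i : Fin 3, (![1 - s - t, s, t] : Fin 3 → ℝ) i • (![p, q, r] : Fin 3 → E3) i
        = p + s • (q - p) + t • (r - p) := by
      simp [Fin.sum_univ_three]
      module
    rwa [e] at key

theorem triangle_eq_image (p q r : E3) :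
    convexHull ℝ {p, q, r} = par p (q - p) (r - p) '' T2 := by
  rw [convexHull_triple_eq]
  ext x
  constructor
  · rintro ⟨s, t, hs, ht, hst, rfl⟩
    refine ⟨!₂[s, t], ?_, ?_⟩
    · rw [mem_T2]
      simpa using ⟨hs, ht, hst⟩
    · simp [par]
  · rintro ⟨y, hy, rfl⟩
    rw [mem_T2] at hy
    exact ⟨y 0, y 1, hy.1, hy.2.1, hy.2.2, rfl⟩

/-- Area of a triangle in 3-space. -/
theorem area_triangle (p q r : E3) :
    μHE[2] (convexHull ℝ {p, q, r})
      = ENNReal.ofReal (Real.sqrt (gram (q - p) (r - p)) / 2) := by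
  rw [triangle_eq_image, area_par_image, volume_T2, ← ENNReal.ofReal_mul (Real.sqrt_nonneg _)]
  congr 1
  ring

theorem area_triangle_toReal (p q r : E3) :
    (μHE[2] (convexHull ℝ {p, q, r})).toReal = Real.sqrt (gram (q - p) (r - p)) / 2 := by
  rw [area_triangle, ENNReal.toReal_ofReal (by positivity)]

theorem area_parallelogram_toReal (c a b : E3) :
    (μHE[2] {x : E3 | ∃ s ∈ Set.Icc (0 : ℝ) 1, ∃ t ∈ Set.Icc (0 : ℝ) 1,
      x = c + s • a + t • b}).toReal = Real.sqrt (gram a b) := by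
  rw [area_parallelogram, ENNReal.toReal_ofReal (Real.sqrt_nonneg _)]

theorem gram_self (a : E3) : gram a a = 0 := by
  unfold gram
  rw [real_inner_self_eq_norm_sq]
  ring

theorem gram_zero_left (b : E3) : gram 0 b = 0 := by
  unfold gram
  simp

theorem gram_zero_right (a : E3) : gram a 0 = 0 := by
  unfold gram
  simp

theorem gram_comm (a b : E3) : gram a b = gram b a := by
  unfold gram
  rw [real_inner_comm]
  ring

theorem gram_smul_left (k : ℝ) (a b : E3) : gram (k • a) b = k ^ 2 * gram a b := by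
  unfold gram
  rw [norm_smul, inner_smul_left, Real.norm_eq_abs]
  simp only [conj_trivial]
  rw [mul_pow, sq_abs]
  ring

theorem gram_smul_right (k : ℝ) (a b : E3) : gram a (k • b) = k ^ 2 * gram a b := by
  rw [gram_comm, gram_smul_left, gram_comm]

/-- A segment has zero area. -/
theorem area_segment (p q : E3) : μHE[2] (segment ℝ p q) = 0 := by
  have h : convexHull ℝ ({p, q, q} : Set E3) = segment ℝ p q := by
    rw [Set.pair_eq_singleton, convexHull_pair]
  rw [← h, area_triangle, gram_self]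
  simp

/-- A point has zero area. -/
theorem area_singleton (p : E3) : μHE[2] ({p} : Set E3) = 0 := by
  have h : segment ℝ p p = {p} := segment_same ℝ p
  rw [← h, area_segment]

/-- `μHE[2]` of a triangle is finite. -/
theorem area_triangle_ne_top (p q r : E3) : μHE[2] (convexHull ℝ {p, q, r}) ≠ ⊤ := by
  rw [area_triangle]
  exact ENNReal.ofReal_ne_top

/-! ### Raw Hausdorff measure versus `μHE[2]` -/

/-- The raw Hausdorff measure `μH[2]` is a positive finite multiple of `μHE[2]`. -/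
theorem exists_hausdorff_eq_mul :
    ∃ k : ℝ, 0 < k ∧ ∀ s : Set E3, μH[(2 : ℝ)] s = ENNReal.ofReal k * μHE[2] s := by
  set c := Measure.addHaarScalarFactor (volume : Measure (EuclideanSpace ℝ (Fin 2))) μH[(2 : ℕ)]
    with hc
  have hc0 : c ≠ 0 := Measure.addHaarScalarFactor_volume_hausdorffMeasure_ne_zero 2
  have hcpos : 0 < (c : ℝ) := by
    have : 0 < c := pos_iff_ne_zero.mpr hc0
    exact_mod_cast this
  refine ⟨(c : ℝ)⁻¹, inv_pos.mpr hcpos, fun s => ?_⟩
  have h1 : μHE[2] s = (c : ENNReal) * μH[(2 : ℝ)] s := by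
    rw [Measure.euclideanHausdorffMeasure_def, Measure.smul_apply]
    simp [hc, ENNReal.smul_def]
  rw [h1, ← mul_assoc, ENNReal.ofReal_inv_of_pos hcpos, ENNReal.ofReal_coe_nnreal,
    ENNReal.inv_mul_cancel (by exact_mod_cast hc0) ENNReal.coe_ne_top, one_mul]

end Crest.Agent.Helper9.Area
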