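import Mathlib
import Crest.Agent.Helper9.Area

/-!
# Orthogonal projections of planar figures in 3-space (helper9, row 211)

* `proj u y = y - (⟪y, u⟫ / ‖u‖²) • u`, the orthogonal projection onto `u^⊥`;
* `triple a b u`, the triple product (3×3 determinant), with `gram3_eq_triple_sq`,
  `gram_eq_triple_sq_of_perp`;
* `gram_proj`: `gram (proj u a) (proj u b) = triple a b u ^ 2 / ‖u‖ ^ 2`;
* `gram_proj_perp`: for `A, B, w ⟂ e`, `‖e‖ = 1`:
  `gram (proj (e + w) A) (proj (e + w) B) = gram A B / (1 + ‖w‖²)`;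
* `area_proj_triangle`: area of the projection of a triangle;
* `mem_cylinder_iff`: membership in a cylinder with perpendicular base.
-/

set_option autoImplicit false
open MeasureTheory

namespace Crest.Agent.Helper9.Area

/-- Orthogonal projection onto the plane `u^⊥` (for `u ≠ 0`). -/
noncomputable def proj (u y : E3) : E3 := y - (inner ℝ y u / ‖u‖ ^ 2) • u

theorem proj_unit (v y : E3) (hv : ‖v‖ = 1) : proj v y = y - inner ℝ y v • v := by
  simp [proj, hv]

theorem proj_fun_unit (v : E3) (hv : ‖v‖ = 1) : proj v = fun y => y - inner ℝ y v • v := by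
  funext y
  exact proj_unit v y hv

/-- `proj u` as a linear map. -/
noncomputable def projL (u : E3) : E3 →ₗ[ℝ] E3 where
  toFun := proj u
  map_add' x y := by
    simp only [proj, inner_add_left, add_div, add_smul]
    abel
  map_smul' c x := by
    simp only [proj, inner_smul_left, RingHom.id_apply, conj_trivial, smul_sub, smul_smul,
      mul_div_assoc]

theorem projL_apply (u y : E3) : projL u y = proj u y := rfl

theorem inner_proj_self (u y : E3) (hu : u ≠ 0) : inner ℝ (proj u y) u = 0 := by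
  have hu2 : ‖u‖ ^ 2 ≠ 0 := by positivity
  simp only [proj, inner_sub_left, inner_smul_left, conj_trivial, real_inner_self_eq_norm_sq]
  field_simp
  ring

theorem proj_of_perp (u y : E3) (h : inner ℝ y u = 0) : proj u y = y := by
  simp [proj, h]

theorem proj_add_smul (u y : E3) (t : ℝ) (hu : u ≠ 0) : proj u (y + t • u) = proj u y := by
  have hu2 : ‖u‖ ^ 2 ≠ 0 := by positivity
  simp only [proj, inner_add_left, inner_smul_left, conj_trivial, real_inner_self_eq_norm_sq]
  have : (inner ℝ y u + t * ‖u‖ ^ 2) / ‖u‖ ^ 2 = inner ℝ y u / ‖u‖ ^ 2 + t := by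
    field_simp
  rw [this, add_smul]
  abel

theorem inner_proj_proj (u a b : E3) (hu : u ≠ 0) :
    inner ℝ (proj u a) (proj u b) = inner ℝ a b - inner ℝ a u * inner ℝ b u / ‖u‖ ^ 2 := by
  have hu2 : ‖u‖ ^ 2 ≠ 0 := by positivity
  simp only [proj, inner_sub_left, inner_sub_right, inner_smul_left, inner_smul_right, conj_trivial,
    real_inner_self_eq_norm_sq, real_inner_comm u a, real_inner_comm u b]
  field_simp
  ring

theorem norm_proj_sq (u a : E3) (hu : u ≠ 0) :
    ‖proj u a‖ ^ 2 = ‖a‖ ^ 2 - inner ℝ a u ^ 2 / ‖u‖ ^ 2 := by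
  rw [← real_inner_self_eq_norm_sq, inner_proj_proj u a a hu, real_inner_self_eq_norm_sq]
  ring

/-- A point lies in the cylinder over a base `B ⊆ u^⊥` with axis `u` iff its projection lies in
`B`. -/
theorem mem_cylinder_iff (u : E3) (hu : u ≠ 0) (B : Set E3) (hB : ∀ y ∈ B, inner ℝ y u = 0)
    (x : E3) : (∃ y ∈ B, ∃ t : ℝ, x = y + t • u) ↔ proj u x ∈ B := by
  constructor
  · rintro ⟨y, hy, t, rfl⟩
    rw [proj_add_smul u y t hu, proj_of_perp u y (hB y hy)]
    exact hy
  · intro h
    refine ⟨proj u x, h, inner ℝ x u / ‖u‖ ^ 2, ?_⟩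
    simp [proj]

/-- Triple product (determinant of the matrix with rows `a`, `b`, `u`). -/
noncomputable def triple (a b u : E3) : ℝ :=
  a 0 * (b 1 * u 2 - b 2 * u 1) - a 1 * (b 0 * u 2 - b 2 * u 0) + a 2 * (b 0 * u 1 - b 1 * u 0)

theorem inner_coord (a b : E3) : inner ℝ a b = a 0 * b 0 + a 1 * b 1 + a 2 * b 2 := by
  simp only [PiLp.inner_apply, RCLike.inner_apply, conj_trivial, Fin.sum_univ_three]
  ring

theorem norm_sq_coord (a : E3) : ‖a‖ ^ 2 = a 0 ^ 2 + a 1 ^ 2 + a 2 ^ 2 := by
  rw [← real_inner_self_eq_norm_sq, inner_coord]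
  ring

/-- Lagrange identity: the Gram determinant is the squared norm of the cross product. -/
theorem gram_coord (a b : E3) :
    gram a b = (a 1 * b 2 - a 2 * b 1) ^ 2 + (a 2 * b 0 - a 0 * b 2) ^ 2
      + (a 0 * b 1 - a 1 * b 0) ^ 2 := by
  unfold gram
  rw [norm_sq_coord, norm_sq_coord, inner_coord]
  ring

/-- The 3×3 Gram determinant is the square of the triple product. -/
theorem gram3_eq_triple_sq (a b u : E3) :
    ‖a‖ ^ 2 * ‖b‖ ^ 2 * ‖u‖ ^ 2 + 2 * inner ℝ a b * inner ℝ a u * inner ℝ b u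
      - ‖a‖ ^ 2 * inner ℝ b u ^ 2 - ‖b‖ ^ 2 * inner ℝ a u ^ 2 - ‖u‖ ^ 2 * inner ℝ a b ^ 2
      = triple a b u ^ 2 := by
  rw [norm_sq_coord, norm_sq_coord, norm_sq_coord, inner_coord, inner_coord, inner_coord]
  unfold triple
  ring

/-- Gram determinant of the projections. -/
theorem gram_proj (u a b : E3) (hu : u ≠ 0) :
    gram (proj u a) (proj u b) = triple a b u ^ 2 / ‖u‖ ^ 2 := by
  have hu2 : ‖u‖ ^ 2 ≠ 0 := by positivity
  rw [← gram3_eq_triple_sq]
  unfold gram
  rw [norm_proj_sq u a hu, norm_proj_sq u b hu, inner_proj_proj u a b hu]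
  field_simp
  ring

theorem triple_add_right (a b u w : E3) : triple a b (u + w) = triple a b u + triple a b w := by
  unfold triple
  simp only [PiLp.add_apply]
  ring

/-- Three vectors orthogonal to a nonzero vector are linearly dependent. -/
theorem triple_eq_zero_of_perp (e a b w : E3) (he : e ≠ 0) (ha : inner ℝ a e = 0)
    (hb : inner ℝ b e = 0) (hw : inner ℝ w e = 0) : triple a b w = 0 := by
  rw [inner_coord] at ha hb hw
  have h0 : triple a b w * e 0 = 0 := by
    unfold triple
    linear_combination (b 1 * w 2 - b 2 * w 1) * ha - (a 1 * w 2 - a 2 * w 1) * hb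
      + (a 1 * b 2 - a 2 * b 1) * hw
  have h1 : triple a b w * e 1 = 0 := by
    unfold triple
    linear_combination -(b 0 * w 2 - b 2 * w 0) * ha + (a 0 * w 2 - a 2 * w 0) * hb
      - (a 0 * b 2 - a 2 * b 0) * hw
  have h2 : triple a b w * e 2 = 0 := by
    unfold triple
    linear_combination (b 0 * w 1 - b 1 * w 0) * ha - (a 0 * w 1 - a 1 * w 0) * hb
      + (a 0 * b 1 - a 1 * b 0) * hw
  have hne : ‖e‖ ^ 2 ≠ 0 := by positivity
  rw [norm_sq_coord] at hne
  by_contra hT
  apply hne
  have e0 : e 0 = 0 := by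
    rcases mul_eq_zero.mp h0 with h | h
    · exact absurd h hT
    · exact h
  have e1 : e 1 = 0 := by
    rcases mul_eq_zero.mp h1 with h | h
    · exact absurd h hT
    · exact h
  have e2 : e 2 = 0 := by
    rcases mul_eq_zero.mp h2 with h | h
    · exact absurd h hT
    · exact h
  rw [e0, e1, e2]
  ring

/-- For `a, b ⟂ e` with `‖e‖ = 1`, the triple product with `e` squares to the Gram determinant. -/
theorem triple_sq_of_perp (e a b : E3) (he : ‖e‖ = 1) (ha : inner ℝ a e = 0)
    (hb : inner ℝ b e = 0) : triple a b e ^ 2 = gram a b := by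
  rw [← gram3_eq_triple_sq, ha, hb, he]
  unfold gram
  ring

/-- For `A, B, w ⟂ e` with `‖e‖ = 1`: projecting along `e + w` divides the Gram determinant by
`1 + ‖w‖²`. -/
theorem gram_proj_perp (e w A B : E3) (he : ‖e‖ = 1) (hA : inner ℝ A e = 0)
    (hB : inner ℝ B e = 0) (hw : inner ℝ w e = 0) :
    gram (proj (e + w) A) (proj (e + w) B) = gram A B / (1 + ‖w‖ ^ 2) := by
  have he0 : e ≠ 0 := by
    intro h
    rw [h, norm_zero] at he
    exact zero_ne_one he
  have hnorm : ‖e + w‖ ^ 2 = 1 + ‖w‖ ^ 2 := by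
    rw [norm_add_sq_real, he, real_inner_comm, hw]
    ring
  have hne : e + w ≠ 0 := by
    intro h
    rw [h, norm_zero] at hnorm
    nlinarith [sq_nonneg ‖w‖]
  rw [gram_proj _ _ _ hne, hnorm, triple_add_right, triple_eq_zero_of_perp e A B w he0 hA hB hw,
    add_zero, triple_sq_of_perp e A B he hA hB]

/-- The projection of a triangle is the triangle of the projected vertices. -/
theorem proj_image_triangle (u p q r : E3) :
    proj u '' convexHull ℝ {p, q, r} = convexHull ℝ {proj u p, proj u q, proj u r} := by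
  have h := (projL u).image_convexHull ({p, q, r} : Set E3)
  have h2 : (projL u) '' ({p, q, r} : Set E3) = {proj u p, proj u q, proj u r} := by
    simp [Set.image_insert_eq, projL_apply]
  rw [h2] at h
  exact h

/-- Area of the orthogonal projection of a triangle. -/
theorem area_proj_triangle (u p q r : E3) (hu : u ≠ 0) :
    μHE[2] (proj u '' convexHull ℝ {p, q, r})
      = ENNReal.ofReal (|triple (q - p) (r - p) u| / ‖u‖ / 2) := by
  have hu1 : 0 < ‖u‖ := norm_pos_iff.mpr hu
  rw [proj_image_triangle, area_triangle]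
  have e1 : proj u q - proj u p = proj u (q - p) := by
    rw [← projL_apply, ← projL_apply, ← projL_apply, map_sub]
  have e2 : proj u r - proj u p = proj u (r - p) := by
    rw [← projL_apply, ← projL_apply, ← projL_apply, map_sub]
  rw [e1, e2, gram_proj _ _ _ hu, ← div_pow, Real.sqrt_sq_eq_abs, abs_div, abs_of_pos hu1]

end Crest.Agent.Helper9.Area
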