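import Mathlib
import Crest.Prelude.Def_Diamond
import Crest.Agent.Helper5.Row125Core

/-!
# Row 125, package P4c: countably branching diamonds

Graph-distance facts for the diamond graphs `D k` of `Def_Diamond` and the distortion lower bound
`1 + k/4 ≤ D²` for maps of `D k` into any real normed space whose maximum-based asymptotic
midpoint modulus is at least `√(1 + t²/4) - 1` at every `t > 0`.
-/

set_option autoImplicit false

open Crest.AnalysisR

namespace Crest.Agent.Helper9.Diamond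

/-! ## Vertices and edges of `D (k+1)` -/

/-- An old vertex, viewed in `D (k+1)`. -/
def vinl {k : ℕ} (u : DiamondVertex k) : DiamondVertex (k + 1) := Sum.inl u

/-- The `i`-th middle vertex of the edge `e`. -/
def vmid {k : ℕ} (e : DiamondEdge k) (i : ℕ) : DiamondVertex (k + 1) := Sum.inr (e, i)

/-- The half edges of `e` through its `i`-th middle vertex (`false`: first half). -/
def ehalf {k : ℕ} (e : DiamondEdge k) (i : ℕ) (b : Bool) : DiamondEdge (k + 1) := (e, i, b)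

lemma vertex_cases {k : ℕ} (v : DiamondVertex (k + 1)) :
    (∃ u, v = vinl u) ∨ (∃ e i, v = vmid e i) := by
  match v with
  | Sum.inl u => exact Or.inl ⟨u, rfl⟩
  | Sum.inr (e, i) => exact Or.inr ⟨e, i, rfl⟩

lemma edge_cases {k : ℕ} (e' : DiamondEdge (k + 1)) : ∃ e i b, e' = ehalf e i b :=
  ⟨e'.1, e'.2.1, e'.2.2, rfl⟩

@[simp] lemma src_ehalf_false {k : ℕ} (e : DiamondEdge k) (i : ℕ) :
    diamondSrc (k + 1) (ehalf e i false) = vinl (diamondSrc k e) := rfl

@[simp] lemma tgt_ehalf_false {k : ℕ} (e : DiamondEdge k) (i : ℕ) :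
    diamondTgt (k + 1) (ehalf e i false) = vmid e i := rfl

@[simp] lemma src_ehalf_true {k : ℕ} (e : DiamondEdge k) (i : ℕ) :
    diamondSrc (k + 1) (ehalf e i true) = vmid e i := rfl

@[simp] lemma tgt_ehalf_true {k : ℕ} (e : DiamondEdge k) (i : ℕ) :
    diamondTgt (k + 1) (ehalf e i true) = vinl (diamondTgt k e) := rfl

lemma vinl_ne_vmid {k : ℕ} (u : DiamondVertex k) (e : DiamondEdge k) (i : ℕ) :
    vinl u ≠ vmid e i := fun h => by
  have : (Sum.inl u : DiamondVertex k ⊕ (DiamondEdge k × ℕ)) = Sum.inr (e, i) := h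
  exact Sum.inl_ne_inr this

lemma vinl_injective {k : ℕ} : Function.Injective (vinl (k := k)) := fun u v h => by
  have : (Sum.inl u : DiamondVertex k ⊕ (DiamondEdge k × ℕ)) = Sum.inl v := h
  exact Sum.inl_injective this

lemma vmid_ne_of_ne {k : ℕ} (e : DiamondEdge k) {i j : ℕ} (hij : i ≠ j) :
    vmid e i ≠ vmid e j := fun h => by
  have : (Sum.inr (e, i) : DiamondVertex k ⊕ (DiamondEdge k × ℕ)) = Sum.inr (e, j) := h
  have h2 := Sum.inr_injective this
  exact hij (Prod.mk.inj h2).2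

lemma src_ne_tgt : ∀ (k : ℕ) (e : DiamondEdge k), diamondSrc k e ≠ diamondTgt k e
  | 0, _ => by
    show (false : Bool) ≠ true
    exact Bool.false_ne_true
  | k + 1, e' => by
    obtain ⟨e, i, b, rfl⟩ := edge_cases e'
    cases b
    · simpa using vinl_ne_vmid _ e i
    · simpa using (vinl_ne_vmid _ e i).symm

/-! ## Adjacency -/

lemma adj_iff {k : ℕ} (u v : DiamondVertex k) :
    (diamondGraph k).Adj u v ↔
      ∃ e : DiamondEdge k, (diamondSrc k e = u ∧ diamondTgt k e = v) ∨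
        (diamondSrc k e = v ∧ diamondTgt k e = u) := by
  unfold diamondGraph
  rw [SimpleGraph.fromRel_adj]
  constructor
  · rintro ⟨-, ⟨e, h⟩ | ⟨e, h⟩⟩
    · exact ⟨e, Or.inl h⟩
    · exact ⟨e, Or.inr h⟩
  · rintro ⟨e, ⟨h1, h2⟩ | ⟨h1, h2⟩⟩
    · exact ⟨by rw [← h1, ← h2]; exact src_ne_tgt k e, Or.inl ⟨e, h1, h2⟩⟩
    · exact ⟨by rw [← h1, ← h2]; exact (src_ne_tgt k e).symm, Or.inr ⟨e, h1, h2⟩⟩

lemma adj_src_tgt (k : ℕ) (e : DiamondEdge k) :
    (diamondGraph k).Adj (diamondSrc k e) (diamondTgt k e) :=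
  (adj_iff _ _).mpr ⟨e, Or.inl ⟨rfl, rfl⟩⟩

lemma adj_vinl_src_vmid {k : ℕ} (e : DiamondEdge k) (i : ℕ) :
    (diamondGraph (k + 1)).Adj (vinl (diamondSrc k e)) (vmid e i) :=
  adj_src_tgt (k + 1) (ehalf e i false)

lemma adj_vmid_vinl_tgt {k : ℕ} (e : DiamondEdge k) (i : ℕ) :
    (diamondGraph (k + 1)).Adj (vmid e i) (vinl (diamondTgt k e)) :=
  adj_src_tgt (k + 1) (ehalf e i true)

lemma not_adj_vmid_vmid {k : ℕ} (e e' : DiamondEdge k) (i i' : ℕ) :
    ¬ (diamondGraph (k + 1)).Adj (vmid e i) (vmid e' i') := by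
  rw [adj_iff]
  rintro ⟨e'', h⟩
  obtain ⟨e0, i0, b, rfl⟩ := edge_cases e''
  cases b
  · rcases h with ⟨h1, -⟩ | ⟨h1, -⟩
    · exact vinl_ne_vmid _ _ _ (by simpa using h1)
    · exact vinl_ne_vmid _ _ _ (by simpa using h1)
  · rcases h with ⟨-, h2⟩ | ⟨-, h2⟩
    · exact vinl_ne_vmid _ _ _ (by simpa using h2)
    · exact vinl_ne_vmid _ _ _ (by simpa using h2)

/-! ## Connectedness -/

lemma reachable_vinl {k : ℕ} {u v : DiamondVertex k} (h : (diamondGraph k).Reachable u v) :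
    (diamondGraph (k + 1)).Reachable (vinl u) (vinl v) := by
  obtain ⟨p⟩ := h
  induction p with
  | nil => exact SimpleGraph.Reachable.refl _
  | cons hadj _ ih =>
    refine SimpleGraph.Reachable.trans ?_ ih
    obtain ⟨e, ⟨h1, h2⟩ | ⟨h1, h2⟩⟩ := (adj_iff _ _).mp hadj
    · rw [← h1, ← h2]
      exact (adj_vinl_src_vmid e 0).reachable.trans (adj_vmid_vinl_tgt e 0).reachable
    · rw [← h1, ← h2]
      exact ((adj_vinl_src_vmid e 0).reachable.trans (adj_vmid_vinl_tgt e 0).reachable).symm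

lemma preconnected : ∀ k : ℕ, (diamondGraph k).Preconnected
  | 0 => by
    have h01 : (diamondGraph 0).Reachable (false : Bool) (true : Bool) :=
      (adj_src_tgt 0 ()).reachable
    intro u v
    have hu : ∀ w : DiamondVertex 0, (diamondGraph 0).Reachable (false : Bool) w := by
      intro w
      match w with
      | false => exact SimpleGraph.Reachable.refl _
      | true => exact h01
    exact (hu u).symm.trans (hu v)
  | k + 1 => by
    have ih := preconnected k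
    have key : ∀ w : DiamondVertex (k + 1), ∃ u : DiamondVertex k,
        (diamondGraph (k + 1)).Reachable w (vinl u) := by
      intro w
      rcases vertex_cases w with ⟨u, rfl⟩ | ⟨e, i, rfl⟩
      · exact ⟨u, SimpleGraph.Reachable.refl _⟩
      · exact ⟨_, (adj_vmid_vinl_tgt e i).reachable⟩
    intro x y
    obtain ⟨u, hu⟩ := key x
    obtain ⟨v, hv⟩ := key y
    exact hu.trans ((reachable_vinl (ih u v)).trans hv.symm)

lemma connected (k : ℕ) : (diamondGraph k).Connected := by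
  have : Nonempty (DiamondVertex k) := ⟨diamondSrc k (by
    induction k with
    | zero => exact ()
    | succ k ih => exact ehalf ih 0 false)⟩
  exact ⟨preconnected k⟩

/-! ## Potentials and distances -/

/-- A function that changes by at most one along every edge changes by at most the graph
distance. -/
lemma abs_sub_le_dist {k : ℕ} (φ : DiamondVertex k → ℝ)
    (hφ : ∀ e : DiamondEdge k, |φ (diamondSrc k e) - φ (diamondTgt k e)| ≤ 1)
    (u v : DiamondVertex k) : |φ u - φ v| ≤ (diamondDist k u v : ℝ) := by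
  have hwalk : ∀ (u v : DiamondVertex k) (p : (diamondGraph k).Walk u v),
      |φ u - φ v| ≤ (p.length : ℝ) := by
    intro u v p
    induction p with
    | nil => simp
    | cons hadj p ih =>
      rename_i a b c
      have h1 : |φ a - φ b| ≤ 1 := by
        obtain ⟨e, ⟨h1, h2⟩ | ⟨h1, h2⟩⟩ := (adj_iff _ _).mp hadj
        · rw [← h1, ← h2]; exact hφ e
        · rw [← h1, ← h2, abs_sub_comm]; exact hφ e
      have h2 : |φ a - φ c| ≤ |φ a - φ b| + |φ b - φ c| := abs_sub_le _ _ _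
      rw [SimpleGraph.Walk.length_cons]
      push_cast
      linarith
  obtain ⟨p, hp⟩ := (connected k).exists_walk_length_eq_dist u v
  unfold diamondDist
  rw [← hp]
  exact hwalk u v p

lemma dist_src_tgt (k : ℕ) (e : DiamondEdge k) :
    diamondDist k (diamondSrc k e) (diamondTgt k e) = 1 :=
  SimpleGraph.dist_eq_one_iff_adj.mpr (adj_src_tgt k e)

lemma dist_comm' (k : ℕ) (u v : DiamondVertex k) : diamondDist k u v = diamondDist k v u :=
  SimpleGraph.dist_comm

lemma dist_vinl_src_vmid {k : ℕ} (e : DiamondEdge k) (i : ℕ) :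
    diamondDist (k + 1) (vinl (diamondSrc k e)) (vmid e i) = 1 :=
  SimpleGraph.dist_eq_one_iff_adj.mpr (adj_vinl_src_vmid e i)

lemma dist_vmid_vinl_tgt {k : ℕ} (e : DiamondEdge k) (i : ℕ) :
    diamondDist (k + 1) (vmid e i) (vinl (diamondTgt k e)) = 1 :=
  SimpleGraph.dist_eq_one_iff_adj.mpr (adj_vmid_vinl_tgt e i)

lemma two_le_dist_vmid_vmid {k : ℕ} (e : DiamondEdge k) {i j : ℕ} (hij : i ≠ j) :
    2 ≤ diamondDist (k + 1) (vmid e i) (vmid e j) :=
  (connected (k + 1)).one_lt_dist_of_ne_of_not_adj (vmid_ne_of_ne e hij)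
    (not_adj_vmid_vmid e e i j)

/-- Lifting a walk of `D k` to a walk of twice the length in `D (k+1)`. -/
lemma exists_walk_vinl {k : ℕ} {u v : DiamondVertex k} (p : (diamondGraph k).Walk u v) :
    ∃ q : (diamondGraph (k + 1)).Walk (vinl u) (vinl v), q.length = 2 * p.length := by
  induction p with
  | nil => exact ⟨SimpleGraph.Walk.nil, rfl⟩
  | cons hadj p ih =>
    obtain ⟨q, hq⟩ := ih
    obtain ⟨e, ⟨h1, h2⟩ | ⟨h1, h2⟩⟩ := (adj_iff _ _).mp hadj
    · subst h1 h2
      refine ⟨SimpleGraph.Walk.cons (adj_vinl_src_vmid e 0)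
        (SimpleGraph.Walk.cons (adj_vmid_vinl_tgt e 0) q), ?_⟩
      simp only [SimpleGraph.Walk.length_cons, hq]
      ring
    · subst h1 h2
      refine ⟨SimpleGraph.Walk.cons (adj_vmid_vinl_tgt e 0).symm
        (SimpleGraph.Walk.cons (adj_vinl_src_vmid e 0).symm q), ?_⟩
      simp only [SimpleGraph.Walk.length_cons, hq]
      ring

/-- Old vertices are twice as far apart in the next diamond. -/
lemma dist_vinl {k : ℕ} (u v : DiamondVertex k) :
    diamondDist (k + 1) (vinl u) (vinl v) = 2 * diamondDist k u v := by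
  apply le_antisymm
  · obtain ⟨p, hp⟩ := (connected k).exists_walk_length_eq_dist u v
    obtain ⟨q, hq⟩ := exists_walk_vinl p
    unfold diamondDist
    rw [← hp, ← hq]
    exact SimpleGraph.dist_le q
  · -- potential argument
    let φ : DiamondVertex k → ℝ := fun x => (diamondDist k u x : ℝ)
    have hφ : ∀ e : DiamondEdge k, |φ (diamondSrc k e) - φ (diamondTgt k e)| ≤ 1 := by
      intro e
      have h1 : diamondDist k u (diamondTgt k e) ≤
          diamondDist k u (diamondSrc k e) + diamondDist k (diamondSrc k e) (diamondTgt k e) :=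
        (connected k).dist_triangle
      have h2 : diamondDist k u (diamondSrc k e) ≤
          diamondDist k u (diamondTgt k e) + diamondDist k (diamondTgt k e) (diamondSrc k e) :=
        (connected k).dist_triangle
      rw [dist_comm' k (diamondTgt k e), dist_src_tgt] at h2
      rw [dist_src_tgt] at h1
      have h1' : (diamondDist k u (diamondTgt k e) : ℝ) ≤ diamondDist k u (diamondSrc k e) + 1 := by
        exact_mod_cast h1
      have h2' : (diamondDist k u (diamondSrc k e) : ℝ) ≤ diamondDist k u (diamondTgt k e) + 1 := by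
        exact_mod_cast h2
      rw [abs_le]
      constructor <;> simp only [φ] <;> linarith
    let φ' : DiamondVertex (k + 1) → ℝ :=
      (Sum.elim (fun x => 2 * φ x) (fun p => φ (diamondSrc k p.1) + φ (diamondTgt k p.1)) :
        DiamondVertex k ⊕ (DiamondEdge k × ℕ) → ℝ)
    have hφ'inl : ∀ x, φ' (vinl x) = 2 * φ x := fun x => rfl
    have hφ'mid : ∀ e i, φ' (vmid e i) = φ (diamondSrc k e) + φ (diamondTgt k e) :=
      fun e i => rfl
    have hφ' : ∀ e' : DiamondEdge (k + 1),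
        |φ' (diamondSrc (k + 1) e') - φ' (diamondTgt (k + 1) e')| ≤ 1 := by
      intro e'
      obtain ⟨e, i, b, rfl⟩ := edge_cases e'
      cases b
      · rw [src_ehalf_false, tgt_ehalf_false, hφ'inl, hφ'mid]
        have := hφ e
        rw [abs_le] at this ⊢
        constructor <;> linarith [this.1, this.2]
      · rw [src_ehalf_true, tgt_ehalf_true, hφ'inl, hφ'mid]
        have := hφ e
        rw [abs_le] at this ⊢
        constructor <;> linarith [this.1, this.2]
    have hmain := abs_sub_le_dist φ' hφ' (vinl u) (vinl v)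
    rw [hφ'inl, hφ'inl] at hmain
    have hu : φ u = 0 := by
      simp only [φ, diamondDist, SimpleGraph.dist_self, Nat.cast_zero]
    have hv : φ v = (diamondDist k u v : ℝ) := rfl
    rw [hu, hv] at hmain
    have h3 : |2 * (0 : ℝ) - 2 * (diamondDist k u v : ℝ)| = 2 * (diamondDist k u v : ℝ) := by
      rw [mul_zero, zero_sub, abs_neg, abs_of_nonneg (by positivity)]
    rw [h3] at hmain
    exact_mod_cast hmain

/-! ## The analytic key step -/

section Analytic

variable {V : Type*} [NormedAddCommGroup V] [NormedSpace ℝ V]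

/-- The maximum-based asymptotic midpoint modulus of the norm of `V` is at least
`√(1 + t²/4) - 1` at every `t > 0` (subspace form of `RealBanach.MaxMidpointModulusGE`). -/
def MaxMod (V : Type*) [NormedAddCommGroup V] [NormedSpace ℝ V] : Prop :=
  ∀ t : ℝ, 0 < t → ∀ x : V, ‖x‖ = 1 → ∀ η : ℝ, 0 < η → ∃ S : Submodule ℝ V,
    IsClosed (S : Set V) ∧ FiniteDimensional ℝ (V ⧸ S) ∧
    ∀ y ∈ S, ‖y‖ = 1 →
      Real.sqrt (1 + t ^ 2 / 4) - 1 - η ≤ max ‖x + t • y‖ ‖x - t • y‖ - 1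

/-- `t ↦ max ‖x + t u‖ ‖x - t u‖` is nondecreasing on `t ≥ 0`. -/
lemma max_norm_mono (x u : V) {t0 t : ℝ} (h0 : 0 ≤ t0) (h : t0 ≤ t) (ht : 0 < t) :
    max ‖x + t0 • u‖ ‖x - t0 • u‖ ≤ max ‖x + t • u‖ ‖x - t • u‖ := by
  set l := (t + t0) / (2 * t) with hl
  have hl0 : 0 ≤ l := by positivity
  have hl1 : 0 ≤ 1 - l := by
    have : l ≤ 1 := by
      rw [hl, div_le_one (by positivity)]
      linarith
    linarith
  have hlt : (2 * l - 1) * t = t0 := by
    rw [hl]
    field_simp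
    ring
  have e1 : x + t0 • u = l • (x + t • u) + (1 - l) • (x - t • u) := by
    rw [← hlt]
    module
  have e2 : x - t0 • u = (1 - l) • (x + t • u) + l • (x - t • u) := by
    rw [← hlt]
    module
  set M := max ‖x + t • u‖ ‖x - t • u‖ with hM
  have hM1 : ‖x + t • u‖ ≤ M := le_max_left _ _
  have hM2 : ‖x - t • u‖ ≤ M := le_max_right _ _
  apply max_le
  · rw [e1]
    calc ‖l • (x + t • u) + (1 - l) • (x - t • u)‖
        ≤ ‖l • (x + t • u)‖ + ‖(1 - l) • (x - t • u)‖ := norm_add_le _ _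
      _ = l * ‖x + t • u‖ + (1 - l) * ‖x - t • u‖ := by
          rw [norm_smul, norm_smul, Real.norm_of_nonneg hl0, Real.norm_of_nonneg hl1]
      _ ≤ l * M + (1 - l) * M := by
          have := mul_le_mul_of_nonneg_left hM1 hl0
          have := mul_le_mul_of_nonneg_left hM2 hl1
          linarith
      _ = M := by ring
  · rw [e2]
    calc ‖(1 - l) • (x + t • u) + l • (x - t • u)‖
        ≤ ‖(1 - l) • (x + t • u)‖ + ‖l • (x - t • u)‖ := norm_add_le _ _
      _ = (1 - l) * ‖x + t • u‖ + l * ‖x - t • u‖ := by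
          rw [norm_smul, norm_smul, Real.norm_of_nonneg hl0, Real.norm_of_nonneg hl1]
      _ ≤ (1 - l) * M + l * M := by
          have := mul_le_mul_of_nonneg_left hM1 hl1
          have := mul_le_mul_of_nonneg_left hM2 hl0
          linarith
      _ = M := by ring

lemma sqrt_shift (X lam δ : ℝ) (hδ0 : 0 ≤ δ) (_hδ : δ ≤ lam) :
    Real.sqrt (X ^ 2 + lam ^ 2 / 4) - δ / 2 ≤ Real.sqrt (X ^ 2 + (lam - δ) ^ 2 / 4) := by
  rw [sub_le_iff_le_add]
  have hnn : 0 ≤ X ^ 2 + (lam - δ) ^ 2 / 4 := by positivity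
  have hB : (lam - δ) / 2 ≤ Real.sqrt (X ^ 2 + (lam - δ) ^ 2 / 4) := by
    apply Real.le_sqrt_of_sq_le
    nlinarith [sq_nonneg X]
  have hBsq := Real.sq_sqrt hnn
  have hB0 := Real.sqrt_nonneg (X ^ 2 + (lam - δ) ^ 2 / 4)
  apply Real.sqrt_le_iff.mpr
  constructor
  · positivity
  · nlinarith

lemma sqrt_lip (r R δ : ℝ) (_hr : 0 ≤ r) (hR : 0 ≤ R) (hδ : 0 ≤ δ) (h : R - δ ≤ r) :
    Real.sqrt (R ^ 2 + 1 / 4) - δ ≤ Real.sqrt (r ^ 2 + 1 / 4) := by
  rw [sub_le_iff_le_add]
  have hnn : 0 ≤ r ^ 2 + 1 / 4 := by positivity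
  have hB : r ≤ Real.sqrt (r ^ 2 + 1 / 4) := by
    apply Real.le_sqrt_of_sq_le
    linarith
  have hBsq := Real.sq_sqrt hnn
  have hB0 := Real.sqrt_nonneg (r ^ 2 + 1 / 4)
  apply Real.sqrt_le_iff.mpr
  constructor
  · positivity
  · have h1 : R ≤ r + δ := by linarith
    have h2 : R ^ 2 ≤ (r + δ) ^ 2 := pow_le_pow_left₀ hR h1 2
    nlinarith

/-- **Key step.**  If the points `m i` are `2λ`-separated and bounded, then for some pair
`i ≠ j` one of the four half edges `a - m i`, `m i - c`, `a - m j`, `m j - c` is nearly as long as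
`√((‖a - c‖/2)² + (λ/2)²)`. -/
lemma key_step (hmod : MaxMod V) (a c : V) (m : ℕ → V) (lam B : ℝ) (hlam : 0 < lam)
    (hac : a ≠ c) (hB : ∀ i, ‖m i - a‖ ≤ B) (hsep : ∀ i j, i ≠ j → 2 * lam ≤ ‖m i - m j‖)
    (γ : ℝ) (hγ : 0 < γ) :
    ∃ i j, i ≠ j ∧ Real.sqrt ((‖a - c‖ / 2) ^ 2 + lam ^ 2 / 4) - γ ≤
      max (max ‖a - m i‖ ‖m i - c‖) (max ‖a - m j‖ ‖m j - c‖) := by
  obtain ⟨x, hx⟩ : ∃ x : V, x = (1 / 2 : ℝ) • (a - c) := ⟨_, rfl⟩
  obtain ⟨X, hX⟩ : ∃ X : ℝ, X = ‖x‖ := ⟨_, rfl⟩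
  have hX2 : X = ‖a - c‖ / 2 := by
    rw [hX, hx, norm_smul]
    norm_num
    ring
  have hXpos : 0 < X := by
    rw [hX2]
    have : 0 < ‖a - c‖ := norm_pos_iff.mpr (sub_ne_zero.mpr hac)
    positivity
  obtain ⟨ε, hε⟩ : ∃ ε : ℝ, ε = min lam γ := ⟨_, rfl⟩
  have hεpos : 0 < ε := by rw [hε]; exact lt_min hlam hγ
  have hεlam : ε ≤ lam := by rw [hε]; exact min_le_left _ _
  have hεγ : ε ≤ γ := by rw [hε]; exact min_le_right _ _
  obtain ⟨η, hη⟩ : ∃ η : ℝ, η = γ / (4 * X) := ⟨_, rfl⟩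
  have hηpos : 0 < η := by rw [hη]; positivity
  have hηX : η * X = γ / 4 := by
    rw [hη]
    field_simp
  obtain ⟨t0, ht0⟩ : ∃ t0 : ℝ, t0 = (lam - ε / 2) / X := ⟨_, rfl⟩
  have ht0pos : 0 < t0 := by
    rw [ht0]
    apply div_pos _ hXpos
    linarith
  have hXt0 : X * t0 = lam - ε / 2 := by
    rw [ht0]
    field_simp
  have hxhat : ‖X⁻¹ • x‖ = 1 := by
    rw [norm_smul, norm_inv, Real.norm_of_nonneg hXpos.le, ← hX, inv_mul_cancel₀ hXpos.ne']
  obtain ⟨S, hScl, hSfin, hS⟩ := hmod t0 ht0pos (X⁻¹ • x) hxhat η hηpos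
  haveI := hSfin
  obtain ⟨i, j, hij, y', hy'S, hy'⟩ :=
    Crest.Agent.Helper5.Row125.exists_pair_near_of_bounded S hScl m (B + ‖a‖) (fun i => by
      calc ‖m i‖ = ‖(m i - a) + a‖ := by rw [sub_add_cancel]
        _ ≤ ‖m i - a‖ + ‖a‖ := norm_add_le _ _
        _ ≤ B + ‖a‖ := by linarith [hB i]) hεpos
  refine ⟨i, j, hij, ?_⟩
  obtain ⟨yh, hyh⟩ : ∃ yh : V, yh = (1 / 2 : ℝ) • y' := ⟨_, rfl⟩
  have hyhS : yh ∈ S := by rw [hyh]; exact S.smul_mem _ hy'S
  have hy'norm : 2 * lam - ε ≤ ‖y'‖ := by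
    have h1 := hsep i j hij
    have h2 : ‖m i - m j‖ ≤ ‖(m i - m j) - y'‖ + ‖y'‖ := by
      calc ‖m i - m j‖ = ‖((m i - m j) - y') + y'‖ := by rw [sub_add_cancel]
        _ ≤ _ := norm_add_le _ _
    linarith
  have hyhnorm : lam - ε / 2 ≤ ‖yh‖ := by
    rw [hyh, norm_smul]
    norm_num
    linarith
  have hyhpos : 0 < ‖yh‖ := by linarith
  obtain ⟨u, hu⟩ : ∃ u : V, u = ‖yh‖⁻¹ • yh := ⟨_, rfl⟩
  have huS : u ∈ S := by rw [hu]; exact S.smul_mem _ hyhS
  have hu1 : ‖u‖ = 1 := by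
    rw [hu, norm_smul, norm_inv, norm_norm, inv_mul_cancel₀ hyhpos.ne']
  have h1 := hS u huS hu1
  obtain ⟨t, ht⟩ : ∃ t : ℝ, t = ‖yh‖ / X := ⟨_, rfl⟩
  have htt0 : t0 ≤ t := by
    rw [ht0, ht]
    exact div_le_div_of_nonneg_right hyhnorm hXpos.le
  have htpos : 0 < t := lt_of_lt_of_le ht0pos htt0
  have hmono := max_norm_mono (X⁻¹ • x) u ht0pos.le htt0 htpos
  have htu : t • u = X⁻¹ • yh := by
    rw [hu, ht, smul_smul]
    congr 1
    field_simp
  have n1 : ‖X⁻¹ • x + t • u‖ = ‖x + yh‖ / X := by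
    rw [htu, ← smul_add, norm_smul, norm_inv, Real.norm_of_nonneg hXpos.le]
    ring
  have n2 : ‖X⁻¹ • x - t • u‖ = ‖x - yh‖ / X := by
    rw [htu, ← smul_sub, norm_smul, norm_inv, Real.norm_of_nonneg hXpos.le]
    ring
  rw [n1, n2] at hmono
  -- the four half edges
  obtain ⟨M4, hM4⟩ : ∃ M4 : ℝ,
      M4 = max (max ‖a - m i‖ ‖m i - c‖) (max ‖a - m j‖ ‖m j - c‖) := ⟨_, rfl⟩
  rw [← hM4]
  have hai : ‖a - m i‖ ≤ M4 := by rw [hM4]; exact (le_max_left _ _).trans (le_max_left _ _)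
  have hic : ‖m i - c‖ ≤ M4 := by rw [hM4]; exact (le_max_right _ _).trans (le_max_left _ _)
  have haj : ‖a - m j‖ ≤ M4 := by rw [hM4]; exact (le_max_left _ _).trans (le_max_right _ _)
  have hjc : ‖m j - c‖ ≤ M4 := by rw [hM4]; exact (le_max_right _ _).trans (le_max_right _ _)
  have hdiff : ‖yh - (1 / 2 : ℝ) • (m i - m j)‖ ≤ ε / 2 := by
    have : yh - (1 / 2 : ℝ) • (m i - m j) = (-(1 / 2) : ℝ) • ((m i - m j) - y') := by
      rw [hyh]
      module
    rw [this, norm_smul]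
    norm_num
    linarith
  have hplus : ‖x + yh‖ ≤ M4 + ε / 2 := by
    have e : x + yh = (1 / 2 : ℝ) • (a - m j) + (1 / 2 : ℝ) • (m i - c)
        + (yh - (1 / 2 : ℝ) • (m i - m j)) := by
      rw [hx]
      module
    rw [e]
    have h3 : ‖(1 / 2 : ℝ) • (a - m j)‖ = ‖a - m j‖ / 2 := by
      rw [norm_smul]; norm_num; ring
    have h4 : ‖(1 / 2 : ℝ) • (m i - c)‖ = ‖m i - c‖ / 2 := by
      rw [norm_smul]; norm_num; ring
    have := norm_add₃_le (a := (1 / 2 : ℝ) • (a - m j)) (b := (1 / 2 : ℝ) • (m i - c))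
      (c := yh - (1 / 2 : ℝ) • (m i - m j))
    linarith
  have hminus : ‖x - yh‖ ≤ M4 + ε / 2 := by
    have e : x - yh = (1 / 2 : ℝ) • (a - m i) + (1 / 2 : ℝ) • (m j - c)
        + (-(yh - (1 / 2 : ℝ) • (m i - m j))) := by
      rw [hx]
      module
    rw [e]
    have h3 : ‖(1 / 2 : ℝ) • (a - m i)‖ = ‖a - m i‖ / 2 := by
      rw [norm_smul]; norm_num; ring
    have h4 : ‖(1 / 2 : ℝ) • (m j - c)‖ = ‖m j - c‖ / 2 := by
      rw [norm_smul]; norm_num; ring
    have := norm_add₃_le (a := (1 / 2 : ℝ) • (a - m i)) (b := (1 / 2 : ℝ) • (m j - c))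
      (c := -(yh - (1 / 2 : ℝ) • (m i - m j)))
    rw [norm_neg] at this
    linarith
  have hmax : max (‖x + yh‖ / X) (‖x - yh‖ / X) ≤ (M4 + ε / 2) / X :=
    max_le (div_le_div_of_nonneg_right hplus hXpos.le)
      (div_le_div_of_nonneg_right hminus hXpos.le)
  have hchain : Real.sqrt (1 + t0 ^ 2 / 4) - η ≤ (M4 + ε / 2) / X := by linarith
  have hchain2 : X * Real.sqrt (1 + t0 ^ 2 / 4) ≤ M4 + ε / 2 + γ / 4 := by
    have := mul_le_mul_of_nonneg_left hchain hXpos.le
    rw [mul_div_cancel₀ _ hXpos.ne'] at this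
    nlinarith
  have hsq : X * Real.sqrt (1 + t0 ^ 2 / 4) = Real.sqrt (X ^ 2 + (lam - ε / 2) ^ 2 / 4) := by
    have e : X ^ 2 + (lam - ε / 2) ^ 2 / 4 = X ^ 2 * (1 + t0 ^ 2 / 4) := by
      rw [← hXt0]
      ring
    rw [e, Real.sqrt_mul (sq_nonneg X), Real.sqrt_sq hXpos.le]
  have hshift := sqrt_shift X lam (ε / 2) (by linarith) (by linarith)
  rw [← hX2]
  linarith

/-- Induction over the diamonds: some edge of `D k` is stretched by nearly `√(1 + k/4)`. -/
theorem exists_long_edge (hmod : MaxMod V) :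
    ∀ (k : ℕ) (f : DiamondVertex k → V) (lam D : ℝ), 0 < lam →
      (∀ u v, lam * (diamondDist k u v : ℝ) ≤ ‖f u - f v‖ ∧
        ‖f u - f v‖ ≤ D * lam * (diamondDist k u v : ℝ)) →
      ∀ γ : ℝ, 0 < γ → ∃ e : DiamondEdge k,
        lam * (Real.sqrt (1 + (k : ℝ) / 4) - k * γ) ≤ ‖f (diamondSrc k e) - f (diamondTgt k e)‖
  | 0, f, lam, D, _, hf, γ, _ => by
    refine ⟨(), ?_⟩
    have := (hf (diamondSrc 0 ()) (diamondTgt 0 ())).1
    have h1 : diamondDist 0 (diamondSrc 0 ()) (diamondTgt 0 ()) = 1 := dist_src_tgt 0 ()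
    rw [h1] at this
    simpa using this
  | k + 1, f, lam, D, hlam, hf, γ, hγ => by
    have hg : ∀ u v : DiamondVertex k,
        (2 * lam) * (diamondDist k u v : ℝ) ≤ ‖f (vinl u) - f (vinl v)‖ ∧
        ‖f (vinl u) - f (vinl v)‖ ≤ D * (2 * lam) * (diamondDist k u v : ℝ) := by
      intro u v
      have := hf (vinl u) (vinl v)
      rw [dist_vinl] at this
      push_cast at this
      constructor
      · linarith [this.1]
      · linarith [this.2]
    obtain ⟨e, he⟩ :=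
      exists_long_edge hmod k (fun u => f (vinl u)) (2 * lam) D (by linarith) hg γ hγ
    obtain ⟨a, ha⟩ : ∃ a : V, a = f (vinl (diamondSrc k e)) := ⟨_, rfl⟩
    obtain ⟨c, hc⟩ : ∃ c : V, c = f (vinl (diamondTgt k e)) := ⟨_, rfl⟩
    obtain ⟨m, hm⟩ : ∃ m : ℕ → V, m = fun i => f (vmid e i) := ⟨_, rfl⟩
    rw [← ha, ← hc] at he
    have hB : ∀ i, ‖m i - a‖ ≤ D * lam := by
      intro i
      have := (hf (vmid e i) (vinl (diamondSrc k e))).2
      rw [dist_comm', dist_vinl_src_vmid] at this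
      rw [hm, ha]
      simpa using this
    have hsep : ∀ i j, i ≠ j → 2 * lam ≤ ‖m i - m j‖ := by
      intro i j hij
      have h1 := (hf (vmid e i) (vmid e j)).1
      have h2 : (2 : ℝ) ≤ (diamondDist (k + 1) (vmid e i) (vmid e j) : ℝ) := by
        exact_mod_cast two_le_dist_vmid_vmid e hij
      rw [hm]
      nlinarith
    have hac2 : 2 * lam ≤ ‖a - c‖ := by
      have := (hg (diamondSrc k e) (diamondTgt k e)).1
      rw [dist_src_tgt] at this
      rw [ha, hc]
      simpa using this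
    have hac : a ≠ c := by
      intro h
      rw [h, sub_self, norm_zero] at hac2
      linarith
    obtain ⟨i, j, hij, hkey⟩ :=
      key_step hmod a c m lam (D * lam) hlam hac hB hsep (lam * γ) (by positivity)
    have hR : lam * (Real.sqrt (1 + ((k + 1 : ℕ) : ℝ) / 4) - k * γ) ≤
        Real.sqrt ((‖a - c‖ / 2) ^ 2 + lam ^ 2 / 4) := by
      obtain ⟨r, hr⟩ : ∃ r : ℝ, r = ‖a - c‖ / (2 * lam) := ⟨_, rfl⟩
      have hr1 : 1 ≤ r := by
        rw [hr, le_div_iff₀ (by positivity)]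
        linarith
      have e1 : (‖a - c‖ / 2) ^ 2 + lam ^ 2 / 4 = lam ^ 2 * (r ^ 2 + 1 / 4) := by
        rw [hr]
        field_simp
      rw [e1, Real.sqrt_mul (sq_nonneg lam), Real.sqrt_sq hlam.le]
      apply mul_le_mul_of_nonneg_left _ hlam.le
      obtain ⟨R, hRdef⟩ : ∃ R : ℝ, R = Real.sqrt (1 + (k : ℝ) / 4) := ⟨_, rfl⟩
      have hR0 : 0 ≤ R := by rw [hRdef]; exact Real.sqrt_nonneg _
      have hRsq : R ^ 2 = 1 + (k : ℝ) / 4 := by
        rw [hRdef]
        exact Real.sq_sqrt (by positivity)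
      have hrR : R - k * γ ≤ r := by
        rw [hr, le_div_iff₀ (by positivity)]
        rw [← hRdef] at he
        linarith
      have := sqrt_lip r R (k * γ) (by linarith) hR0 (by positivity) hrR
      have e2 : R ^ 2 + 1 / 4 = 1 + ((k + 1 : ℕ) : ℝ) / 4 := by
        rw [hRsq]
        push_cast
        ring
      rw [e2] at this
      exact this
    have hfin : lam * (Real.sqrt (1 + ((k + 1 : ℕ) : ℝ) / 4) - ((k + 1 : ℕ) : ℝ) * γ) ≤
        max (max ‖a - m i‖ ‖m i - c‖) (max ‖a - m j‖ ‖m j - c‖) := by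
      have e3 : lam * (Real.sqrt (1 + ((k + 1 : ℕ) : ℝ) / 4) - ((k + 1 : ℕ) : ℝ) * γ)
          = lam * (Real.sqrt (1 + ((k + 1 : ℕ) : ℝ) / 4) - k * γ) - lam * γ := by
        push_cast
        ring
      rw [e3]
      linarith
    rw [hm, ha, hc] at hfin
    rcases le_max_iff.mp hfin with h | h
    · rcases le_max_iff.mp h with h | h
      · exact ⟨ehalf e i false, h⟩
      · exact ⟨ehalf e i true, h⟩
    · rcases le_max_iff.mp h with h | h
      · exact ⟨ehalf e j false, h⟩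
      · exact ⟨ehalf e j true, h⟩

/-- **Distortion of diamonds.**  In a normed space with maximum-based asymptotic midpoint modulus
at least `√(1 + t²/4) - 1`, every distortion-`D` map of the depth-`k` diamond has
`1 + k/4 ≤ D²`. -/
theorem distortion_lower_bound (hmod : MaxMod V) (k : ℕ) (f : DiamondVertex k → V) (D : ℝ)
    (hf : ∃ s : ℝ, 0 < s ∧ ∀ u v : DiamondVertex k,
      s * (diamondDist k u v : ℝ) ≤ ‖f u - f v‖ ∧ ‖f u - f v‖ ≤ D * s * (diamondDist k u v : ℝ)) :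
    1 + (k : ℝ) / 4 ≤ D ^ 2 := by
  obtain ⟨s, hs, hf⟩ := hf
  have key : ∀ γ : ℝ, 0 < γ → Real.sqrt (1 + (k : ℝ) / 4) - k * γ ≤ D := by
    intro γ hγ
    obtain ⟨e, he⟩ := exists_long_edge hmod k f s D hs hf γ hγ
    have := (hf (diamondSrc k e) (diamondTgt k e)).2
    rw [dist_src_tgt] at this
    have h2 : s * (Real.sqrt (1 + (k : ℝ) / 4) - k * γ) ≤ s * D := by
      push_cast at this
      linarith
    exact le_of_mul_le_mul_left h2 hs
  have hD : Real.sqrt (1 + (k : ℝ) / 4) ≤ D := by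
    by_contra hlt
    have hlt := not_le.mp hlt
    obtain ⟨d, hd⟩ : ∃ d : ℝ, d = Real.sqrt (1 + (k : ℝ) / 4) - D := ⟨_, rfl⟩
    have hdpos : 0 < d := by rw [hd]; linarith
    have hk := key (d / (2 * ((k : ℝ) + 1))) (by positivity)
    have hle : (k : ℝ) * (d / (2 * ((k : ℝ) + 1))) ≤ d / 2 := by
      rw [← mul_div_assoc, div_le_iff₀ (by positivity)]
      nlinarith [Nat.cast_nonneg (α := ℝ) k]
    linarith
  calc 1 + (k : ℝ) / 4 = (Real.sqrt (1 + (k : ℝ) / 4)) ^ 2 := (Real.sq_sqrt (by positivity)).symm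
    _ ≤ D ^ 2 := pow_le_pow_left₀ (Real.sqrt_nonneg _) hD 2

end Analytic

/-- **P4c, RealBanach form.**  If the maximum-based midpoint modulus of the given norm of `E` is at
least `√(1 + t²/4) - 1` at every `t > 0`, then every map of the depth-`k` countably branching
diamond into `E` of distortion at most `D` has `1 + k/4 ≤ D²`. -/
theorem realBanach_diamond (E : RealBanach)
    (h : ∀ t : ℝ, 0 < t → E.MaxMidpointModulusGE E.norm t (Real.sqrt (1 + t ^ 2 / 4) - 1)) :
    ∀ (k : ℕ) (f : DiamondVertex k → E.X) (D : ℝ),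
      E.HasDistortionLE k f D → 1 + (k : ℝ) / 4 ≤ D ^ 2 := by
  letI := E.normed
  letI := E.space
  have hmod : MaxMod E.X := by
    intro t ht x hx η hη
    obtain ⟨F, ⟨S, hSF, hcl, hfin⟩, hF⟩ := h t ht x hx η hη
    refine ⟨S, by rw [hSF]; exact hcl, hfin, fun y hy hy1 => ?_⟩
    exact hF y (by rw [← hSF]; exact hy) hy1
  intro k f D hD
  exact distortion_lower_bound hmod k f D hD

end Crest.Agent.Helper9.Diamond
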