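import Mathlib
import Crest.Agent.Helper7.S0423Defs

/-!
# S0423 helper (helper9): one exponential step preserves log-concavity

`stepS a K u = ∫ x in Ioi 0, K (u - a * x) * exp (-x)`.
Ratio form of log-concavity (`RatioLC`) is preserved by `stepS a`; together with continuity
this gives `ConcaveOn ℝ univ (log ∘ stepS a K)`.
-/

namespace Crest.Agent.Helper9

open MeasureTheory Set Real

open Crest.Agent.Helper7

/-- Ratio form of log-concavity. -/
def RatioLC (K : ℝ → ℝ) : Prop :=
  ∀ s₁ s₂ d : ℝ, s₁ ≤ s₂ → 0 ≤ d → K s₁ * K (s₂ + d) ≤ K (s₁ + d) * K s₂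

section basics

variable {K : ℝ → ℝ}

lemma integrableOn_step (hK : Measurable K) (h0 : ∀ s, 0 ≤ K s) (h1 : ∀ s, K s ≤ 1)
    (a u : ℝ) : IntegrableOn (fun x => K (u - a * x) * Real.exp (-x)) (Ioi (0:ℝ)) := by
  have hexp : IntegrableOn (fun x : ℝ => Real.exp (-x)) (Ioi (0:ℝ)) := integrableOn_exp_neg_Ioi 0
  refine Integrable.mono' hexp ?_ ?_
  · have : Measurable (fun x : ℝ => K (u - a * x) * Real.exp (-x)) := by
      apply Measurable.mul
      · exact hK.comp (by fun_prop)
      · fun_prop
    exact this.aestronglyMeasurable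
  · refine Filter.Eventually.of_forall (fun x => ?_)
    rw [Real.norm_eq_abs, abs_mul, abs_of_nonneg (h0 _), abs_of_pos (Real.exp_pos _)]
    have := h1 (u - a * x)
    have hpos := Real.exp_pos (-x)
    nlinarith

lemma stepS_split (hK : Measurable K) (h0 : ∀ s, 0 ≤ K s) (h1 : ∀ s, K s ≤ 1)
    (a u x₀ : ℝ) (hx₀ : 0 ≤ x₀) :
    stepS a K u = (∫ x in Ioc (0:ℝ) x₀, K (u - a * x) * Real.exp (-x))
      + Real.exp (-x₀) * stepS a K (u - a * x₀) := by
  have hint := integrableOn_step hK h0 h1 a u
  have h1' : stepS a K u = (∫ x in Ioc (0:ℝ) x₀, K (u - a * x) * Real.exp (-x))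
      + ∫ x in Ioi x₀, K (u - a * x) * Real.exp (-x) := by
    unfold stepS
    rw [← Ioc_union_Ioi_eq_Ioi hx₀, setIntegral_union (Ioc_disjoint_Ioi le_rfl) measurableSet_Ioi
      (hint.mono_set Ioc_subset_Ioi_self) (hint.mono_set (Ioi_subset_Ioi hx₀))]
  rw [h1']
  congr 1
  have := (measurePreserving_add_right volume x₀).setIntegral_preimage_emb
    (measurableEmbedding_addRight x₀) (fun x => K (u - a * x) * Real.exp (-x)) (Ioi x₀)
  simp only [preimage_add_const_Ioi, sub_self] at this
  rw [← this]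
  unfold stepS
  rw [← integral_const_mul]
  congr 1
  ext x
  rw [neg_add, Real.exp_add]
  ring_nf

/-- The ratio form of log-concavity is preserved by a step with positive coefficient. -/
lemma ratioLC_stepS_pos (hK : Measurable K) (h0 : ∀ s, 0 ≤ K s) (h1 : ∀ s, K s ≤ 1)
    (hR : RatioLC K) {a : ℝ} (ha : 0 < a) : RatioLC (stepS a K) := by
  intro u₁ u₂ d hu hd
  set x₀ : ℝ := d / a with hx₀def
  have hx₀ : 0 ≤ x₀ := div_nonneg hd ha.le
  have hax₀ : a * x₀ = d := by rw [hx₀def]; field_simp
  have e1 := stepS_split hK h0 h1 a (u₁ + d) x₀ hx₀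
  have e2 := stepS_split hK h0 h1 a (u₂ + d) x₀ hx₀
  have hu1 : u₁ + d - a * x₀ = u₁ := by rw [hax₀]; ring
  have hu2 : u₂ + d - a * x₀ = u₂ := by rw [hax₀]; ring
  rw [hu1] at e1
  rw [hu2] at e2
  set A₁ : ℝ := ∫ x in Ioc (0:ℝ) x₀, K (u₁ + d - a * x) * Real.exp (-x) with hA₁
  set A₂ : ℝ := ∫ x in Ioc (0:ℝ) x₀, K (u₂ + d - a * x) * Real.exp (-x) with hA₂
  -- key inequality
  have key : stepS a K u₁ * A₂ ≤ A₁ * stepS a K u₂ := by
    have hL : stepS a K u₁ * A₂ = ∫ x' in Ioi (0:ℝ), (K (u₁ - a * x') * A₂) * Real.exp (-x') := by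
      unfold stepS
      rw [← integral_mul_const]
      congr 1; ext x'; ring
    have hRr : A₁ * stepS a K u₂ = ∫ x' in Ioi (0:ℝ), (K (u₂ - a * x') * A₁) * Real.exp (-x') := by
      unfold stepS
      rw [← integral_const_mul]
      congr 1; ext x'; ring
    rw [hL, hRr]
    have hi1 := integrableOn_step hK h0 h1 a u₁
    have hi2 := integrableOn_step hK h0 h1 a u₂
    refine setIntegral_mono_on ?_ ?_ measurableSet_Ioi ?_
    · have := hi1.mul_const A₂
      refine this.congr (Filter.Eventually.of_forall (fun x => ?_))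
      simp only; ring
    · have := hi2.mul_const A₁
      refine this.congr (Filter.Eventually.of_forall (fun x => ?_))
      simp only; ring
    · intro x' hx'
      have hx'0 : 0 < x' := hx'
      apply mul_le_mul_of_nonneg_right _ (Real.exp_pos _).le
      -- K (u₁ - a x') * A₂ ≤ K (u₂ - a x') * A₁
      have hsub : Ioc (0:ℝ) x₀ ⊆ Ioi 0 := fun x hx => hx.1
      have hj1 := (integrableOn_step hK h0 h1 a (u₁ + d)).mono_set hsub
      have hj2 := (integrableOn_step hK h0 h1 a (u₂ + d)).mono_set hsub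
      rw [hA₁, hA₂, ← integral_const_mul, ← integral_const_mul]
      refine setIntegral_mono_on (hj2.const_mul _) (hj1.const_mul _) measurableSet_Ioc ?_
      intro x hx
      have hxle : x ≤ x₀ := hx.2
      have hR' := hR (u₁ - a * x') (u₁ + d - a * x) (u₂ - u₁) (by nlinarith [mul_le_mul_of_nonneg_left hxle ha.le, mul_pos ha hx'0]) (by linarith)
      have e3 : u₁ + d - a * x + (u₂ - u₁) = u₂ + d - a * x := by ring
      have e4 : u₁ - a * x' + (u₂ - u₁) = u₂ - a * x' := by ring
      rw [e3, e4] at hR'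
      have hexp := (Real.exp_pos (-x)).le
      nlinarith [mul_le_mul_of_nonneg_right hR' hexp]
  rw [e1, e2]
  nlinarith [key]

lemma ratioLC_neg (hR : RatioLC K) : RatioLC (fun s => K (-s)) := by
  intro s₁ s₂ d hs hd
  have h := hR (-s₂ - d) (-s₁ - d) d (by linarith) hd
  have e1 : -s₁ - d + d = -s₁ := by ring
  have e2 : -s₂ - d + d = -s₂ := by ring
  rw [e1, e2] at h
  have e3 : -(s₂ + d) = -s₂ - d := by ring
  have e4 : -(s₁ + d) = -s₁ - d := by ring
  simp only [e3, e4]
  linarith [mul_comm (K (-s₂ - d)) (K (-s₁)), mul_comm (K (-s₂)) (K (-s₁ - d))]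

lemma stepS_neg (a : ℝ) (K : ℝ → ℝ) (u : ℝ) :
    stepS a K u = stepS (-a) (fun s => K (-s)) (-u) := by
  unfold stepS
  congr 1; ext x
  congr 2; ring

lemma stepS_zero (K : ℝ → ℝ) (u : ℝ) : stepS 0 K u = K u := by
  unfold stepS
  simp only [zero_mul, sub_zero]
  rw [integral_const_mul, integral_exp_neg_Ioi_zero, mul_one]

/-- The ratio form of log-concavity is preserved by every exponential step. -/
theorem ratioLC_stepS (hK : Measurable K) (h0 : ∀ s, 0 ≤ K s) (h1 : ∀ s, K s ≤ 1)
    (hR : RatioLC K) (a : ℝ) : RatioLC (stepS a K) := by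
  rcases lt_trichotomy a 0 with ha | ha | ha
  · have hK' : Measurable (fun s => K (-s)) := hK.comp measurable_neg
    have h := ratioLC_stepS_pos hK' (fun s => h0 (-s)) (fun s => h1 (-s)) (ratioLC_neg hR)
      (a := -a) (by linarith)
    have h2 := ratioLC_neg h
    have e : (fun s => stepS (-a) (fun s => K (-s)) (-s)) = stepS a K := by
      ext u; rw [stepS_neg a K u]
    rw [e] at h2
    exact h2
  · subst ha
    have e : stepS 0 K = K := by ext u; exact stepS_zero K u
    rw [e]; exact hR
  · exact ratioLC_stepS_pos hK h0 h1 hR ha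

end basics

section concave

/-- A continuous function on `ℝ` that is midpoint-concave is concave. -/
theorem concaveOn_of_continuous_of_midpoint {l : ℝ → ℝ} (hc : Continuous l)
    (hm : ∀ t ε : ℝ, 0 ≤ ε → l (t - ε) + l (t + ε) ≤ 2 * l t) : ConcaveOn ℝ univ l := by
  -- three point form
  have key : ∀ x z : ℝ, x < z → ∀ y ∈ Icc x z,
      l x + (y - x) * ((l z - l x) / (z - x)) ≤ l y := by
    intro x z hxz
    by_contra hcon
    push Not at hcon
    obtain ⟨y₀, hy₀, hlt⟩ := hcon
    set h : ℝ → ℝ := fun t => l t - (l x + (t - x) * ((l z - l x) / (z - x))) with hh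
    have hcont : Continuous h := by
      rw [hh]; fun_prop
    have hzx : z - x ≠ 0 := by linarith
    have hhx : h x = 0 := by simp [hh]
    have hhz : h z = 0 := by
      simp only [hh]; field_simp; ring
    have hhy : h y₀ < 0 := by simp only [hh]; linarith
    obtain ⟨t₁, ht₁, hmin⟩ := (isCompact_Icc (a := x) (b := z)).exists_isMinOn
      ⟨y₀, hy₀⟩ hcont.continuousOn
    set m := h t₁ with hmdef
    have hm_le : ∀ t ∈ Icc x z, m ≤ h t := fun t ht => hmin ht
    have hmneg : m < 0 := lt_of_le_of_lt (hm_le y₀ hy₀) hhy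
    set A : Set ℝ := Icc x z ∩ h ⁻¹' {m} with hA
    have hAcomp : IsCompact A :=
      isCompact_Icc.inter_right (isClosed_singleton.preimage hcont)
    have hAne : A.Nonempty := ⟨t₁, ht₁, rfl⟩
    have ht₀ := hAcomp.sInf_mem hAne
    set t₀ := sInf A with ht₀def
    have ht₀I : t₀ ∈ Icc x z := ht₀.1
    have ht₀m : h t₀ = m := ht₀.2
    have hx_lt : x < t₀ := by
      rcases eq_or_lt_of_le ht₀I.1 with h' | h'
      · rw [← h', hhx] at ht₀m; linarith
      · exact h'
    have hlt_z : t₀ < z := by
      rcases eq_or_lt_of_le ht₀I.2 with h' | h'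
      · rw [h', hhz] at ht₀m; linarith
      · exact h'
    set ε := min (t₀ - x) (z - t₀) with hε
    have hεpos : 0 < ε := lt_min (by linarith) (by linarith)
    have hε1 : ε ≤ t₀ - x := min_le_left _ _
    have hε2 : ε ≤ z - t₀ := min_le_right _ _
    have hmem1 : t₀ - ε ∈ Icc x z := ⟨by linarith, by linarith⟩
    have hmem2 : t₀ + ε ∈ Icc x z := ⟨by linarith, by linarith⟩
    have h1 : m < h (t₀ - ε) := by
      rcases eq_or_lt_of_le (hm_le _ hmem1) with h' | h'
      · exfalso
        have : t₀ - ε ∈ A := ⟨hmem1, h'.symm⟩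
        have := csInf_le hAcomp.bddBelow this
        linarith
      · exact h'
    have h2 : m ≤ h (t₀ + ε) := hm_le _ hmem2
    have hmid := hm t₀ ε hεpos.le
    -- h is midpoint concave too
    have hmid' : h (t₀ - ε) + h (t₀ + ε) ≤ 2 * h t₀ := by
      simp only [hh]
      have : (t₀ - ε - x) * ((l z - l x) / (z - x)) + (t₀ + ε - x) * ((l z - l x) / (z - x))
          = 2 * ((t₀ - x) * ((l z - l x) / (z - x))) := by ring
      linarith
    linarith
  refine concaveOn_of_slope_anti_adjacent convex_univ ?_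
  intro x y z _ _ hxy hyz
  have hxz : x < z := hxy.trans hyz
  have hk := key x z hxz y ⟨hxy.le, hyz.le⟩
  have h1 : 0 < z - y := by linarith
  have h2 : 0 < y - x := by linarith
  have h3 : 0 < z - x := by linarith
  set D := (l z - l x) / (z - x) with hD
  have hD' : l z - l x = D * (z - x) := by rw [hD]; field_simp
  have hle1 : (l z - l y) / (z - y) ≤ D := by
    rw [div_le_iff₀ h1]; nlinarith
  have hle2 : D ≤ (l y - l x) / (y - x) := by
    rw [le_div_iff₀ h2]; nlinarith
  exact hle1.trans hle2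

end concave

section logconcave

variable {K : ℝ → ℝ}

lemma ratioLC_of_concaveOn_log (hpos : ∀ t, 0 < K t)
    (hconc : ConcaveOn ℝ univ (fun t => Real.log (K t))) : RatioLC K := by
  intro s₁ s₂ d hs hd
  have hlog : Real.log (K s₁) + Real.log (K (s₂ + d)) ≤ Real.log (K (s₁ + d)) + Real.log (K s₂) := by
    rcases eq_or_lt_of_le (show s₁ ≤ s₂ + d by linarith) with h | h
    · have hd0 : d = 0 := by linarith
      have hs12 : s₁ = s₂ := by linarith
      subst hd0; subst hs12; simp
    · set W := s₂ + d - s₁ with hW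
      have hWpos : 0 < W := by linarith
      set lam := d / W with hlam
      have hlam0 : 0 ≤ lam := div_nonneg hd hWpos.le
      have hlam1 : lam ≤ 1 := by rw [hlam, div_le_one hWpos]; linarith
      have hlamW : lam * W = d := by rw [hlam]; field_simp
      have c1 := hconc.2 (mem_univ s₁) (mem_univ (s₂ + d)) (sub_nonneg.mpr hlam1) hlam0 (by ring)
      have c2 := hconc.2 (mem_univ s₁) (mem_univ (s₂ + d)) hlam0 (sub_nonneg.mpr hlam1) (by ring)
      simp only [smul_eq_mul] at c1 c2
      have e1 : (1 - lam) * s₁ + lam * (s₂ + d) = s₁ + d := by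
        have : (1 - lam) * s₁ + lam * (s₂ + d) = s₁ + lam * W := by rw [hW]; ring
        rw [this, hlamW]
      have e2 : lam * s₁ + (1 - lam) * (s₂ + d) = s₂ := by
        have : lam * s₁ + (1 - lam) * (s₂ + d) = s₂ + d - lam * W := by rw [hW]; ring
        rw [this, hlamW]; ring
      rw [e1] at c1
      rw [e2] at c2
      linarith
  have h1 := Real.exp_le_exp.mpr hlog
  rw [Real.exp_add, Real.exp_add, Real.exp_log (hpos _), Real.exp_log (hpos _),
    Real.exp_log (hpos _), Real.exp_log (hpos _)] at h1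
  exact h1

lemma concaveOn_log_of_ratioLC (hc : Continuous K) (hpos : ∀ t, 0 < K t) (hR : RatioLC K) :
    ConcaveOn ℝ univ (fun t => Real.log (K t)) := by
  refine concaveOn_of_continuous_of_midpoint ?_ ?_
  · exact continuous_iff_continuousAt.mpr fun t =>
      (Real.continuousAt_log (hpos t).ne').comp hc.continuousAt
  · intro t ε hε
    have h := hR (t - ε) t ε (by linarith) hε
    rw [sub_add_cancel] at h
    have h2 := Real.log_le_log (mul_pos (hpos _) (hpos _)) h
    rw [Real.log_mul (hpos _).ne' (hpos _).ne', Real.log_mul (hpos _).ne' (hpos _).ne'] at h2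
    linarith

lemma stepS_pos (hK : Measurable K) (hpos : ∀ t, 0 < K t) (h1 : ∀ t, K t ≤ 1) (a u : ℝ) :
    0 < stepS a K u := by
  unfold stepS
  have hint := integrableOn_step hK (fun s => (hpos s).le) h1 a u
  rw [integral_pos_iff_support_of_nonneg (fun x => (mul_pos (hpos _) (Real.exp_pos _)).le) hint]
  have hsupp : Function.support (fun x => K (u - a * x) * Real.exp (-x)) = univ := by
    ext x
    simp only [Function.mem_support, mem_univ, iff_true]
    exact (mul_pos (hpos _) (Real.exp_pos _)).ne'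
  rw [hsupp, Measure.restrict_apply_univ]
  simp

lemma stepS_le_one (hK : Measurable K) (h0 : ∀ t, 0 ≤ K t) (h1 : ∀ t, K t ≤ 1) (a u : ℝ) :
    stepS a K u ≤ 1 := by
  unfold stepS
  have hint := integrableOn_step hK h0 h1 a u
  have hexp : IntegrableOn (fun x : ℝ => Real.exp (-x)) (Ioi (0:ℝ)) := integrableOn_exp_neg_Ioi 0
  calc ∫ x in Ioi (0:ℝ), K (u - a * x) * Real.exp (-x)
      ≤ ∫ x in Ioi (0:ℝ), Real.exp (-x) := by
        refine setIntegral_mono_on hint hexp measurableSet_Ioi (fun x _ => ?_)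
        have := h1 (u - a * x)
        have hp := Real.exp_pos (-x)
        nlinarith
    _ = 1 := integral_exp_neg_Ioi_zero

lemma continuous_stepS (hc : Continuous K) (h0 : ∀ t, 0 ≤ K t) (h1 : ∀ t, K t ≤ 1) (a : ℝ) :
    Continuous (stepS a K) := by
  unfold stepS
  refine continuous_of_dominated (bound := fun x => Real.exp (-x)) ?_ ?_ ?_ ?_
  · intro u
    exact (integrableOn_step hc.measurable h0 h1 a u).aestronglyMeasurable
  · intro u
    refine Filter.Eventually.of_forall (fun x => ?_)
    rw [Real.norm_eq_abs, abs_mul, abs_of_nonneg (h0 _), abs_of_pos (Real.exp_pos _)]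
    have := h1 (u - a * x)
    have hp := Real.exp_pos (-x)
    nlinarith
  · exact integrableOn_exp_neg_Ioi 0
  · refine Filter.Eventually.of_forall (fun x => ?_)
    fun_prop

/-- **Package B1**: one exponential step preserves log-concavity of a continuous positive
kernel bounded by one. -/
theorem concaveOn_log_stepS (hc : Continuous K) (hpos : ∀ t, 0 < K t) (h1 : ∀ t, K t ≤ 1)
    (hconc : ConcaveOn ℝ univ (fun t => Real.log (K t))) (a : ℝ) :
    ConcaveOn ℝ univ (fun u => Real.log (stepS a K u)) := by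
  have h0 : ∀ t, 0 ≤ K t := fun t => (hpos t).le
  have hR := ratioLC_stepS hc.measurable h0 h1 (ratioLC_of_concaveOn_log hpos hconc) a
  exact concaveOn_log_of_ratioLC (continuous_stepS hc h0 h1 a)
    (stepS_pos hc.measurable hpos h1 a) hR

/-- **Package B1** in the shared interface: the `logconc` field of `IsSurv (stepS a K)`. -/
theorem logconc_step (hK : IsSurv K) (a : ℝ) :
    ConcaveOn ℝ Set.univ (fun t => Real.log (stepS a K t)) :=
  concaveOn_log_stepS hK.cont hK.pos hK.le_one hK.logconc a

/-- Continuity, positivity and the bound by one of `stepS a K` (also needed for B2). -/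
theorem cont_step (hK : IsSurv K) (a : ℝ) : Continuous (stepS a K) :=
  continuous_stepS hK.cont (fun t => (hK.pos t).le) hK.le_one a

theorem pos_step (hK : IsSurv K) (a : ℝ) (t : ℝ) : 0 < stepS a K t :=
  stepS_pos hK.cont.measurable hK.pos hK.le_one a t

theorem le_one_step (hK : IsSurv K) (a : ℝ) (t : ℝ) : stepS a K t ≤ 1 :=
  stepS_le_one hK.cont.measurable (fun t => (hK.pos t).le) hK.le_one a t

end logconcave

end Crest.Agent.Helper9
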