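import Mathlib
import Crest.Agent.Helper7.S0423Defs
import Crest.Agent.Helper9.LogConc

/-!
# S0423 helper (helper9): one exponential step shifts the mean by `a`

For `IsSurv K`: `stepS a K - ind0` is integrable and `smean (stepS a K) = smean K + a`.
-/

namespace Crest.Agent.Helper9

open MeasureTheory Set Real
open Crest.Agent.Helper7

lemma measurable_ind0 : Measurable ind0 := by
  unfold ind0
  exact Measurable.ite measurableSet_Iio measurable_const measurable_const

lemma ind0_shift_of_nonneg {c : ℝ} (hc : 0 ≤ c) :
    (fun t => ind0 (t - c) - ind0 t) = Set.indicator (Ico 0 c) (fun _ => (1:ℝ)) := by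
  ext t
  unfold ind0
  rw [Set.indicator_apply]
  by_cases h1 : t < 0
  · have h2 : t - c < 0 := by linarith
    have h3 : t ∉ Ico 0 c := fun h => absurd h.1 (not_le.mpr h1)
    simp [h1, h2, h3]
  · by_cases h2 : t < c
    · have h3 : t - c < 0 := by linarith
      have h4 : t ∈ Ico 0 c := ⟨not_lt.mp h1, h2⟩
      simp [h1, h3, h4]
    · have h3 : ¬ (t - c < 0) := by linarith
      have h4 : t ∉ Ico 0 c := fun h => h2 h.2
      simp [h1, h3, h4]

lemma ind0_shift_of_nonpos {c : ℝ} (hc : c ≤ 0) :
    (fun t => ind0 (t - c) - ind0 t) = Set.indicator (Ico c 0) (fun _ => (-1:ℝ)) := by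
  ext t
  unfold ind0
  rw [Set.indicator_apply]
  by_cases h1 : t < c
  · have h2 : t - c < 0 := by linarith
    have h2' : t < 0 := by linarith
    have h3 : t ∉ Ico c 0 := fun h => absurd h.1 (not_le.mpr h1)
    simp [h2', h2, h3]
  · by_cases h2 : t < 0
    · have h3 : ¬ (t - c < 0) := by linarith
      have h4 : t ∈ Ico c 0 := ⟨not_lt.mp h1, h2⟩
      simp [h2, h3, h4]
    · have h3 : ¬ (t - c < 0) := by linarith
      have h4 : t ∉ Ico c 0 := fun h => h2 h.2
      simp [h2, h3, h4]

lemma integrable_ind0_shift (c : ℝ) : Integrable (fun t => ind0 (t - c) - ind0 t) := by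
  rcases le_total 0 c with hc | hc
  · rw [ind0_shift_of_nonneg hc]
    exact (integrable_indicator_iff measurableSet_Ico).mpr
      (integrableOn_const (by simp) )
  · rw [ind0_shift_of_nonpos hc]
    exact (integrable_indicator_iff measurableSet_Ico).mpr
      (integrableOn_const (by simp))

lemma integral_ind0_shift (c : ℝ) : ∫ t, (ind0 (t - c) - ind0 t) = c := by
  rcases le_total 0 c with hc | hc
  · rw [ind0_shift_of_nonneg hc, integral_indicator measurableSet_Ico]
    simp [hc]
  · rw [ind0_shift_of_nonpos hc, integral_indicator measurableSet_Ico]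
    simp [hc]

lemma integral_norm_ind0_shift (c : ℝ) : ∫ t, ‖ind0 (t - c) - ind0 t‖ = |c| := by
  rcases le_total 0 c with hc | hc
  · have : (fun t => ‖ind0 (t - c) - ind0 t‖) = Set.indicator (Ico 0 c) (fun _ => (1:ℝ)) := by
      have h := ind0_shift_of_nonneg hc
      ext t
      have := congrFun h t
      rw [this, Set.indicator_apply]
      split_ifs <;> simp
    rw [this, integral_indicator measurableSet_Ico]
    simp [hc, abs_of_nonneg hc]
  · have : (fun t => ‖ind0 (t - c) - ind0 t‖) = Set.indicator (Ico c 0) (fun _ => (1:ℝ)) := by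
      have h := ind0_shift_of_nonpos hc
      ext t
      have := congrFun h t
      rw [this, Set.indicator_apply, Set.indicator_apply]
      split_ifs <;> simp
    rw [this, integral_indicator measurableSet_Ico]
    simp [hc, abs_of_nonpos hc]

lemma integrableOn_id_mul_exp_neg :
    IntegrableOn (fun t : ℝ => t * Real.exp (-t)) (Ioi 0) := by
  have h := Real.GammaIntegral_convergent (s := (2 : ℝ)) (by norm_num)
  refine (integrableOn_congr_fun (fun t ht => ?_) measurableSet_Ioi).mp h
  have : (2:ℝ) - 1 = 1 := by norm_num
  simp only [this, Real.rpow_one]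
  ring

lemma integral_id_mul_exp_neg : ∫ t in Ioi (0 : ℝ), t * Real.exp (-t) = 1 := by
  have h := Real.Gamma_eq_integral (s := (2:ℝ)) (by norm_num)
  rw [Real.Gamma_two] at h
  rw [h]
  refine setIntegral_congr_fun measurableSet_Ioi (fun t ht => ?_)
  have : (2:ℝ) - 1 = 1 := by norm_num
  simp only [this, Real.rpow_one]
  ring

section main

variable {K : ℝ → ℝ}

/-- The integrand for the Fubini argument. -/
private noncomputable def Phi (K : ℝ → ℝ) (a : ℝ) (t x : ℝ) : ℝ :=
  (K (t - a * x) - ind0 t) * Real.exp (-x)

private lemma measurable_Phi (hK : IsSurv K) (a : ℝ) :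
    Measurable (Function.uncurry (Phi K a)) := by
  unfold Phi Function.uncurry
  apply Measurable.mul
  · apply Measurable.sub
    · exact hK.cont.measurable.comp (by fun_prop)
    · exact measurable_ind0.comp measurable_fst
  · fun_prop

private lemma integrable_Phi_left (hK : IsSurv K) (a x : ℝ) :
    Integrable (fun t => Phi K a t x) := by
  have h1 : Integrable (fun t => K (t - a * x) - ind0 (t - a * x)) :=
    hK.integrable.comp_sub_right (a * x)
  have h2 := integrable_ind0_shift (a * x)
  have h3 := (h1.add h2).mul_const (Real.exp (-x))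
  refine h3.congr (Filter.Eventually.of_forall (fun t => ?_))
  simp only [Phi, Pi.add_apply]
  ring

private lemma integral_Phi_left (hK : IsSurv K) (a x : ℝ) :
    ∫ t, Phi K a t x = (smean K + a * x) * Real.exp (-x) := by
  have h1 : Integrable (fun t => K (t - a * x) - ind0 (t - a * x)) :=
    hK.integrable.comp_sub_right (a * x)
  have h2 := integrable_ind0_shift (a * x)
  have e : (fun t => Phi K a t x) = fun t =>
      ((K (t - a * x) - ind0 (t - a * x)) + (ind0 (t - a * x) - ind0 t)) * Real.exp (-x) := by
    ext t; simp only [Phi]; ring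
  rw [e, integral_mul_const, integral_add h1 h2, integral_ind0_shift]
  congr 2
  exact integral_sub_right_eq_self (fun t => K t - ind0 t) (a * x)

private lemma norm_integral_Phi_le (hK : IsSurv K) (a x : ℝ) :
    ∫ t, ‖Phi K a t x‖ ≤ ((∫ t, ‖K t - ind0 t‖) + |a| * |x|) * Real.exp (-x) := by
  have h1 : Integrable (fun t => K (t - a * x) - ind0 (t - a * x)) :=
    hK.integrable.comp_sub_right (a * x)
  have h2 := integrable_ind0_shift (a * x)
  have hexp := Real.exp_pos (-x)
  calc ∫ t, ‖Phi K a t x‖
      ≤ ∫ t, (‖K (t - a * x) - ind0 (t - a * x)‖ + ‖ind0 (t - a * x) - ind0 t‖) * Real.exp (-x) := by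
        refine integral_mono (integrable_Phi_left hK a x).norm
          ((h1.norm.add h2.norm).mul_const _) (fun t => ?_)
        simp only [Phi, norm_mul, Real.norm_eq_abs, abs_of_pos hexp]
        apply mul_le_mul_of_nonneg_right _ hexp.le
        have : K (t - a * x) - ind0 t
            = (K (t - a * x) - ind0 (t - a * x)) + (ind0 (t - a * x) - ind0 t) := by ring
        rw [this]
        exact abs_add_le _ _
    _ = ((∫ t, ‖K t - ind0 t‖) + |a| * |x|) * Real.exp (-x) := by
        rw [integral_mul_const, integral_add h1.norm h2.norm, integral_norm_ind0_shift, abs_mul]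
        congr 2
        exact integral_sub_right_eq_self (fun t => ‖K t - ind0 t‖) (a * x)

private lemma integrable_Phi (hK : IsSurv K) (a : ℝ) :
    Integrable (Function.uncurry (Phi K a))
      ((volume : Measure ℝ).prod (volume.restrict (Ioi (0:ℝ)))) := by
  have hmeas := measurable_Phi hK a
  rw [integrable_prod_iff' hmeas.aestronglyMeasurable]
  refine ⟨Filter.Eventually.of_forall (fun x => integrable_Phi_left hK a x), ?_⟩
  set C : ℝ := ∫ t, ‖K t - ind0 t‖ with hC
  have hbound : IntegrableOn (fun x : ℝ => (C + |a| * x) * Real.exp (-x)) (Ioi 0) := by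
    have h1 : IntegrableOn (fun x : ℝ => C * Real.exp (-x)) (Ioi 0) :=
      (integrableOn_exp_neg_Ioi 0).const_mul C
    have h2 : IntegrableOn (fun x : ℝ => |a| * (x * Real.exp (-x))) (Ioi 0) :=
      integrableOn_id_mul_exp_neg.const_mul |a|
    refine (h1.add h2).congr (Filter.Eventually.of_forall (fun x => ?_))
    simp only [Pi.add_apply]; ring
  refine Integrable.mono' hbound ?_ ?_
  · have : StronglyMeasurable (fun x => ∫ t, ‖Function.uncurry (Phi K a) (t, x)‖) :=
      (hmeas.norm.stronglyMeasurable).integral_prod_left'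
    exact this.aestronglyMeasurable
  · rw [ae_restrict_iff' measurableSet_Ioi]
    refine Filter.Eventually.of_forall (fun x hx => ?_)
    have hx0 : 0 < x := hx
    rw [Real.norm_eq_abs, abs_of_nonneg (integral_nonneg (fun t => norm_nonneg _))]
    have := norm_integral_Phi_le hK a x
    rw [abs_of_pos hx0] at this
    exact this

private lemma integral_Phi_right (hK : IsSurv K) (a t : ℝ) :
    ∫ x in Ioi (0:ℝ), Phi K a t x = stepS a K t - ind0 t := by
  have h1 := integrableOn_step hK.cont.measurable (fun s => (hK.pos s).le) hK.le_one a t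
  have h2 : IntegrableOn (fun x : ℝ => ind0 t * Real.exp (-x)) (Ioi 0) :=
    (integrableOn_exp_neg_Ioi 0).const_mul _
  have e : (fun x => Phi K a t x) = fun x =>
      K (t - a * x) * Real.exp (-x) - ind0 t * Real.exp (-x) := by
    ext x; simp only [Phi]; ring
  rw [e, integral_sub h1 h2, integral_const_mul, integral_exp_neg_Ioi_zero, mul_one]
  rfl

/-- **B2 (integrability)**: `stepS a K - ind0` is integrable. -/
theorem integrable_step_sub_ind0 (hK : IsSurv K) (a : ℝ) :
    Integrable (fun t => stepS a K t - ind0 t) := by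
  have h := (integrable_Phi hK a).integral_prod_left
  refine h.congr (Filter.Eventually.of_forall (fun t => ?_))
  exact integral_Phi_right hK a t

/-- **B2 (mean shift)**: one exponential step shifts the mean by `a`. -/
theorem smean_step (hK : IsSurv K) (a : ℝ) : smean (stepS a K) = smean K + a := by
  unfold smean
  have h1 : ∫ t, (stepS a K t - ind0 t)
      = ∫ t, ∫ x in Ioi (0:ℝ), Phi K a t x := by
    congr 1; ext t; exact (integral_Phi_right hK a t).symm
  rw [h1, integral_integral_swap (integrable_Phi hK a)]
  have h2 : ∀ x, ∫ t, Phi K a t x = (smean K + a * x) * Real.exp (-x) :=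
    fun x => integral_Phi_left hK a x
  simp_rw [h2]
  have e : (fun x : ℝ => (smean K + a * x) * Real.exp (-x))
      = fun x => smean K * Real.exp (-x) + a * (x * Real.exp (-x)) := by
    ext x; ring
  rw [e, integral_add ((integrableOn_exp_neg_Ioi 0).const_mul _)
    (integrableOn_id_mul_exp_neg.const_mul _), integral_const_mul, integral_const_mul,
    integral_exp_neg_Ioi_zero, integral_id_mul_exp_neg]
  unfold smean
  ring

end main

end Crest.Agent.Helper9
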