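import Mathlib
import Crest.Prelude.Def_DaugavetL1

/-!
# Slices in spaces with the Daugavet property (helper9, row 125 / D1, part A)

From the rank-one Daugavet equation `‖Id + φ ⊗ v‖ = 1 + ‖φ ⊗ v‖` we derive the classical slice
lemma: every slice `{z : ‖z‖ ≤ 1, φ z ≥ ‖φ‖ - γ}` of the unit ball contains, for every unit vector
`u`, a point `z` with `‖u + z‖ ≥ 2 - ε`; and an iterated version for finite sums.
-/

namespace Crest.Agent.Helper9.DaugavetD1

open Crest.AnalysisR.L1Subspace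

variable {V : Type*} [NormedAddCommGroup V] [NormedSpace ℝ V]

/-- Slice lemma: in a space with the Daugavet property, for every functional `φ`, every unit vector
`u` and all `γ, ε > 0` there is `z` in the unit ball with `φ z ≥ ‖φ‖ - γ` and `‖u + z‖ ≥ 2 - ε`. -/
theorem slice_unit (hD : HasDaugavetProperty V) (φ : V →L[ℝ] ℝ) (u : V) (hu : ‖u‖ = 1)
    (γ : ℝ) (hγ : 0 < γ) (ε : ℝ) (hε : 0 < ε) :
    ∃ z : V, ‖z‖ ≤ 1 ∧ ‖φ‖ - γ ≤ φ z ∧ 2 - ε ≤ ‖u + z‖ := by
  by_cases hφ : φ = 0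
  · refine ⟨u, hu.le, ?_, ?_⟩
    · subst hφ
      simp only [norm_zero, zero_sub, zero_apply]
      linarith
    · rw [← two_smul ℝ u, norm_smul, hu]
      norm_num
      exact hε.le
  · have ha : 0 < ‖φ‖ := norm_pos_iff.mpr hφ
    have h1 := hD φ (‖φ‖⁻¹ • u)
    have h2 : ‖φ.smulRight (‖φ‖⁻¹ • u)‖ = 1 := by
      rw [ContinuousLinearMap.norm_smulRight_apply, norm_smul, hu, norm_inv, norm_norm]
      field_simp
    rw [h2] at h1
    obtain ⟨δ, hδ, hδ1, hδ2⟩ : ∃ δ : ℝ, 0 < δ ∧ ‖φ‖ * δ ≤ γ ∧ 2 * δ ≤ ε := by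
      refine ⟨min (γ / ‖φ‖) (ε / 2), lt_min (div_pos hγ ha) (by linarith), ?_, ?_⟩
      · calc ‖φ‖ * min (γ / ‖φ‖) (ε / 2) ≤ ‖φ‖ * (γ / ‖φ‖) :=
              mul_le_mul_of_nonneg_left (min_le_left _ _) ha.le
          _ = γ := by field_simp
      · have := min_le_right (γ / ‖φ‖) (ε / 2)
        linarith
    have hlt : 2 - δ < ‖ContinuousLinearMap.id ℝ V + φ.smulRight (‖φ‖⁻¹ • u)‖ := by
      rw [h1]; linarith
    obtain ⟨v, hv1, hv2⟩ := ContinuousLinearMap.exists_lt_apply_of_lt_opNorm _ hlt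
    have hv3 : ∀ v : V, (ContinuousLinearMap.id ℝ V + φ.smulRight (‖φ‖⁻¹ • u)) v
        = v + (φ v / ‖φ‖) • u := by
      intro v
      simp [ContinuousLinearMap.smulRight_apply, smul_smul, div_eq_mul_inv]
    -- WLOG `0 ≤ φ v`
    obtain ⟨v, hv1, hv0, hv2⟩ : ∃ v : V, ‖v‖ < 1 ∧ 0 ≤ φ v ∧ 2 - δ < ‖v + (φ v / ‖φ‖) • u‖ := by
      rcases le_total 0 (φ v) with h | h
      · exact ⟨v, hv1, h, by rw [← hv3]; exact hv2⟩
      · refine ⟨-v, by rwa [norm_neg], by rw [map_neg]; linarith, ?_⟩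
        have : -v + (φ (-v) / ‖φ‖) • u = -(v + (φ v / ‖φ‖) • u) := by
          rw [map_neg, neg_div, neg_smul, neg_add]
        rw [this, norm_neg, ← hv3]
        exact hv2
    set b := φ v / ‖φ‖ with hb_def
    have hb0 : 0 ≤ b := div_nonneg hv0 ha.le
    have hφv : φ v = ‖φ‖ * b := by rw [hb_def]; field_simp
    have hb1 : b ≤ 1 := by
      rw [hb_def, div_le_one ha]
      calc φ v ≤ ‖φ v‖ := Real.le_norm_self _
        _ ≤ ‖φ‖ * ‖v‖ := φ.le_opNorm v
        _ ≤ ‖φ‖ * 1 := mul_le_mul_of_nonneg_left hv1.le ha.le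
        _ = ‖φ‖ := mul_one _
    have hb2 : 1 - δ < b := by
      have : ‖v + b • u‖ ≤ ‖v‖ + b := by
        calc ‖v + b • u‖ ≤ ‖v‖ + ‖b • u‖ := norm_add_le _ _
          _ = ‖v‖ + b := by rw [norm_smul, hu, mul_one, Real.norm_of_nonneg hb0]
      linarith
    refine ⟨v, hv1.le, ?_, ?_⟩
    · rw [hφv]
      nlinarith
    · have e : u + v = (v + b • u) + (1 - b) • u := by module
      have h3 : ‖(1 - b) • u‖ = 1 - b := by
        rw [norm_smul, hu, mul_one, Real.norm_of_nonneg (by linarith)]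
      have h4 : ‖v + b • u‖ ≤ ‖u + v‖ + ‖(1 - b) • u‖ := by
        have : v + b • u = (u + v) - (1 - b) • u := by module
        rw [this]
        exact norm_sub_le _ _
      linarith

/-- Scaled slice lemma: for `u ≠ 0` and `lam ≥ 0` the slice contains `z` with
`‖u + lam • z‖ ≥ (1 - ε) (‖u‖ + lam)`. -/
theorem slice_scaled (hD : HasDaugavetProperty V) (φ : V →L[ℝ] ℝ) (u : V) (hu : u ≠ 0)
    (γ : ℝ) (hγ : 0 < γ) (ε : ℝ) (hε : 0 < ε) (lam : ℝ) (hlam : 0 ≤ lam) :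
    ∃ z : V, ‖z‖ ≤ 1 ∧ ‖φ‖ - γ ≤ φ z ∧ (1 - ε) * (‖u‖ + lam) ≤ ‖u + lam • z‖ := by
  have ha : 0 < ‖u‖ := norm_pos_iff.mpr hu
  have hû : ‖(‖u‖⁻¹ • u)‖ = 1 := by
    rw [norm_smul, norm_inv, norm_norm]
    field_simp
  obtain ⟨z, hz1, hz2, hz3⟩ := slice_unit hD φ (‖u‖⁻¹ • u) hû γ hγ ε hε
  refine ⟨z, hz1, hz2, ?_⟩
  obtain ⟨w, hw⟩ : ∃ w : V, w = ‖u‖⁻¹ • u := ⟨_, rfl⟩
  rw [← hw] at hz3 hû
  have hu' : u = ‖u‖ • w := by
    rw [hw, smul_smul, mul_inv_cancel₀ ha.ne', one_smul]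
  obtain ⟨a, ha_def⟩ : ∃ a : ℝ, a = ‖u‖ := ⟨_, rfl⟩
  rw [← ha_def] at hu' ha ⊢
  rw [hu']
  rcases le_total lam a with hab | hab
  · have e : a • w + lam • z = a • (w + z) - (a - lam) • z := by module
    have h1 : ‖a • (w + z)‖ = a * ‖w + z‖ := by rw [norm_smul, Real.norm_of_nonneg ha.le]
    have h2 : ‖(a - lam) • z‖ ≤ a - lam := by
      rw [norm_smul, Real.norm_of_nonneg (by linarith)]
      calc (a - lam) * ‖z‖ ≤ (a - lam) * 1 := mul_le_mul_of_nonneg_left hz1 (by linarith)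
        _ = a - lam := mul_one _
    have h3 : ‖a • (w + z)‖ - ‖(a - lam) • z‖ ≤ ‖a • (w + z) - (a - lam) • z‖ :=
      norm_sub_norm_le _ _
    rw [e]
    nlinarith
  · have e : a • w + lam • z = lam • (w + z) - (lam - a) • w := by module
    have h1 : ‖lam • (w + z)‖ = lam * ‖w + z‖ := by rw [norm_smul, Real.norm_of_nonneg hlam]
    have h2 : ‖(lam - a) • w‖ = lam - a := by
      rw [norm_smul, Real.norm_of_nonneg (by linarith), hû, mul_one]
    have h3 : ‖lam • (w + z)‖ - ‖(lam - a) • w‖ ≤ ‖lam • (w + z) - (lam - a) • w‖ :=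
      norm_sub_norm_le _ _
    rw [e]
    nlinarith

/-- Iterated slice lemma: given finitely many functionals `φ i` and weights `lam i ≥ 0`, one can
choose `z i` in the slices so that `‖u + ∑ lam i • z i‖ ≥ (1 - ε)^n (‖u‖ + ∑ lam i)`. -/
theorem slice_sum (hD : HasDaugavetProperty V) {ι : Type*} (φ : ι → V →L[ℝ] ℝ) (lam : ι → ℝ)
    (γ : ℝ) (hγ : 0 < γ) (ε : ℝ) (hε : 0 < ε) (hε1 : ε < 1) (t : Finset ι)
    (hlam : ∀ i ∈ t, 0 ≤ lam i) (u : V) (hu : u ≠ 0) :
    ∃ z : ι → V, (∀ i ∈ t, ‖z i‖ ≤ 1 ∧ ‖φ i‖ - γ ≤ φ i (z i)) ∧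
      (1 - ε) ^ t.card * (‖u‖ + ∑ i ∈ t, lam i) ≤ ‖u + ∑ i ∈ t, lam i • z i‖ := by
  classical
  induction t using Finset.induction_on with
  | empty => exact ⟨fun _ => 0, by simp, by simp⟩
  | insert a s has ih =>
    obtain ⟨z, hz1, hz2⟩ := ih (fun i hi => hlam i (Finset.mem_insert_of_mem hi))
    have hpos : 0 < 1 - ε := by linarith
    have hsum0 : 0 ≤ ∑ i ∈ s, lam i :=
      Finset.sum_nonneg (fun i hi => hlam i (Finset.mem_insert_of_mem hi))
    have hun : 0 < ‖u‖ := norm_pos_iff.mpr hu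
    have hu' : u + ∑ i ∈ s, lam i • z i ≠ 0 := by
      rw [← norm_pos_iff]
      have : 0 < (1 - ε) ^ s.card * (‖u‖ + ∑ i ∈ s, lam i) := by positivity
      linarith
    have hla : 0 ≤ lam a := hlam a (Finset.mem_insert_self a s)
    obtain ⟨za, hza1, hza2, hza3⟩ :=
      slice_scaled hD (φ a) (u + ∑ i ∈ s, lam i • z i) hu' γ hγ ε hε (lam a) hla
    refine ⟨Function.update z a za, ?_, ?_⟩
    · intro i hi
      rcases Finset.mem_insert.mp hi with rfl | his
      · rw [Function.update_self]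
        exact ⟨hza1, hza2⟩
      · have hne : i ≠ a := fun h => has (h ▸ his)
        rw [Function.update_of_ne hne]
        exact hz1 i his
    · have hsum : ∑ i ∈ insert a s, lam i • Function.update z a za i
          = lam a • za + ∑ i ∈ s, lam i • z i := by
        rw [Finset.sum_insert has, Function.update_self]
        congr 1
        refine Finset.sum_congr rfl (fun i hi => ?_)
        have hne : i ≠ a := fun h => has (h ▸ hi)
        rw [Function.update_of_ne hne]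
      rw [hsum, Finset.sum_insert has, Finset.card_insert_of_notMem has, pow_succ]
      have e : u + (lam a • za + ∑ i ∈ s, lam i • z i)
          = (u + ∑ i ∈ s, lam i • z i) + lam a • za := by abel
      rw [e]
      have hp1 : (1 - ε) ^ s.card ≤ 1 := pow_le_one₀ hpos.le (by linarith)
      have hp0 : 0 < (1 - ε) ^ s.card := pow_pos hpos _
      calc (1 - ε) ^ s.card * (1 - ε) * (‖u‖ + (lam a + ∑ i ∈ s, lam i))
          = (1 - ε) * ((1 - ε) ^ s.card * (‖u‖ + ∑ i ∈ s, lam i) + (1 - ε) ^ s.card * lam a) := by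
            ring
        _ ≤ (1 - ε) * (‖u + ∑ i ∈ s, lam i • z i‖ + lam a) := by
            apply mul_le_mul_of_nonneg_left _ hpos.le
            have : (1 - ε) ^ s.card * lam a ≤ 1 * lam a := mul_le_mul_of_nonneg_right hp1 hla
            linarith
        _ ≤ _ := hza3

end Crest.Agent.Helper9.DaugavetD1
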