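import Mathlib
import Crest.Prelude.Def_DaugavetL1
import Crest.Agent.Helper5.Row125Core
import Crest.Agent.Helper1.Farthest
import Crest.Agent.Helper9.DaugavetSlice

/-!
# (D1) for spaces with the Daugavet property (helper9, row 125 / S0167)

In a real normed space with the Daugavet property, for every unit vector `x`, every closed subspace
`S` of finite codimension and every `ε > 0` there is a unit vector `y ∈ S` with
`‖x + 2 • y‖ ≤ 1 + ε`.

Proof: map `V` onto a Euclidean model `Q` of `V ⧸ S` by `T`; the closure `K` of the image of the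
unit ball is compact, hence `T x` is approximated by a convex combination `∑ w i • q i` of farthest
points of `K` (helper1's `exists_convexComb_farthest`), and the slices of `K` at farthest points
are small.  The iterated Daugavet slice lemma picks `z i` in the pulled-back slices with
`‖-x + ∑ w i • z i‖ ≈ 2`; then `y₀ = ∑ w i • z i` has `‖y₀‖ ≤ 1`, `‖y₀ - x‖ ≈ 2` and
`T (y₀ - x) ≈ 0`, so `y₀ - x` is close to `S`.
-/

namespace Crest.Agent.Helper9.DaugavetD1

open Crest.AnalysisR.L1Subspace Crest.Agent.Helper1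
open scoped RealInnerProductSpace

variable {V : Type*} [NormedAddCommGroup V] [NormedSpace ℝ V]

/-- Core of (D1): for a continuous linear map `T` into a complete inner product space which maps
the unit ball to a relatively compact set, every unit vector `x` admits `y₀` in the unit ball with
`‖y₀ - x‖ ≥ 2 - θ` and `‖T (y₀ - x)‖ ≤ 2 δ`. -/
theorem daugavet_core (hD : HasDaugavetProperty V) {Q : Type*} [NormedAddCommGroup Q]
    [InnerProductSpace ℝ Q] [CompleteSpace Q] (T : V →L[ℝ] Q)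
    (hK : IsCompact (closure (T '' Metric.closedBall (0 : V) 1)))
    (x : V) (hx : ‖x‖ = 1) (δ : ℝ) (hδ : 0 < δ) (θ : ℝ) (hθ : 0 < θ) :
    ∃ y₀ : V, ‖y₀‖ ≤ 1 ∧ 2 - θ ≤ ‖y₀ - x‖ ∧ ‖T (y₀ - x)‖ ≤ 2 * δ := by
  classical
  have hp : T x ∈ closure (T '' Metric.closedBall (0 : V) 1) :=
    subset_closure ⟨x, by simp [hx], rfl⟩
  obtain ⟨ι, _, w, q, c, hw0, hw1, hF, hclose⟩ := exists_convexComb_farthest hK hp hδ
  obtain ⟨φ, hφ_apply⟩ : ∃ φ : ι → V →L[ℝ] ℝ, ∀ i v, φ i v = ⟪T v, q i - c i⟫ :=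
    ⟨fun i => (innerSL ℝ (q i - c i)).comp T, fun i v => by
      rw [ContinuousLinearMap.comp_apply, innerSL_apply_apply, real_inner_comm]⟩
  have hφ_norm : ∀ i, ⟪q i, q i - c i⟫ ≤ ‖φ i‖ := by
    intro i
    have hsub : closure (T '' Metric.closedBall (0 : V) 1) ⊆ {k | ⟪k, q i - c i⟫ ≤ ‖φ i‖} := by
      apply closure_minimal
      · rintro _ ⟨z, hz, rfl⟩
        have hz1 : ‖z‖ ≤ 1 := by simpa using hz
        show ⟪T z, q i - c i⟫ ≤ ‖φ i‖
        rw [← hφ_apply]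
        calc φ i z ≤ ‖φ i z‖ := Real.le_norm_self _
          _ ≤ ‖φ i‖ * ‖z‖ := (φ i).le_opNorm z
          _ ≤ ‖φ i‖ * 1 := mul_le_mul_of_nonneg_left hz1 (norm_nonneg _)
          _ = ‖φ i‖ := mul_one _
      · exact isClosed_le (by fun_prop) continuous_const
    exact hsub (hF i).1
  -- parameters
  obtain ⟨ε₁, hε₁, hε₁1, hε₁n⟩ : ∃ ε₁ : ℝ, 0 < ε₁ ∧ ε₁ < 1 ∧
      2 * ((Fintype.card ι : ℝ) * ε₁) ≤ θ := by
    refine ⟨min (1 / 2) (θ / (2 * ((Fintype.card ι : ℝ) + 1))), ?_, ?_, ?_⟩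
    · exact lt_min (by norm_num) (by positivity)
    · exact lt_of_le_of_lt (min_le_left _ _) (by norm_num)
    · have h1 : min (1 / 2) (θ / (2 * ((Fintype.card ι : ℝ) + 1)))
          ≤ θ / (2 * ((Fintype.card ι : ℝ) + 1)) := min_le_right _ _
      have h2 : (Fintype.card ι : ℝ) * (θ / (2 * ((Fintype.card ι : ℝ) + 1))) ≤ θ / 2 := by
        rw [mul_div_assoc', div_le_div_iff₀ (by positivity) (by norm_num)]
        nlinarith [hθ, (Nat.cast_nonneg (Fintype.card ι) : (0 : ℝ) ≤ Fintype.card ι)]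
      have h3 : (Fintype.card ι : ℝ) * min (1 / 2) (θ / (2 * ((Fintype.card ι : ℝ) + 1)))
          ≤ (Fintype.card ι : ℝ) * (θ / (2 * ((Fintype.card ι : ℝ) + 1))) :=
        mul_le_mul_of_nonneg_left h1 (Nat.cast_nonneg _)
      linarith
  have hx0 : -x ≠ 0 := by
    rw [neg_ne_zero, ← norm_pos_iff, hx]
    exact one_pos
  obtain ⟨z, hz, hzn⟩ := slice_sum hD φ w (δ ^ 2 / 2) (by positivity) ε₁ hε₁ hε₁1 Finset.univ
    (fun i _ => hw0 i) (-x) hx0
  refine ⟨∑ i, w i • z i, ?_, ?_, ?_⟩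
  · calc ‖∑ i, w i • z i‖ ≤ ∑ i, ‖w i • z i‖ := norm_sum_le _ _
      _ ≤ ∑ i, w i := Finset.sum_le_sum (fun i _ => by
          rw [norm_smul, Real.norm_of_nonneg (hw0 i)]
          exact mul_le_of_le_one_right (hw0 i) (hz i (Finset.mem_univ i)).1)
      _ = 1 := hw1
  · have h1 : (1 - ε₁) ^ (Fintype.card ι) * 2 ≤ ‖-x + ∑ i, w i • z i‖ := by
      have := hzn
      rw [norm_neg, hx, hw1, Finset.card_univ] at this
      have e2 : (1 : ℝ) + 1 = 2 := by norm_num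
      rwa [e2] at this
    have h2 : 1 - (Fintype.card ι : ℝ) * ε₁ ≤ (1 - ε₁) ^ (Fintype.card ι) := by
      have := one_add_mul_le_pow (a := -ε₁) (by linarith) (Fintype.card ι)
      have e3 : (1 : ℝ) + (Fintype.card ι : ℝ) * -ε₁ = 1 - (Fintype.card ι : ℝ) * ε₁ := by ring
      have e4 : (1 : ℝ) + -ε₁ = 1 - ε₁ := by ring
      rwa [e3, e4] at this
    have e : ∑ i, w i • z i - x = -x + ∑ i, w i • z i := by abel
    rw [e]
    linarith
  · have hTz : ∀ i, ‖T (z i) - q i‖ ≤ δ := by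
      intro i
      have hzi := hz i (Finset.mem_univ i)
      have hmem : T (z i) ∈ closure (T '' Metric.closedBall (0 : V) 1) :=
        subset_closure ⟨z i, by simpa using hzi.1, rfl⟩
      have hsl := (hF i).slice hmem (γ := δ ^ 2 / 2) (by
        rw [← hφ_apply]
        linarith [hφ_norm i, hzi.2])
      by_contra hcon
      push Not at hcon
      nlinarith [norm_nonneg (T (z i) - q i)]
    have e : T (∑ i, w i • z i - x)
        = ∑ i, w i • (T (z i) - q i) - (T x - ∑ i, w i • q i) := by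
      simp only [map_sub, map_sum, map_smul, smul_sub, Finset.sum_sub_distrib]
      abel
    rw [e]
    calc ‖∑ i, w i • (T (z i) - q i) - (T x - ∑ i, w i • q i)‖
        ≤ ‖∑ i, w i • (T (z i) - q i)‖ + ‖T x - ∑ i, w i • q i‖ := norm_sub_le _ _
      _ ≤ ∑ i, w i * δ + δ := by
          apply add_le_add _ hclose.le
          calc ‖∑ i, w i • (T (z i) - q i)‖ ≤ ∑ i, ‖w i • (T (z i) - q i)‖ := norm_sum_le _ _
            _ ≤ ∑ i, w i * δ := Finset.sum_le_sum (fun i _ => by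
                rw [norm_smul, Real.norm_of_nonneg (hw0 i)]
                exact mul_le_mul_of_nonneg_left (hTz i) (hw0 i))
      _ = 2 * δ := by rw [← Finset.sum_mul, hw1]; ring

/-- A Euclidean model of the finite-dimensional quotient `V ⧸ S`: a continuous linear map `T` from
`V` to a Euclidean space whose norm controls the quotient norm. -/
theorem exists_euclidean_model (S : Submodule ℝ V) (hS : IsClosed (S : Set V))
    [FiniteDimensional ℝ (V ⧸ S)] :
    ∃ (T : V →L[ℝ] EuclideanSpace ℝ (Fin (Module.finrank ℝ (V ⧸ S)))) (C : ℝ), 0 ≤ C ∧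
      ∀ v, ‖(Submodule.Quotient.mk v : V ⧸ S)‖ ≤ C * ‖T v‖ := by
  have : IsClosed (S : Set V) := hS
  obtain ⟨e⟩ : Nonempty ((V ⧸ S) ≃L[ℝ] EuclideanSpace ℝ (Fin (Module.finrank ℝ (V ⧸ S)))) :=
    ⟨toEuclidean⟩
  refine ⟨e.toContinuousLinearMap.comp S.mkQL, ‖e.symm.toContinuousLinearMap‖,
    e.symm.toContinuousLinearMap.opNorm_nonneg, fun v => ?_⟩
  have h1 : (Submodule.Quotient.mk v : V ⧸ S)
      = e.symm ((e.toContinuousLinearMap.comp S.mkQL) v) := by
    rw [ContinuousLinearMap.comp_apply]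
    simp
  rw [h1]
  exact e.symm.toContinuousLinearMap.le_opNorm _

/-- **(D1)** In a real normed space with the Daugavet property, for every unit vector `x`, every
closed subspace `S` of finite codimension and every `ε > 0` there is a unit vector `y ∈ S` with
`‖x + 2 • y‖ ≤ 1 + ε`. -/
theorem daugavet_D1 (hD : HasDaugavetProperty V) (x : V) (hx : ‖x‖ = 1)
    (S : Submodule ℝ V) (hS : IsClosed (S : Set V)) [FiniteDimensional ℝ (V ⧸ S)]
    (ε : ℝ) (hε : 0 < ε) :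
    ∃ y ∈ S, ‖y‖ = 1 ∧ ‖x + (2 : ℝ) • y‖ ≤ 1 + ε := by
  obtain ⟨ε', hε', hε'1, hε'ε⟩ : ∃ ε' : ℝ, 0 < ε' ∧ ε' ≤ 1 ∧ ε' ≤ ε :=
    ⟨min ε 1, lt_min hε one_pos, min_le_right _ _, min_le_left _ _⟩
  obtain ⟨T, C, hC0, hC⟩ := exists_euclidean_model S hS
  have hK : IsCompact (closure (T '' Metric.closedBall (0 : V) 1)) :=
    (T.lipschitz.isBounded_image Metric.isBounded_closedBall).isCompact_closure
  have hδ : 0 < ε' / (16 * (C + 1)) := by positivity
  obtain ⟨y₀, hy1, hy2, hy3⟩ := daugavet_core hD T hK x hx (ε' / (16 * (C + 1))) hδ (ε' / 4)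
    (by positivity)
  have hmk : ‖(Submodule.Quotient.mk (y₀ - x) : V ⧸ S)‖ < ε' / 4 := by
    calc ‖(Submodule.Quotient.mk (y₀ - x) : V ⧸ S)‖ ≤ C * ‖T (y₀ - x)‖ := hC _
      _ ≤ C * (2 * (ε' / (16 * (C + 1)))) := mul_le_mul_of_nonneg_left hy3 hC0
      _ < ε' / 4 := by
          have e1 : C * (2 * (ε' / (16 * (C + 1)))) = ε' / 4 * (C / (2 * (C + 1))) := by
            field_simp
            ring
          rw [e1]
          have h1 : C / (2 * (C + 1)) < 1 := by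
            rw [div_lt_one (by positivity)]
            linarith
          nlinarith
  obtain ⟨s, hsS, hs⟩ :=
    Crest.Agent.Helper5.Row125.exists_mem_sub_lt_of_norm_mk_lt S (y₀ - x) (ε' / 4) hmk
  have hρ1 : 2 - ε' / 2 ≤ ‖s‖ := by
    have h := norm_sub_norm_le (y₀ - x) ((y₀ - x) - s)
    have e2 : (y₀ - x) - ((y₀ - x) - s) = s := by abel
    rw [e2] at h
    linarith
  have hρ2 : ‖s‖ ≤ 2 + ε' / 4 := by
    have h1 : ‖y₀ - x‖ ≤ 2 := by
      calc ‖y₀ - x‖ ≤ ‖y₀‖ + ‖x‖ := norm_sub_le _ _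
        _ ≤ 2 := by linarith
    have h := norm_sub_le (y₀ - x) ((y₀ - x) - s)
    have e2 : (y₀ - x) - ((y₀ - x) - s) = s := by abel
    rw [e2] at h
    linarith
  have hρ0 : 0 < ‖s‖ := by linarith
  refine ⟨‖s‖⁻¹ • s, S.smul_mem _ hsS, ?_, ?_⟩
  · rw [norm_smul, norm_inv, norm_norm, inv_mul_cancel₀ hρ0.ne']
  · have e3 : x + (2 : ℝ) • ‖s‖⁻¹ • s
        = (y₀ - ((y₀ - x) - s)) + ((2 - ‖s‖) * ‖s‖⁻¹) • s := by
      have h2 : (2 : ℝ) * ‖s‖⁻¹ = 1 + (2 - ‖s‖) * ‖s‖⁻¹ := by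
        field_simp
        ring
      rw [smul_smul, h2, add_smul, one_smul]
      abel
    have h4 : ‖((2 - ‖s‖) * ‖s‖⁻¹) • s‖ = |2 - ‖s‖| := by
      rw [norm_smul, Real.norm_eq_abs, abs_mul, abs_inv, abs_norm, mul_assoc,
        inv_mul_cancel₀ hρ0.ne', mul_one]
    have h5 : |2 - ‖s‖| ≤ ε' / 2 := abs_le.mpr ⟨by linarith, by linarith⟩
    have h6 : ‖y₀ - ((y₀ - x) - s)‖ ≤ ‖y₀‖ + ‖(y₀ - x) - s‖ := norm_sub_le _ _
    rw [e3]
    calc ‖(y₀ - ((y₀ - x) - s)) + ((2 - ‖s‖) * ‖s‖⁻¹) • s‖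
        ≤ ‖y₀ - ((y₀ - x) - s)‖ + ‖((2 - ‖s‖) * ‖s‖⁻¹) • s‖ := norm_add_le _ _
      _ ≤ 1 + ε := by linarith

end Crest.Agent.Helper9.DaugavetD1

namespace Crest.Agent.Helper9

/-- Alias of `Crest.Agent.Helper9.DaugavetD1.daugavet_D1` in the namespace `Crest.Agent.Helper9`. -/
theorem daugavet_D1 {V : Type*} [NormedAddCommGroup V] [NormedSpace ℝ V]
    (hD : Crest.AnalysisR.L1Subspace.HasDaugavetProperty V) (x : V) (hx : ‖x‖ = 1)
    (S : Submodule ℝ V) (hS : IsClosed (S : Set V)) [FiniteDimensional ℝ (V ⧸ S)]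
    (ε : ℝ) (hε : 0 < ε) :
    ∃ y ∈ S, ‖y‖ = 1 ∧ ‖x + (2 : ℝ) • y‖ ≤ 1 + ε :=
  DaugavetD1.daugavet_D1 hD x hx S hS ε hε

end Crest.Agent.Helper9
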