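import Mathlib
import Crest.Agent.Row211.Defs
import Crest.Agent.Helper9.Area
import Crest.Agent.Helper9.Proj

/-!
# The one-piece lemma of the radial sweep (helper9, row 211, package D1)

A piece `{p₀ + ρ (a + τ b) + s (e + w τ) : τ ∈ [τ₀, τ₁], 0 ≤ ρ ≤ H, |s| ≤ L}` of a radial sweep
whose direction field satisfies `w' = lam (a + t b)` is contained in one cylinder with axis
`e + w c` (any tag `c ∈ [τ₀, τ₁]`) over a nondegenerate triangle of explicit area.
-/

set_option autoImplicit false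
open MeasureTheory

namespace Crest.Agent.Helper9

open Crest.Agent.Helper9.Area Crest.Agent.Row211

theorem gram2_eq_gram (a b : Area.E3) : gram2 a b = gram a b := rfl

/-- Linearly independent vectors have positive Gram determinant. -/
theorem gram_pos_of_linearIndependent (a b : Area.E3) (h : LinearIndependent ℝ ![a, b]) :
    0 < gram a b := by
  rcases (gram_nonneg a b).lt_or_eq with h1 | h1
  · exact h1
  · exfalso
    have key : ‖(‖a‖ ^ 2) • b - (inner ℝ a b) • a‖ ^ 2 = ‖a‖ ^ 2 * gram a b := by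
      unfold gram
      simp only [norm_sq_coord, inner_coord, PiLp.sub_apply, PiLp.smul_apply, smul_eq_mul]
      ring
    have h0 : (‖a‖ ^ 2) • b - (inner ℝ a b) • a = 0 := by
      rw [← norm_eq_zero]
      have : ‖(‖a‖ ^ 2) • b - (inner ℝ a b) • a‖ ^ 2 = 0 := by rw [key, ← h1, mul_zero]
      exact pow_eq_zero_iff (two_ne_zero) |>.mp this
    rw [LinearIndependent.pair_iff] at h
    have h2 := h (-(inner ℝ a b)) (‖a‖ ^ 2) (by rw [neg_smul, ← h0]; abel)
    have ha0 : a = 0 := by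
      have : ‖a‖ ^ 2 = 0 := h2.2
      exact norm_eq_zero.mp (pow_eq_zero_iff (two_ne_zero) |>.mp this)
    have h3 := h 1 0 (by rw [ha0]; simp)
    exact one_ne_zero h3.1

/-- Three points spanning a triangle of positive Gram determinant are affinely independent. -/
theorem affineIndependent_of_gram_pos (p q r : Area.E3) (h : 0 < gram (q - p) (r - p)) :
    AffineIndependent ℝ ![p, q, r] := by
  rw [affineIndependent_iff_not_collinear_set]
  intro hcol
  rw [collinear_iff_of_mem (p₀ := p) (by simp)] at hcol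
  obtain ⟨v, hv⟩ := hcol
  obtain ⟨r₁, hq⟩ := hv q (by simp)
  obtain ⟨r₂, hr⟩ := hv r (by simp)
  have e1 : q - p = r₁ • v := by rw [hq]; simp
  have e2 : r - p = r₂ • v := by rw [hr]; simp
  rw [e1, e2, gram_smul_left, gram_smul_right, gram_self] at h
  simp at h

/-- A vector orthogonal to three vectors with nonzero triple product vanishes. -/
theorem eq_zero_of_perp_three (a b e r : Area.E3) (hT : triple a b e ≠ 0)
    (h1 : inner ℝ r a = 0) (h2 : inner ℝ r b = 0) (h3 : inner ℝ r e = 0) : r = 0 := by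
  rw [inner_coord] at h1 h2 h3
  have k0 : triple a b e * r 0 = 0 := by
    unfold triple
    linear_combination (b 1 * e 2 - b 2 * e 1) * h1 - (a 1 * e 2 - a 2 * e 1) * h2
      + (a 1 * b 2 - a 2 * b 1) * h3
  have k1 : triple a b e * r 1 = 0 := by
    unfold triple
    linear_combination -(b 0 * e 2 - b 2 * e 0) * h1 + (a 0 * e 2 - a 2 * e 0) * h2
      - (a 0 * b 2 - a 2 * b 0) * h3
  have k2 : triple a b e * r 2 = 0 := by
    unfold triple
    linear_combination (b 0 * e 1 - b 1 * e 0) * h1 - (a 0 * e 1 - a 1 * e 0) * h2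
      + (a 0 * b 1 - a 1 * b 0) * h3
  have r0 : r 0 = 0 := (mul_eq_zero.mp k0).resolve_left hT
  have r1 : r 1 = 0 := (mul_eq_zero.mp k1).resolve_left hT
  have r2 : r 2 = 0 := (mul_eq_zero.mp k2).resolve_left hT
  ext i
  fin_cases i
  · simpa using r0
  · simpa using r1
  · simpa using r2

/-- Dual functionals of a basis `a, b` of the plane `e^⊥`. -/
theorem exists_dual (e a b : Area.E3) (he : ‖e‖ = 1) (ha : inner ℝ a e = 0)
    (hb : inner ℝ b e = 0) (hG : 0 < gram a b) :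
    ∃ φa φb : Area.E3 →L[ℝ] ℝ, φa a = 1 ∧ φa b = 0 ∧ φb a = 0 ∧ φb b = 1 ∧
      ∀ v : Area.E3, inner ℝ v e = 0 → v = φa v • a + φb v • b := by
  have hG0 : gram a b ≠ 0 := hG.ne'
  obtain ⟨φa, hφa⟩ : ∃ φa : Area.E3 →L[ℝ] ℝ, ∀ v, φa v
      = (‖b‖ ^ 2 * inner ℝ a v - inner ℝ a b * inner ℝ b v) / gram a b :=
    ⟨(‖b‖ ^ 2 / gram a b) • innerSL ℝ a - (inner ℝ a b / gram a b) • innerSL ℝ b, fun v => by
      simp only [sub_apply, smul_apply,
        innerSL_apply_apply, smul_eq_mul]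
      ring⟩
  obtain ⟨φb, hφb⟩ : ∃ φb : Area.E3 →L[ℝ] ℝ, ∀ v, φb v
      = (‖a‖ ^ 2 * inner ℝ b v - inner ℝ a b * inner ℝ a v) / gram a b :=
    ⟨(‖a‖ ^ 2 / gram a b) • innerSL ℝ b - (inner ℝ a b / gram a b) • innerSL ℝ a, fun v => by
      simp only [sub_apply, smul_apply,
        innerSL_apply_apply, smul_eq_mul]
      ring⟩
  have hba : inner ℝ b a = inner ℝ a b := real_inner_comm _ _
  refine ⟨φa, φb, ?_, ?_, ?_, ?_, ?_⟩
  · rw [hφa, real_inner_self_eq_norm_sq, hba, div_eq_one_iff_eq hG0]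
    unfold gram
    ring
  · rw [hφa, real_inner_self_eq_norm_sq]
    have : ‖b‖ ^ 2 * inner ℝ a b - inner ℝ a b * ‖b‖ ^ 2 = 0 := by ring
    rw [this, zero_div]
  · rw [hφb, real_inner_self_eq_norm_sq, hba]
    have : ‖a‖ ^ 2 * inner ℝ a b - inner ℝ a b * ‖a‖ ^ 2 = 0 := by ring
    rw [this, zero_div]
  · rw [hφb, real_inner_self_eq_norm_sq, div_eq_one_iff_eq hG0]
    unfold gram
    ring
  · intro v hv
    have hT : triple a b e ≠ 0 := by
      intro h0
      have := triple_sq_of_perp e a b he ha hb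
      rw [h0] at this
      have h' : gram a b = 0 := by rw [← this]; ring
      exact hG0 h'
    apply eq_of_sub_eq_zero
    have hva : inner ℝ v a = inner ℝ a v := real_inner_comm _ _
    have hvb : inner ℝ v b = inner ℝ b v := real_inner_comm _ _
    apply eq_zero_of_perp_three a b e _ hT
    · rw [inner_sub_left, inner_add_left, inner_smul_left, inner_smul_left, hφa, hφb,
        real_inner_self_eq_norm_sq, hba, hva]
      simp only [conj_trivial]
      field_simp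
      unfold gram
      ring
    · rw [inner_sub_left, inner_add_left, inner_smul_left, inner_smul_left, hφa, hφb,
        real_inner_self_eq_norm_sq, hvb]
      simp only [conj_trivial]
      field_simp
      unfold gram
      ring
    · rw [inner_sub_left, inner_add_left, inner_smul_left, inner_smul_left, hv, ha, hb]
      simp

/-- Mean value bound for a functional of the direction field. -/
theorem mv_bound (τ₀ τ₁ : ℝ) (w : ℝ → Area.E3) (a b : Area.E3) (lam : ℝ → ℝ)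
    (hw' : ∀ t ∈ Set.Icc τ₀ τ₁, HasDerivWithinAt w (lam t • (a + t • b)) (Set.Icc τ₀ τ₁) t)
    (φ : Area.E3 →L[ℝ] ℝ) (C : ℝ) (hC : ∀ t ∈ Set.Icc τ₀ τ₁, |lam t * (φ a + t * φ b)| ≤ C)
    (c τ : ℝ) (hc : c ∈ Set.Icc τ₀ τ₁) (hτ : τ ∈ Set.Icc τ₀ τ₁) :
    |φ (w τ - w c)| ≤ C * |τ - c| := by
  have hderiv : ∀ t ∈ Set.Icc τ₀ τ₁, HasDerivWithinAt (fun t => φ (w t))
      (lam t * (φ a + t * φ b)) (Set.Icc τ₀ τ₁) t := by
    intro t ht
    have h := φ.hasFDerivAt.comp_hasDerivWithinAt t (hw' t ht)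
    have e : φ (lam t • (a + t • b)) = lam t * (φ a + t * φ b) := by
      simp only [map_smul, map_add, smul_eq_mul]
    rw [e] at h
    exact h
  have h := Convex.norm_image_sub_le_of_norm_hasDerivWithin_le (f := fun t => φ (w t)) hderiv
    (fun t ht => by rw [Real.norm_eq_abs]; exact hC t ht) (convex_Icc τ₀ τ₁) hc hτ
  rw [Real.norm_eq_abs, Real.norm_eq_abs, ← map_sub] at h
  exact h

/-- Points orthogonal to `d` have convex hull orthogonal to `d`. -/
theorem inner_eq_zero_of_mem_convexHull (d p q r y : Area.E3) (hp : inner ℝ p d = 0)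
    (hq : inner ℝ q d = 0) (hr : inner ℝ r d = 0)
    (hy : y ∈ convexHull ℝ ({p, q, r} : Set Area.E3)) : inner ℝ y d = 0 := by
  rw [convexHull_triple_eq] at hy
  obtain ⟨s, t, -, -, -, rfl⟩ := hy
  simp only [inner_add_left, inner_smul_left, inner_sub_left, hp, hq, hr]
  simp

/-- **One-piece lemma** (package D1, shape of `Row211/PLAN.md`). -/
theorem one_piece (e a b p₀ : Area.E3) (he : ‖e‖ = 1) (ha : inner ℝ a e = 0)
    (hb : inner ℝ b e = 0) (hp₀ : inner ℝ p₀ e = 0) (hab : LinearIndependent ℝ ![a, b])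
    (L : ℝ) (hL : 0 ≤ L) (τ₀ τ₁ c : ℝ) (hτ : τ₀ < τ₁) (hc : c ∈ Set.Icc τ₀ τ₁)
    (w : ℝ → Area.E3) (hw : ∀ t ∈ Set.Icc τ₀ τ₁, inner ℝ (w t) e = 0)
    (lam : ℝ → ℝ) (hlam : ContinuousOn lam (Set.Icc τ₀ τ₁))
    (hw' : ∀ t ∈ Set.Icc τ₀ τ₁, HasDerivWithinAt w (lam t • (a + t • b)) (Set.Icc τ₀ τ₁) t)
    (Lam : ℝ) (hLam : ∀ t ∈ Set.Icc τ₀ τ₁, |lam t| ≤ Lam)
    (H ν : ℝ) (hH : 0 ≤ H) (hν : 0 < ν) (hνL : L * Lam * (τ₁ - τ₀) ≤ ν) :
    ∃ p q r : Area.E3,
      (inner ℝ p (e + w c) = 0 ∧ inner ℝ q (e + w c) = 0 ∧ inner ℝ r (e + w c) = 0) ∧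
      AffineIndependent ℝ ![p, q, r] ∧
      {x : Area.E3 | ∃ τ ∈ Set.Icc τ₀ τ₁, ∃ ρ ∈ Set.Icc 0 H, ∃ s : ℝ, |s| ≤ L ∧
          x = p₀ + ρ • (a + τ • b) + s • (e + w τ)} ⊆
        {x : Area.E3 | ∃ y ∈ convexHull ℝ ({p, q, r} : Set Area.E3), ∃ σ : ℝ,
          x = y + σ • (e + w c)} ∧
      μHE[2] (convexHull ℝ ({p, q, r} : Set Area.E3)) =
        ENNReal.ofReal (Real.sqrt (gram2 a b) * (H + 3 * ν) ^ 2 * (τ₁ - τ₀) /
          (2 * Real.sqrt (1 + ‖w c‖ ^ 2))) := by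
  have hG : 0 < gram a b := gram_pos_of_linearIndependent a b hab
  have hwc : inner ℝ (w c) e = 0 := hw c hc
  obtain ⟨d, hd⟩ : ∃ d : Area.E3, d = e + w c := ⟨_, rfl⟩
  rw [← hd]
  have hdn : ‖d‖ ^ 2 = 1 + ‖w c‖ ^ 2 := by
    rw [hd, norm_add_sq_real, he, real_inner_comm, hwc]
    ring
  have hd0 : d ≠ 0 := by
    intro h
    rw [h, norm_zero] at hdn
    nlinarith [sq_nonneg ‖w c‖]
  have hΔ : 0 < τ₁ - τ₀ := sub_pos.mpr hτ
  have hLam0 : 0 ≤ Lam := le_trans (abs_nonneg _) (hLam c hc)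
  obtain ⟨Hc, hHc⟩ : ∃ Hc : ℝ, Hc = H + 3 * ν := ⟨_, rfl⟩
  rw [← hHc]
  have hHc0 : 0 < Hc := by rw [hHc]; linarith
  obtain ⟨cb, hcb⟩ : ∃ cb : ℝ, cb = (τ₀ + τ₁) / 2 := ⟨_, rfl⟩
  obtain ⟨A₀, hA₀⟩ : ∃ A₀ : Area.E3, A₀ = p₀ - (2 * ν) • (a + cb • b) := ⟨_, rfl⟩
  obtain ⟨Q₀, hQ₀⟩ : ∃ Q₀ : Area.E3, Q₀ = A₀ + Hc • (a + τ₀ • b) := ⟨_, rfl⟩
  obtain ⟨R₀, hR₀⟩ : ∃ R₀ : Area.E3, R₀ = A₀ + Hc • (a + τ₁ • b) := ⟨_, rfl⟩
  have hperp : ∀ t : ℝ, inner ℝ (Hc • (a + t • b)) e = 0 := by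
    intro t
    rw [inner_smul_left, inner_add_left, inner_smul_left, ha, hb]
    simp
  have hgram : gram (proj d Q₀ - proj d A₀) (proj d R₀ - proj d A₀)
      = Hc ^ 4 * (τ₁ - τ₀) ^ 2 * gram a b / (1 + ‖w c‖ ^ 2) := by
    have e1 : proj d Q₀ - proj d A₀ = proj d (Hc • (a + τ₀ • b)) := by
      rw [← projL_apply, ← projL_apply, ← projL_apply, ← map_sub, hQ₀]
      congr 1
      abel
    have e2 : proj d R₀ - proj d A₀ = proj d (Hc • (a + τ₁ • b)) := by
      rw [← projL_apply, ← projL_apply, ← projL_apply, ← map_sub, hR₀]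
      congr 1
      abel
    rw [e1, e2, hd, gram_proj_perp e (w c) _ _ he (hperp τ₀) (hperp τ₁) hwc, gram_smul_left,
      gram_smul_right]
    have e3 : gram (a + τ₀ • b) (a + τ₁ • b) = (τ₁ - τ₀) ^ 2 * gram a b := by
      unfold gram
      simp only [norm_sq_coord, inner_coord, PiLp.add_apply, PiLp.smul_apply, smul_eq_mul]
      ring
    rw [e3]
    ring
  have hgram_pos : 0 < gram (proj d Q₀ - proj d A₀) (proj d R₀ - proj d A₀) := by
    rw [hgram]
    positivity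
  refine ⟨proj d A₀, proj d Q₀, proj d R₀,
    ⟨inner_proj_self d _ hd0, inner_proj_self d _ hd0, inner_proj_self d _ hd0⟩,
    affineIndependent_of_gram_pos _ _ _ hgram_pos, ?_, ?_⟩
  · -- containment
    rintro x ⟨τ, hτm, ρ, hρ, s, hs, rfl⟩
    obtain ⟨φa, φb, haa, hab', hba, hbb, hdec⟩ := exists_dual e a b he ha hb hG
    have hperp' : inner ℝ (w τ - w c) e = 0 := by
      rw [inner_sub_left, hw τ hτm, hwc, sub_zero]
    have hD := hdec _ hperp'
    obtain ⟨I, hI⟩ : ∃ I : ℝ, I = φa (w τ - w c) := ⟨_, rfl⟩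
    obtain ⟨J, hJ⟩ : ∃ J : ℝ, J = φb (w τ - w c) := ⟨_, rfl⟩
    rw [← hI, ← hJ] at hD
    have hτc : |τ - c| ≤ τ₁ - τ₀ := by
      rw [abs_le]
      constructor <;> linarith [hτm.1, hτm.2, hc.1, hc.2]
    have bI : |I| ≤ Lam * |τ - c| := by
      rw [hI]
      exact mv_bound τ₀ τ₁ w a b lam hw' φa Lam
        (fun t ht => by rw [haa, hab', mul_zero, add_zero, mul_one]; exact hLam t ht) c τ hc hτm
    have bJ0 : |J - τ₀ * I| ≤ Lam * (τ₁ - τ₀) * |τ - c| := by
      have h := mv_bound τ₀ τ₁ w a b lam hw' (φb - τ₀ • φa) (Lam * (τ₁ - τ₀)) (fun t ht => by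
        have e : (φb - τ₀ • φa) a + t * (φb - τ₀ • φa) b = t - τ₀ := by
          simp only [sub_apply, smul_apply, smul_eq_mul, haa, hab', hba, hbb]
          ring
        rw [e, abs_mul]
        exact mul_le_mul (hLam t ht) (by rw [abs_le]; constructor <;> linarith [ht.1, ht.2])
          (abs_nonneg _) hLam0) c τ hc hτm
      simp only [sub_apply, smul_apply, smul_eq_mul] at h
      rw [← hI, ← hJ] at h
      exact h
    have bJ1 : |τ₁ * I - J| ≤ Lam * (τ₁ - τ₀) * |τ - c| := by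
      have h := mv_bound τ₀ τ₁ w a b lam hw' (τ₁ • φa - φb) (Lam * (τ₁ - τ₀)) (fun t ht => by
        have e : (τ₁ • φa - φb) a + t * (τ₁ • φa - φb) b = τ₁ - t := by
          simp only [sub_apply, smul_apply, smul_eq_mul, haa, hab', hba, hbb]
          ring
        rw [e, abs_mul]
        exact mul_le_mul (hLam t ht) (by rw [abs_le]; constructor <;> linarith [ht.1, ht.2])
          (abs_nonneg _) hLam0) c τ hc hτm
      simp only [sub_apply, smul_apply, smul_eq_mul] at h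
      rw [← hI, ← hJ] at h
      exact h
    have hs0 : 0 ≤ |s| := abs_nonneg s
    have hLL : L * Lam * |τ - c| ≤ ν := by
      calc L * Lam * |τ - c| ≤ L * Lam * (τ₁ - τ₀) :=
            mul_le_mul_of_nonneg_left hτc (mul_nonneg hL hLam0)
        _ ≤ ν := hνL
    have h_sI : |s * I| ≤ ν := by
      rw [abs_mul]
      calc |s| * |I| ≤ L * (Lam * |τ - c|) := mul_le_mul hs bI (abs_nonneg _) hL
        _ = L * Lam * |τ - c| := by ring
        _ ≤ ν := hLL
    have h_sJ0 : |s * (J - τ₀ * I)| ≤ ν * (τ₁ - τ₀) := by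
      rw [abs_mul]
      calc |s| * |J - τ₀ * I| ≤ L * (Lam * (τ₁ - τ₀) * |τ - c|) :=
            mul_le_mul hs bJ0 (abs_nonneg _) hL
        _ = (L * Lam * |τ - c|) * (τ₁ - τ₀) := by ring
        _ ≤ ν * (τ₁ - τ₀) := mul_le_mul_of_nonneg_right hLL hΔ.le
    have h_sJ1 : |s * (τ₁ * I - J)| ≤ ν * (τ₁ - τ₀) := by
      rw [abs_mul]
      calc |s| * |τ₁ * I - J| ≤ L * (Lam * (τ₁ - τ₀) * |τ - c|) :=
            mul_le_mul hs bJ1 (abs_nonneg _) hL
        _ = (L * Lam * |τ - c|) * (τ₁ - τ₀) := by ring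
        _ ≤ ν * (τ₁ - τ₀) := mul_le_mul_of_nonneg_right hLL hΔ.le
    obtain ⟨X', hX'⟩ : ∃ X' : ℝ, X' = ρ + s * I + 2 * ν := ⟨_, rfl⟩
    obtain ⟨Y', hY'⟩ : ∃ Y' : ℝ, Y' = ρ * τ + s * J + 2 * ν * cb := ⟨_, rfl⟩
    have hX0 : 0 ≤ X' := by
      rw [hX']
      linarith [hρ.1, (abs_le.mp h_sI).1]
    have hX1 : X' ≤ Hc := by
      rw [hX', hHc]
      linarith [hρ.2, (abs_le.mp h_sI).2]
    have hY0 : 0 ≤ Y' - τ₀ * X' := by
      have e : Y' - τ₀ * X' = ρ * (τ - τ₀) + s * (J - τ₀ * I) + ν * (τ₁ - τ₀) := by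
        rw [hX', hY', hcb]
        ring
      rw [e]
      have := mul_nonneg hρ.1 (sub_nonneg.mpr hτm.1)
      linarith [(abs_le.mp h_sJ0).1]
    have hY1 : 0 ≤ τ₁ * X' - Y' := by
      have e : τ₁ * X' - Y' = ρ * (τ₁ - τ) + s * (τ₁ * I - J) + ν * (τ₁ - τ₀) := by
        rw [hX', hY', hcb]
        ring
      rw [e]
      have := mul_nonneg hρ.1 (sub_nonneg.mpr hτm.2)
      linarith [(abs_le.mp h_sJ1).1]
    have hden : 0 < Hc * (τ₁ - τ₀) := mul_pos hHc0 hΔ
    obtain ⟨s', hs'⟩ : ∃ s' : ℝ, s' = (τ₁ * X' - Y') / (Hc * (τ₁ - τ₀)) := ⟨_, rfl⟩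
    obtain ⟨t', ht'⟩ : ∃ t' : ℝ, t' = (Y' - τ₀ * X') / (Hc * (τ₁ - τ₀)) := ⟨_, rfl⟩
    have hs'0 : 0 ≤ s' := by rw [hs']; exact div_nonneg hY1 hden.le
    have ht'0 : 0 ≤ t' := by rw [ht']; exact div_nonneg hY0 hden.le
    have hS : (s' + t') * Hc = X' := by
      rw [hs', ht']
      field_simp
      ring
    have hT : (s' * τ₀ + t' * τ₁) * Hc = Y' := by
      rw [hs', ht']
      field_simp
      ring
    have hst : s' + t' ≤ 1 := by
      have : (s' + t') * Hc ≤ 1 * Hc := by rw [hS, one_mul]; exact hX1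
      exact le_of_mul_le_mul_right this hHc0
    -- the point `y₀ = x - s • d` lies in the triangle `A₀, Q₀, R₀`
    have hy₀ : p₀ + ρ • (a + τ • b) + s • (e + w τ) - s • d
        ∈ convexHull ℝ ({A₀, Q₀, R₀} : Set Area.E3) := by
      rw [convexHull_triple_eq]
      refine ⟨s', t', hs'0, ht'0, hst, ?_⟩
      have step1 : p₀ + ρ • (a + τ • b) + s • (e + w τ) - s • d
          = p₀ + ρ • (a + τ • b) + s • (w τ - w c) := by
        rw [hd]
        module
      have step2 : A₀ + s' • (Q₀ - A₀) + t' • (R₀ - A₀)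
          = p₀ + ((s' + t') * Hc - 2 * ν) • a + ((s' * τ₀ + t' * τ₁) * Hc - 2 * ν * cb) • b := by
        rw [hQ₀, hR₀, hA₀]
        module
      rw [step1, step2, hS, hT, hD, hX', hY']
      module
    refine ⟨proj d (p₀ + ρ • (a + τ • b) + s • (e + w τ)), ?_,
      inner ℝ (p₀ + ρ • (a + τ • b) + s • (e + w τ)) d / ‖d‖ ^ 2, by simp [proj]⟩
    rw [← proj_image_triangle]
    refine ⟨_, hy₀, ?_⟩
    have : p₀ + ρ • (a + τ • b) + s • (e + w τ)
        = (p₀ + ρ • (a + τ • b) + s • (e + w τ) - s • d) + s • d := by abel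
    conv_rhs => rw [this]
    rw [proj_add_smul _ _ _ hd0]
  · -- area
    rw [area_triangle, hgram, gram2_eq_gram]
    congr 1
    have h1 : Hc ^ 4 * (τ₁ - τ₀) ^ 2 * gram a b / (1 + ‖w c‖ ^ 2)
        = (Hc ^ 2 * (τ₁ - τ₀) * Real.sqrt (gram a b) / Real.sqrt (1 + ‖w c‖ ^ 2)) ^ 2 := by
      rw [div_pow, mul_pow, mul_pow, Real.sq_sqrt hG.le, Real.sq_sqrt (by positivity)]
      ring
    rw [h1, Real.sqrt_sq (by positivity)]
    ring

/-- A point of a cylinder with triangular base perpendicular to the axis projects into the base. -/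
theorem proj_mem_of_mem_triCyl (u p q r x : Area.E3) (hu : u ≠ 0) (hp : inner ℝ p u = 0)
    (hq : inner ℝ q u = 0) (hr : inner ℝ r u = 0)
    (hx : ∃ y ∈ convexHull ℝ ({p, q, r} : Set Area.E3), ∃ σ : ℝ, x = y + σ • u) :
    proj u x ∈ convexHull ℝ ({p, q, r} : Set Area.E3) :=
  (mem_cylinder_iff u hu _ (fun y hy => inner_eq_zero_of_mem_convexHull u p q r y hp hq hr hy)
    x).mp hx

/-- Conversely, a point whose projection lies in the base lies in the cylinder. -/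
theorem mem_triCyl_of_proj_mem (u p q r x : Area.E3)
    (hx : proj u x ∈ convexHull ℝ ({p, q, r} : Set Area.E3)) :
    ∃ y ∈ convexHull ℝ ({p, q, r} : Set Area.E3), ∃ σ : ℝ, x = y + σ • u :=
  ⟨proj u x, hx, inner ℝ x u / ‖u‖ ^ 2, by simp [proj]⟩

end Crest.Agent.Helper9
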