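import Mathlib
import Crest.Agent.Helper9.Area
import Crest.Agent.Helper9.Proj

/-!
# Similarities of 3-space: projections and regular tetrahedra (helper9, row 211, G4/G5)
-/

set_option autoImplicit false
open MeasureTheory
open scoped Pointwise

namespace Crest.Agent.Helper9

open Crest.Agent.Helper9.Area

/-- `μHE[2]` scales by `lam ^ 2` under the similarity `z ↦ d₀ + lam • A z`. -/
theorem area_image_similarity (A : Area.E3 ≃ₗᵢ[ℝ] Area.E3) (lam : ℝ) (hlam : 0 < lam)
    (d₀ : Area.E3) (T : Set Area.E3) :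
    μHE[2] ((fun z => d₀ + lam • A z) '' T) = ENNReal.ofReal (lam ^ 2) * μHE[2] T := by
  have h1 : (fun z : Area.E3 => d₀ + lam • A z) '' T
      = (fun z : Area.E3 => d₀ + z) '' (lam • (A '' T)) := by
    rw [← Set.image_smul, Set.image_image, Set.image_image]
  rw [h1, (isometry_add_left d₀).euclideanHausdorffMeasure_image,
    Measure.euclideanHausdorffMeasure_smul₀ 2 hlam.ne', A.isometry.euclideanHausdorffMeasure_image]
  rw [ENNReal.smul_def, smul_eq_mul]
  congr 1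
  rw [ENNReal.coe_pow, ENNReal.ofReal_pow hlam.le]
  congr 1
  rw [← enorm_eq_nnnorm, ← ofReal_norm, Real.norm_of_nonneg hlam.le]

/-- (G5) Projections commute with similarities, up to conjugating the direction. -/
theorem proj_image_similarity (A : Area.E3 ≃ₗᵢ[ℝ] Area.E3) (lam : ℝ) (hlam : 0 < lam)
    (c₀ v : Area.E3) (S : Set Area.E3) :
    μHE[2] ((fun y => y - inner ℝ y v • v) '' ((fun x => c₀ + lam • A x) '' S))
      = ENNReal.ofReal (lam ^ 2)
        * μHE[2] ((fun y => y - inner ℝ y (A.symm v) • A.symm v) '' S) := by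
  have himg : (fun y : Area.E3 => y - inner ℝ y v • v) '' ((fun x => c₀ + lam • A x) '' S)
      = (fun z : Area.E3 => (c₀ - inner ℝ c₀ v • v) + lam • A z)
        '' ((fun y : Area.E3 => y - inner ℝ y (A.symm v) • A.symm v) '' S) := by
    rw [Set.image_image, Set.image_image]
    apply Set.image_congr'
    intro x
    have h : inner ℝ (A x) v = inner ℝ x (A.symm v) := by
      have := A.inner_map_map x (A.symm v)
      rw [A.apply_symm_apply] at this
      exact this
    simp only [map_sub, map_smul, A.apply_symm_apply, inner_add_left, inner_smul_left, h,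
      conj_trivial]
    module
  rw [himg, area_image_similarity A lam hlam]

/-- (G4) Every regular tetrahedron is the image of the standard one under a similarity. -/
theorem exists_similarity (w : Fin 4 → Area.E3) (ℓ : ℝ) (hℓ : 0 < ℓ)
    (hw : ∀ i j, i ≠ j → dist (w i) (w j) = ℓ) :
    ∃ (A : Area.E3 ≃ₗᵢ[ℝ] Area.E3) (c₀ : Area.E3),
      (fun x => c₀ + (ℓ / 2) • A x) '' convexHull ℝ {!₂[1, 0, 0], !₂[-1, 0, 0],
        !₂[0, 1, Real.sqrt 2], !₂[0, -1, Real.sqrt 2]} = convexHull ℝ (Set.range w) := by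
  obtain ⟨σ, hσdef⟩ : ∃ σ : ℝ, σ = Real.sqrt 2 := ⟨_, rfl⟩
  rw [← hσdef]
  have hσ0 : 0 < σ := by rw [hσdef]; positivity
  have hσ2 : σ ^ 2 = 2 := by rw [hσdef]; exact Real.sq_sqrt (by norm_num)
  have hσσ : σ / σ = 1 := div_self hσ0.ne'
  -- edge vectors of the target tetrahedron
  obtain ⟨t₁, ht₁⟩ : ∃ t₁ : Area.E3, t₁ = (2 / ℓ) • (w 1 - w 0) := ⟨_, rfl⟩
  obtain ⟨t₂, ht₂⟩ : ∃ t₂ : Area.E3, t₂ = (2 / ℓ) • (w 2 - w 0) := ⟨_, rfl⟩
  obtain ⟨t₃, ht₃⟩ : ∃ t₃ : Area.E3, t₃ = (2 / ℓ) • (w 3 - w 0) := ⟨_, rfl⟩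
  have hnorm : ∀ i : Fin 4, i ≠ 0 → ‖w i - w 0‖ ^ 2 = ℓ ^ 2 := by
    intro i hi
    rw [← dist_eq_norm, hw i 0 hi]
  have hinner : ∀ i j : Fin 4, i ≠ 0 → j ≠ 0 → i ≠ j →
      inner ℝ (w i - w 0) (w j - w 0) = ℓ ^ 2 / 2 := by
    intro i j hi hj hij
    have h1 : ‖(w i - w 0) - (w j - w 0)‖ ^ 2 = ℓ ^ 2 := by
      have : (w i - w 0) - (w j - w 0) = w i - w j := by abel
      rw [this, ← dist_eq_norm, hw i j hij]
    rw [norm_sub_sq_real, hnorm i hi, hnorm j hj] at h1
    linarith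
  have hℓ2 : (2 / ℓ) * (2 / ℓ) * ℓ ^ 2 = 4 := by field_simp; norm_num
  have hℓ2' : (2 / ℓ) * (2 / ℓ) * (ℓ ^ 2 / 2) = 2 := by field_simp
  have n1 : inner ℝ t₁ t₁ = 4 := by
    rw [ht₁, inner_smul_left, inner_smul_right, real_inner_self_eq_norm_sq,
      hnorm 1 (by decide)]
    simp only [conj_trivial]
    linarith
  have n2 : inner ℝ t₂ t₂ = 4 := by
    rw [ht₂, inner_smul_left, inner_smul_right, real_inner_self_eq_norm_sq,
      hnorm 2 (by decide)]
    simp only [conj_trivial]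
    linarith
  have n3 : inner ℝ t₃ t₃ = 4 := by
    rw [ht₃, inner_smul_left, inner_smul_right, real_inner_self_eq_norm_sq,
      hnorm 3 (by decide)]
    simp only [conj_trivial]
    linarith
  have i12 : inner ℝ t₁ t₂ = 2 := by
    rw [ht₁, ht₂, inner_smul_left, inner_smul_right,
      hinner 1 2 (by decide) (by decide) (by decide)]
    simp only [conj_trivial]
    linarith
  have i13 : inner ℝ t₁ t₃ = 2 := by
    rw [ht₁, ht₃, inner_smul_left, inner_smul_right,
      hinner 1 3 (by decide) (by decide) (by decide)]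
    simp only [conj_trivial]
    linarith
  have i23 : inner ℝ t₂ t₃ = 2 := by
    rw [ht₂, ht₃, inner_smul_left, inner_smul_right,
      hinner 2 3 (by decide) (by decide) (by decide)]
    simp only [conj_trivial]
    linarith
  have i21 : inner ℝ t₂ t₁ = 2 := by rw [real_inner_comm]; exact i12
  have i31 : inner ℝ t₃ t₁ = 2 := by rw [real_inner_comm]; exact i13
  have i32 : inner ℝ t₃ t₂ = 2 := by rw [real_inner_comm]; exact i23
  -- the linear map
  let Lm : Area.E3 →ₗ[ℝ] Area.E3 :=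
    { toFun := fun x => (-(x 0 + x 2 / σ) / 2) • t₁ + ((x 2 / σ + x 1) / 2) • t₂
        + ((x 2 / σ - x 1) / 2) • t₃
      map_add' := by
        intro x y
        simp only [PiLp.add_apply]
        module
      map_smul' := by
        intro c x
        simp only [PiLp.smul_apply, smul_eq_mul, RingHom.id_apply]
        module }
  have hLm : ∀ x : Area.E3, Lm x = (-(x 0 + x 2 / σ) / 2) • t₁ + ((x 2 / σ + x 1) / 2) • t₂
      + ((x 2 / σ - x 1) / 2) • t₃ := fun x => rfl
  have hLnorm : ∀ x : Area.E3, ‖Lm x‖ = ‖x‖ := by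
    intro x
    have hsq : ‖Lm x‖ ^ 2 = ‖x‖ ^ 2 := by
      rw [← real_inner_self_eq_norm_sq, hLm, norm_sq_coord]
      simp only [inner_add_left, inner_add_right, inner_smul_left, inner_smul_right, n1, n2, n3,
        i12, i13, i23, i21, i31, i32, conj_trivial]
      field_simp
      ring_nf
      rw [hσ2]
      ring
    have := abs_eq_abs.mpr (sq_eq_sq_iff_eq_or_eq_neg.mp hsq)
    rwa [abs_of_nonneg (norm_nonneg _), abs_of_nonneg (norm_nonneg _)] at this
  let li : Area.E3 →ₗᵢ[ℝ] Area.E3 := ⟨Lm, hLnorm⟩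
  let A : Area.E3 ≃ₗᵢ[ℝ] Area.E3 := li.toLinearIsometryEquiv rfl
  have hA : ∀ x : Area.E3, A x = Lm x := fun x => rfl
  -- values on the edge vectors of the standard tetrahedron
  have hb1 : Lm ((!₂[-1, 0, 0] : Area.E3) - !₂[1, 0, 0]) = t₁ := by
    rw [hLm]
    simp only [PiLp.sub_apply]
    simp
  have hb2 : Lm ((!₂[0, 1, σ] : Area.E3) - !₂[1, 0, 0]) = t₂ := by
    rw [hLm]
    simp only [PiLp.sub_apply]
    simp [hσσ]
  have hb3 : Lm ((!₂[0, -1, σ] : Area.E3) - !₂[1, 0, 0]) = t₃ := by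
    rw [hLm]
    simp only [PiLp.sub_apply]
    simp [hσσ]
  refine ⟨A, w 0 - (ℓ / 2) • A !₂[1, 0, 0], ?_⟩
  -- the affine map
  let g : Area.E3 →ᵃ[ℝ] Area.E3 :=
    AffineMap.const ℝ Area.E3 (w 0 - (ℓ / 2) • A !₂[1, 0, 0]) + ((ℓ / 2) • Lm).toAffineMap
  have hg : ∀ x : Area.E3, g x = w 0 - (ℓ / 2) • A !₂[1, 0, 0] + (ℓ / 2) • A x := by
    intro x
    simp [g, hA]
  have hfun : (fun x : Area.E3 => w 0 - (ℓ / 2) • A !₂[1, 0, 0] + (ℓ / 2) • A x) = g := by
    funext x
    exact (hg x).symm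
  rw [hfun, g.image_convexHull]
  congr 1
  have hval : ∀ v : Area.E3, g v = w 0 + (ℓ / 2) • Lm (v - !₂[1, 0, 0]) := by
    intro v
    rw [hg, hA, hA, map_sub, smul_sub]
    abel
  have hℓ' : (ℓ / 2) * (2 / ℓ) = 1 := by field_simp
  have g0 : g !₂[1, 0, 0] = w 0 := by
    rw [hval, sub_self, map_zero, smul_zero, add_zero]
  have g1 : g !₂[-1, 0, 0] = w 1 := by
    rw [hval, hb1, ht₁, smul_smul, hℓ', one_smul]
    abel
  have g2 : g !₂[0, 1, σ] = w 2 := by
    rw [hval, hb2, ht₂, smul_smul, hℓ', one_smul]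
    abel
  have g3 : g !₂[0, -1, σ] = w 3 := by
    rw [hval, hb3, ht₃, smul_smul, hℓ', one_smul]
    abel
  rw [Set.image_insert_eq, Set.image_insert_eq, Set.image_insert_eq, Set.image_singleton, g0, g1,
    g2, g3]
  ext x
  simp only [Set.mem_insert_iff, Set.mem_singleton_iff, Set.mem_range]
  constructor
  · rintro (rfl | rfl | rfl | rfl)
    · exact ⟨0, rfl⟩
    · exact ⟨1, rfl⟩
    · exact ⟨2, rfl⟩
    · exact ⟨3, rfl⟩
  · rintro ⟨i, rfl⟩
    fin_cases i
    · exact Or.inl rfl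
    · exact Or.inr (Or.inl rfl)
    · exact Or.inr (Or.inr (Or.inl rfl))
    · exact Or.inr (Or.inr (Or.inr rfl))

end Crest.Agent.Helper9
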