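import Mathlib
import Crest.Agent.Helper9.Area
import Crest.Agent.Helper9.Proj

/-!
# Covering a triangle by strips of parallelograms (helper9, row 211, package G)

A nondegenerate triangle `conv {p, q, r}` is covered by `n` parallelograms
`c_j + [0,1] a_j + [0,1] b_j`, `c_j = p + (j/n)(q - p)`, `a_j = (q - p)/n`,
`b_j = (1 - j/n)(r - p)`, of total area `(1 + 1/n)` times the area of the triangle.
-/

set_option autoImplicit false
open MeasureTheory

namespace Crest.Agent.Helper9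

open Crest.Agent.Helper9.Area

theorem sum_one_sub_div (n : ℕ) (hn : 0 < n) :
    ∑ j : Fin n, (1 - ((j : ℕ) : ℝ) / (n : ℝ)) = ((n : ℝ) + 1) / 2 := by
  have hn' : (0 : ℝ) < n := Nat.cast_pos.mpr hn
  rw [Fin.sum_univ_eq_sum_range (fun j => 1 - (j : ℝ) / (n : ℝ)) n]
  have gen : ∀ m : ℕ, ∑ j ∈ Finset.range m, (1 - (j : ℝ) / (n : ℝ))
      = m - (m : ℝ) * (m - 1) / (2 * n) := by
    intro m
    induction m with
    | zero => simp
    | succ m ih =>
      rw [Finset.sum_range_succ, ih]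
      push_cast
      field_simp
      ring
  rw [gen n]
  field_simp
  ring

/-- **Strips lemma** (helper4's shape, `Fin n`-indexed). -/
theorem triangle_subset_pgrams (u p q r : Area.E3) (hp : inner ℝ p u = 0)
    (hq : inner ℝ q u = 0) (hr : inner ℝ r u = 0) (hpos : 0 < gram (q - p) (r - p)) (n : ℕ)
    (hn : 0 < n) :
    ∃ (c a b : Fin n → Area.E3),
      (∀ j, inner ℝ (c j) u = 0 ∧ inner ℝ (a j) u = 0 ∧ inner ℝ (b j) u = 0) ∧
      (∀ j, 0 < gram (a j) (b j)) ∧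
      convexHull ℝ ({p, q, r} : Set Area.E3) ⊆
        ⋃ j, {x : Area.E3 | ∃ s ∈ Set.Icc (0 : ℝ) 1, ∃ t ∈ Set.Icc (0 : ℝ) 1,
          x = c j + s • a j + t • b j} ∧
      ∑ j, Real.sqrt (gram (a j) (b j))
        = (1 + 1 / (n : ℝ)) * (Real.sqrt (gram (q - p) (r - p)) / 2) := by
  have hn' : (0 : ℝ) < n := Nat.cast_pos.mpr hn
  have hjpos : ∀ j : Fin n, (0 : ℝ) < 1 - ((j : ℕ) : ℝ) / (n : ℝ) := by
    intro j
    have : (((j : ℕ)) : ℝ) < n := Nat.cast_lt.mpr j.2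
    rw [sub_pos, div_lt_one hn']
    exact this
  refine ⟨fun j => p + (((j : ℕ) : ℝ) / (n : ℝ)) • (q - p), fun _ => (1 / (n : ℝ)) • (q - p),
    fun j => (1 - ((j : ℕ) : ℝ) / (n : ℝ)) • (r - p), ?_, ?_, ?_, ?_⟩
  · intro j
    simp [inner_add_left, inner_smul_left, inner_sub_left, hp, hq, hr]
  · intro j
    rw [gram_smul_left, gram_smul_right]
    have := hjpos j
    positivity
  · intro x hx
    rw [convexHull_triple_eq] at hx
    obtain ⟨s, t, hs, ht, hst, rfl⟩ := hx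
    obtain ⟨j₀, hj₀⟩ : ∃ j₀ : ℕ, j₀ = min (⌊s * n⌋₊) (n - 1) := ⟨_, rfl⟩
    have hj₀lt : j₀ < n := by
      have : j₀ ≤ n - 1 := by rw [hj₀]; exact min_le_right _ _
      omega
    have h1 : (j₀ : ℝ) ≤ s * n := by
      calc (j₀ : ℝ) ≤ (⌊s * n⌋₊ : ℝ) := by
            rw [hj₀]
            exact Nat.cast_le.mpr (min_le_left _ _)
        _ ≤ s * n := Nat.floor_le (by positivity)
    have h2 : s * n ≤ j₀ + 1 := by
      rcases min_cases (⌊s * (n : ℝ)⌋₊) (n - 1) with ⟨h, _⟩ | ⟨h, _⟩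
      · rw [hj₀, h]
        exact (Nat.lt_floor_add_one _).le
      · rw [hj₀, h]
        have e : (((n - 1 : ℕ)) : ℝ) + 1 = n := by
          rw [Nat.cast_sub hn]
          simp
        rw [e]
        nlinarith
    have hjp := hjpos ⟨j₀, hj₀lt⟩
    simp only at hjp
    have hjs : (j₀ : ℝ) / n ≤ s := by
      rw [div_le_iff₀ hn']
      exact h1
    refine Set.mem_iUnion.mpr ⟨⟨j₀, hj₀lt⟩, s * n - j₀, ⟨by linarith, by linarith⟩,
      t / (1 - (j₀ : ℝ) / n), ⟨div_nonneg ht hjp.le, ?_⟩, ?_⟩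
    · rw [div_le_one hjp]
      linarith
    · simp only
      rw [smul_smul, smul_smul]
      have e1 : (s * n - j₀) * (1 / (n : ℝ)) = s - (j₀ : ℝ) / n := by
        field_simp
      have e2 : t / (1 - (j₀ : ℝ) / n) * (1 - (j₀ : ℝ) / n) = t := div_mul_cancel₀ t hjp.ne'
      rw [e1, e2]
      module
  · have hterm : ∀ j : Fin n, Real.sqrt (gram ((1 / (n : ℝ)) • (q - p))
        ((1 - ((j : ℕ) : ℝ) / (n : ℝ)) • (r - p)))
        = (1 / (n : ℝ)) * Real.sqrt (gram (q - p) (r - p)) * (1 - ((j : ℕ) : ℝ) / (n : ℝ)) := by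
      intro j
      have hj := hjpos j
      rw [gram_smul_left, gram_smul_right]
      have e : (1 / (n : ℝ)) ^ 2 * ((1 - ((j : ℕ) : ℝ) / (n : ℝ)) ^ 2 * gram (q - p) (r - p))
          = ((1 / (n : ℝ)) * (1 - ((j : ℕ) : ℝ) / (n : ℝ))) ^ 2 * gram (q - p) (r - p) := by ring
      rw [e, Real.sqrt_mul (sq_nonneg _), Real.sqrt_sq (by positivity)]
      ring
    simp_rw [hterm]
    rw [← Finset.mul_sum, sum_one_sub_div n hn]
    field_simp

/-- Strips lemma, `∃ k`-form of `Row211/PLAN.md`, section G. -/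
theorem triangle_subset_pgrams_exists (u p q r : Area.E3) (hp : inner ℝ p u = 0)
    (hq : inner ℝ q u = 0) (hr : inner ℝ r u = 0) (hpos : 0 < gram (q - p) (r - p)) (n : ℕ)
    (hn : 0 < n) :
    ∃ (k : ℕ) (c a b : Fin k → Area.E3),
      (∀ j, inner ℝ (c j) u = 0 ∧ inner ℝ (a j) u = 0 ∧ inner ℝ (b j) u = 0) ∧
      (∀ j, 0 < gram (a j) (b j)) ∧
      convexHull ℝ ({p, q, r} : Set Area.E3) ⊆
        ⋃ j, {x : Area.E3 | ∃ s ∈ Set.Icc (0 : ℝ) 1, ∃ t ∈ Set.Icc (0 : ℝ) 1,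
          x = c j + s • a j + t • b j} ∧
      ∑ j, Real.sqrt (gram (a j) (b j))
        = (1 + 1 / (n : ℝ)) * (Real.sqrt (gram (q - p) (r - p)) / 2) :=
  ⟨n, triangle_subset_pgrams u p q r hp hq hr hpos n hn⟩

end Crest.Agent.Helper9
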