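import Mathlib
import Crest.Prelude.Def_TreeProducts

/-!
# Row 125, package P1 (S0169): tree products in `L¹`

Probability side of S0169.  For a realization `W` of a positive, non-constant, mean-one law `ν`
with finite second moment we compute, for the path products `x_v = pathProduct W v`:

* `∫ |x_v| = 1`,
* `∫ |x_{i::v} - x_v| = δ := ∫ |x - 1| dν > 0`,
* `∫ |∑_{i ∈ A} (x_{i::v} - x_v)| ≤ σ √|A|`, `σ² = ∫ (x-1)² dν`,

and transport these to the elements `z v` of the product span (as a `RealBanach`).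
-/

set_option autoImplicit false

open MeasureTheory ProbabilityTheory
open Crest.AnalysisR Crest.AnalysisR.TreeProduct

namespace Crest.Agent.Helper9.TreeProd

variable {Ω : Type} [MeasurableSpace Ω]

/-- The non-root vertices on the root path of `v` (the nonempty suffixes of `v`). -/
def sfx : List ℕ → Finset (List ℕ)
  | [] => ∅
  | a :: v => insert (a :: v) (sfx v)

lemma length_le_of_mem_sfx {u v : List ℕ} (h : u ∈ sfx v) : u.length ≤ v.length := by
  induction v with
  | nil => simp [sfx] at h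
  | cons a v ih =>
    simp only [sfx, Finset.mem_insert] at h
    rcases h with rfl | h
    · exact le_rfl
    · exact (ih h).trans (by simp)

lemma ne_nil_of_mem_sfx {u v : List ℕ} (h : u ∈ sfx v) : u ≠ [] := by
  induction v with
  | nil => simp [sfx] at h
  | cons a v ih =>
    simp only [sfx, Finset.mem_insert] at h
    rcases h with rfl | h
    · simp
    · exact ih h

lemma cons_notMem_sfx (a : ℕ) (v : List ℕ) : (a :: v) ∉ sfx v := fun h => by
  have := length_le_of_mem_sfx h
  simp at this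

lemma pathProduct_eq_prod (W : List ℕ → Ω → ℝ) (v : List ℕ) :
    pathProduct W v = ∏ u ∈ sfx v, W u := by
  induction v with
  | nil => simp only [sfx, Finset.prod_empty]; rfl
  | cons a v ih =>
    rw [sfx, Finset.prod_insert (cons_notMem_sfx a v), ← ih, mul_comm]
    rfl

lemma pathProduct_cons (W : List ℕ → Ω → ℝ) (a : ℕ) (v : List ℕ) (z : Ω) :
    pathProduct W (a :: v) z = pathProduct W v z * W (a :: v) z := rfl

/-- The standing hypotheses of S0169, bundled. -/
structure Hyp (ν : Measure ℝ) (μ : Measure Ω) (W : List ℕ → Ω → ℝ) : Prop where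
  real : IsRealization ν μ W
  pos : ν (Set.Ioi 0) = 1
  mean : ∫ x, x ∂ν = 1
  m2 : Integrable (fun x : ℝ => x ^ 2) ν

variable {ν : Measure ℝ} {μ : Measure Ω} {W : List ℕ → Ω → ℝ}

namespace Hyp

lemma meas (h : Hyp ν μ W) (v : List ℕ) : Measurable (W v) := h.real.1 v

lemma indep (h : Hyp ν μ W) : iIndepFun W μ := h.real.2.1

lemma map_eq (h : Hyp ν μ W) {v : List ℕ} (hv : v ≠ []) : Measure.map (W v) μ = ν :=
  h.real.2.2 v hv

lemma integrable_id (h : Hyp ν μ W) : Integrable (fun x : ℝ => x) ν := by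
  by_contra hni
  have := h.mean
  rw [integral_undef hni] at this
  norm_num at this

/-- Transfer of integrability from `ν` to `W v`. -/
lemma integrable_comp (h : Hyp ν μ W) {v : List ℕ} (hv : v ≠ []) {g : ℝ → ℝ} (hg : Measurable g)
    (hgi : Integrable g ν) : Integrable (fun ω => g (W v ω)) μ := by
  have := (integrable_map_measure (μ := μ) (f := W v) (g := g) hg.aestronglyMeasurable
    (h.meas v).aemeasurable).mp (by rw [h.map_eq hv]; exact hgi)
  exact this

/-- Transfer of integrals from `ν` to `W v`. -/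
lemma integral_comp (h : Hyp ν μ W) {v : List ℕ} (hv : v ≠ []) {g : ℝ → ℝ} (hg : Measurable g) :
    ∫ ω, g (W v ω) ∂μ = ∫ x, g x ∂ν := by
  rw [← h.map_eq hv]
  exact (integral_map (h.meas v).aemeasurable hg.aestronglyMeasurable).symm

/-- The first absolute central moment `δ = ∫ |x - 1| dν`. -/
noncomputable def delta (ν : Measure ℝ) : ℝ := ∫ x, |x - 1| ∂ν

/-- The variance `σ² = ∫ (x - 1)² dν`. -/
noncomputable def sigma2 (ν : Measure ℝ) : ℝ := ∫ x, (x - 1) ^ 2 ∂ν

lemma integrable_abs_sub_one [IsProbabilityMeasure ν] (h : Hyp ν μ W) :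
    Integrable (fun x : ℝ => |x - 1|) ν :=
  (h.integrable_id.sub (integrable_const (1 : ℝ))).abs

lemma integrable_sq_sub_one [IsProbabilityMeasure ν] (h : Hyp ν μ W) :
    Integrable (fun x : ℝ => (x - 1) ^ 2) ν := by
  have : (fun x : ℝ => (x - 1) ^ 2) = fun x => x ^ 2 - 2 * x + 1 := by
    funext x; ring
  rw [this]
  exact (h.m2.sub (h.integrable_id.const_mul 2)).add (integrable_const (1 : ℝ))

lemma sigma2_nonneg : 0 ≤ sigma2 ν := integral_nonneg fun _ => sq_nonneg _

lemma delta_nonneg : 0 ≤ delta ν := integral_nonneg fun _ => abs_nonneg _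

/-- `δ > 0` because `ν` is not the point mass at `1`. -/
lemma delta_pos [IsProbabilityMeasure ν] (h : Hyp ν μ W) (hnc : ν ≠ Measure.dirac 1) :
    0 < delta ν := by
  rcases delta_nonneg.lt_or_eq with hpos | hzero
  · exact hpos
  exfalso
  apply hnc
  have h0 : (fun x : ℝ => |x - 1|) =ᵐ[ν] 0 :=
    (integral_eq_zero_iff_of_nonneg (fun x => abs_nonneg _) (h.integrable_abs_sub_one)).mp
      hzero.symm
  have hc : ν ({1}ᶜ : Set ℝ) = 0 := by
    have hae : ∀ᵐ x ∂ν, x = 1 := by
      filter_upwards [h0] with x hx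
      simp only [Pi.zero_apply, abs_eq_zero] at hx
      linarith
    have := ae_iff.mp hae
    exact this
  have h1 : ν ({1} : Set ℝ) = 1 := (prob_compl_eq_zero_iff (measurableSet_singleton 1)).mp hc
  ext s hs
  rw [Measure.dirac_apply' _ hs]
  by_cases hmem : (1 : ℝ) ∈ s
  · rw [Set.indicator_of_mem hmem, Pi.one_apply]
    apply le_antisymm prob_le_one
    rw [← h1]
    exact measure_mono (Set.singleton_subset_iff.mpr hmem)
  · rw [Set.indicator_of_notMem hmem]
    apply measure_mono_null _ hc
    intro x hx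
    simp only [Set.mem_compl_iff, Set.mem_singleton_iff]
    rintro rfl
    exact hmem hx

lemma integrable_W (h : Hyp ν μ W) {v : List ℕ} (hv : v ≠ []) : Integrable (W v) μ :=
  h.integrable_comp hv measurable_id h.integrable_id

lemma integral_W (h : Hyp ν μ W) {v : List ℕ} (hv : v ≠ []) : ∫ ω, W v ω ∂μ = 1 := by
  rw [h.integral_comp hv (g := fun x => x) measurable_id, h.mean]

lemma ae_pos_W [IsProbabilityMeasure μ] (h : Hyp ν μ W) {v : List ℕ} (hv : v ≠ []) :
    ∀ᵐ ω ∂μ, 0 < W v ω := by
  have h1 : μ (W v ⁻¹' Set.Ioi 0) = 1 := by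
    rw [← Measure.map_apply (h.meas v) measurableSet_Ioi, h.map_eq hv, h.pos]
  have h2 : μ (W v ⁻¹' Set.Ioi 0)ᶜ = 0 :=
    (prob_compl_eq_zero_iff ((h.meas v) measurableSet_Ioi)).mpr h1
  rw [ae_iff]
  have : {a | ¬ 0 < W v a} = (W v ⁻¹' Set.Ioi 0)ᶜ := by
    ext a; simp
  rw [this]
  exact h2

lemma measurable_pathProduct (h : Hyp ν μ W) (v : List ℕ) : Measurable (pathProduct W v) := by
  induction v with
  | nil => exact measurable_const
  | cons a v ih => exact ih.mul (h.meas (a :: v))

/-- The path product at `v` is independent of the multiplier of any child of `v`. -/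
lemma indep_pathProduct_child (h : Hyp ν μ W) (a : ℕ) (v : List ℕ) :
    IndepFun (pathProduct W v) (W (a :: v)) μ := by
  rw [pathProduct_eq_prod]
  exact h.indep.indepFun_finsetProd_of_notMem h.meas (cons_notMem_sfx a v)

lemma ae_nonneg_pathProduct [IsProbabilityMeasure μ] (h : Hyp ν μ W) (v : List ℕ) :
    ∀ᵐ ω ∂μ, 0 ≤ pathProduct W v ω := by
  induction v with
  | nil => exact Filter.Eventually.of_forall fun ω => zero_le_one
  | cons a v ih =>
    filter_upwards [ih, h.ae_pos_W (v := a :: v) (by simp)] with ω h1 h2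
    exact mul_nonneg h1 h2.le

lemma integrable_pathProduct [IsProbabilityMeasure μ] (h : Hyp ν μ W) (v : List ℕ) :
    Integrable (pathProduct W v) μ := by
  induction v with
  | nil => exact integrable_const (1 : ℝ)
  | cons a v ih =>
    exact (h.indep_pathProduct_child a v).integrable_mul ih (h.integrable_W (by simp))

lemma integral_pathProduct [IsProbabilityMeasure μ] (h : Hyp ν μ W) (v : List ℕ) :
    ∫ ω, pathProduct W v ω ∂μ = 1 := by
  induction v with
  | nil => simp [pathProduct]
  | cons a v ih =>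
    have := (h.indep_pathProduct_child a v).integral_fun_mul_eq_mul_integral
      (h.measurable_pathProduct v).aestronglyMeasurable (h.meas (a :: v)).aestronglyMeasurable
    simp only [pathProduct_cons]
    rw [this, ih, h.integral_W (by simp), mul_one]

lemma integral_abs_pathProduct [IsProbabilityMeasure μ] (h : Hyp ν μ W) (v : List ℕ) :
    ∫ ω, |pathProduct W v ω| ∂μ = 1 := by
  rw [← h.integral_pathProduct v]
  apply integral_congr_ae
  filter_upwards [h.ae_nonneg_pathProduct v] with ω hω
  exact abs_of_nonneg hω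

/-- `∫ |x_{a::v} - x_v| = δ`. -/
lemma integral_abs_child_sub [IsProbabilityMeasure μ] [IsProbabilityMeasure ν]
    (h : Hyp ν μ W) (a : ℕ) (v : List ℕ) :
    ∫ ω, |pathProduct W (a :: v) ω - pathProduct W v ω| ∂μ = delta ν := by
  have hind := (h.indep_pathProduct_child a v).comp (φ := fun x : ℝ => |x|)
    (ψ := fun x : ℝ => |x - 1|) measurable_id.abs (measurable_id.sub_const 1).abs
  have hmul := hind.integral_fun_mul_eq_mul_integral
    (h.measurable_pathProduct v).abs.aestronglyMeasurable
    ((h.meas (a :: v)).sub_const 1).abs.aestronglyMeasurable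
  have e : ∀ ω, |pathProduct W (a :: v) ω - pathProduct W v ω|
      = ((fun x : ℝ => |x|) ∘ pathProduct W v) ω * ((fun x : ℝ => |x - 1|) ∘ W (a :: v)) ω := by
    intro ω
    simp only [Function.comp, pathProduct_cons]
    rw [← abs_mul]
    congr 1
    ring
  simp only [e]
  rw [hmul]
  have e1 : (∫ ω, ((fun x : ℝ => |x|) ∘ pathProduct W v) ω ∂μ) = 1 :=
    h.integral_abs_pathProduct v
  have e2 : (∫ ω, ((fun x : ℝ => |x - 1|) ∘ W (a :: v)) ω ∂μ) = delta ν :=
    h.integral_comp (v := a :: v) (by simp) (g := fun x : ℝ => |x - 1|)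
      (measurable_id.sub_const 1).abs
  rw [e1, e2, one_mul]

/-- The path product at `v` is independent of any finite sum built from the children multipliers. -/
lemma indep_pathProduct_children (h : Hyp ν μ W) (v : List ℕ) (A : Finset ℕ) :
    IndepFun (pathProduct W v) (fun ω => ∑ i ∈ A, (W (i :: v) ω - 1)) μ := by
  classical
  have hST : Disjoint (sfx v) (A.image (fun i => i :: v)) := by
    rw [Finset.disjoint_left]
    intro u hu hu'
    obtain ⟨i, -, rfl⟩ := Finset.mem_image.mp hu'
    exact cons_notMem_sfx i v hu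
  have key := h.indep.indepFun_finset (sfx v) (A.image (fun i => i :: v)) hST h.meas
  have h1 : Measurable (fun w : (sfx v) → ℝ => ∏ u : (sfx v), w u) := by fun_prop
  have h2 : Measurable (fun w : (A.image (fun i => i :: v)) → ℝ =>
      ∑ j : (A.image (fun i => i :: v)), (w j - 1)) := by fun_prop
  have hcomp := key.comp h1 h2
  have e1 : pathProduct W v
      = (fun w : (sfx v) → ℝ => ∏ u : (sfx v), w u) ∘ (fun a (i : sfx v) => W i a) := by
    rw [pathProduct_eq_prod]
    funext ω
    simp only [Function.comp, Finset.prod_apply]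
    exact (Finset.prod_coe_sort (sfx v) (fun u => W u ω)).symm
  have e2 : (fun ω => ∑ i ∈ A, (W (i :: v) ω - 1))
      = (fun w : (A.image (fun i => i :: v)) → ℝ =>
          ∑ j : (A.image (fun i => i :: v)), (w j - 1)) ∘
        (fun a (i : (A.image (fun i => i :: v))) => W i a) := by
    funext ω
    simp only [Function.comp]
    rw [Finset.sum_coe_sort (A.image (fun i => i :: v)) (fun j => W j ω - 1),
      Finset.sum_image (fun x _ y _ hxy => by simpa using hxy)]
  rw [e1, e2]
  exact hcomp

/-- Second-moment bound for the centred children sum: `(∫ |∑_{i∈A} (W_{i::v} - 1)|)² ≤ |A| σ²`. -/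
lemma sq_integral_abs_children_le [IsProbabilityMeasure μ] [IsProbabilityMeasure ν]
    (h : Hyp ν μ W) (v : List ℕ) (A : Finset ℕ) :
    (∫ ω, |∑ i ∈ A, (W (i :: v) ω - 1)| ∂μ) ^ 2 ≤ A.card * sigma2 ν := by
  set X : ℕ → Ω → ℝ := fun i ω => W (i :: v) ω - 1 with hX
  have hXmeas : ∀ i, Measurable (X i) := fun i => (h.meas (i :: v)).sub_const 1
  have hXL2 : ∀ i, MemLp (X i) 2 μ := fun i =>
    (memLp_two_iff_integrable_sq (hXmeas i).aestronglyMeasurable).mpr
      (h.integrable_comp (v := i :: v) (by simp) (g := fun x : ℝ => (x - 1) ^ 2)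
        (by fun_prop) h.integrable_sq_sub_one)
  have hXmean : ∀ i, ∫ ω, X i ω ∂μ = 0 := by
    intro i
    have := h.integral_comp (v := i :: v) (by simp) (g := fun x : ℝ => x - 1) (by fun_prop)
    rw [this, integral_sub h.integrable_id (integrable_const 1), h.mean]
    simp
  have hXsq : ∀ i, ∫ ω, (X i ω) ^ 2 ∂μ = sigma2 ν := fun i =>
    h.integral_comp (v := i :: v) (by simp) (g := fun x : ℝ => (x - 1) ^ 2) (by fun_prop)
  have hXvar : ∀ i, variance (X i) μ = sigma2 ν := by
    intro i
    rw [variance_eq_sub (hXL2 i)]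
    simp only [Pi.pow_apply]
    rw [hXsq i, hXmean i]
    ring
  have hpair : Set.Pairwise (↑A) fun i j => IndepFun (X i) (X j) μ := by
    intro i _ j _ hij
    exact (h.indep.indepFun (i := i :: v) (j := j :: v) (by simpa using hij)).comp
      (measurable_id.sub_const 1) (measurable_id.sub_const 1)
  have hvar : variance (∑ i ∈ A, X i) μ = A.card * sigma2 ν := by
    rw [IndepFun.variance_sum (fun i _ => hXL2 i) hpair]
    simp [hXvar]
  have hYL2 : MemLp (∑ i ∈ A, X i) 2 μ := memLp_finsetSum' A (fun i _ => hXL2 i)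
  have hYmean : ∫ ω, (∑ i ∈ A, X i) ω ∂μ = 0 := by
    simp only [Finset.sum_apply]
    rw [integral_finsetSum _ (fun i _ => (hXL2 i).integrable one_le_two)]
    simp [hXmean]
  have hYsq : ∫ ω, ((∑ i ∈ A, X i) ω) ^ 2 ∂μ = A.card * sigma2 ν := by
    have := variance_eq_sub hYL2
    rw [hvar, hYmean] at this
    simp only [Pi.pow_apply] at this
    linarith
  have hZL2 : MemLp (fun ω => |(∑ i ∈ A, X i) ω|) 2 μ := hYL2.abs
  have hZvar := variance_nonneg (fun ω => |(∑ i ∈ A, X i) ω|) μ
  rw [variance_eq_sub hZL2] at hZvar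
  have e1 : ∫ ω, ((fun ω => |(∑ i ∈ A, X i) ω|) ^ 2) ω ∂μ = A.card * sigma2 ν := by
    rw [← hYsq]
    apply integral_congr_ae
    filter_upwards with ω
    simp only [Pi.pow_apply, sq_abs]
  rw [e1] at hZvar
  have e2 : ∫ ω, |∑ i ∈ A, (W (i :: v) ω - 1)| ∂μ = ∫ ω, |(∑ i ∈ A, X i) ω| ∂μ := by
    apply integral_congr_ae
    filter_upwards with ω
    simp only [Finset.sum_apply, hX]
  rw [e2]
  linarith

/-- `∫ |∑_{i∈A} (x_{i::v} - x_v)| ≤ √(|A| σ²)`. -/
lemma integral_abs_children_sum_le [IsProbabilityMeasure μ] [IsProbabilityMeasure ν]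
    (h : Hyp ν μ W) (v : List ℕ) (A : Finset ℕ) :
    ∫ ω, |∑ i ∈ A, (pathProduct W (i :: v) ω - pathProduct W v ω)| ∂μ
      ≤ Real.sqrt (A.card * sigma2 ν) := by
  have hind := (h.indep_pathProduct_children v A).comp (φ := fun x : ℝ => |x|)
    (ψ := fun x : ℝ => |x|) measurable_id.abs measurable_id.abs
  have hmeasY : Measurable (fun ω => ∑ i ∈ A, (W (i :: v) ω - 1)) :=
    Finset.measurable_sum _ (fun i _ => (h.meas (i :: v)).sub_const 1)
  have hmul := hind.integral_fun_mul_eq_mul_integral
    (h.measurable_pathProduct v).abs.aestronglyMeasurable hmeasY.abs.aestronglyMeasurable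
  have e : ∀ ω, |∑ i ∈ A, (pathProduct W (i :: v) ω - pathProduct W v ω)|
      = ((fun x : ℝ => |x|) ∘ pathProduct W v) ω *
        ((fun x : ℝ => |x|) ∘ (fun ω => ∑ i ∈ A, (W (i :: v) ω - 1))) ω := by
    intro ω
    simp only [Function.comp, pathProduct_cons]
    rw [← abs_mul, Finset.mul_sum]
    congr 1
    apply Finset.sum_congr rfl
    intro i _
    ring
  simp only [e]
  rw [hmul]
  have e1 : (∫ ω, ((fun x : ℝ => |x|) ∘ pathProduct W v) ω ∂μ) = 1 :=
    h.integral_abs_pathProduct v
  rw [e1, one_mul]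
  exact (le_abs_self _).trans (Real.abs_le_sqrt (h.sq_integral_abs_children_le v A))

end Hyp

/-- A finite sum of `L¹` classes is the class of the pointwise sum. -/
lemma sum_toL1_eq {ι : Type*} (s : Finset ι) (f : ι → Ω → ℝ) (hf : ∀ i, Integrable (f i) μ)
    (g : Ω → ℝ) (hg : Integrable g μ) (hfg : ∀ ω, g ω = ∑ i ∈ s, f i ω) :
    ∑ i ∈ s, (hf i).toL1 (f i) = hg.toL1 g := by
  classical
  induction s using Finset.induction_on generalizing g with
  | empty =>
    simp only [Finset.sum_empty] at hfg ⊢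
    have : g = 0 := funext hfg
    subst this
    exact (Integrable.toL1_zero hg).symm
  | insert a s ha ih =>
    rw [Finset.sum_insert ha]
    have hs : Integrable (fun ω => ∑ i ∈ s, f i ω) μ := integrable_finsetSum s (fun i _ => hf i)
    rw [ih (fun ω => ∑ i ∈ s, f i ω) hs (fun ω => rfl), ← Integrable.toL1_add,
      Integrable.toL1_eq_toL1_iff]
    exact Filter.Eventually.of_forall (fun ω => by simp [hfg ω, Finset.sum_insert ha])

namespace Hyp

variable [IsProbabilityMeasure μ]

/-- The class of the path product at `v` in `L¹(μ)`. -/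
noncomputable def zL1 (h : Hyp ν μ W) (v : List ℕ) : Lp ℝ 1 μ :=
  (h.integrable_pathProduct v).toL1 (pathProduct W v)

lemma zL1_mem (h : Hyp ν μ W) (v : List ℕ) : h.zL1 v ∈ productSpan μ W :=
  Submodule.le_topologicalClosure _
    (Submodule.subset_span ⟨v, (h.integrable_pathProduct v).coeFn_toL1⟩)

/-- The class of the path product at `v`, as an element of the product span. -/
noncomputable def z (h : Hyp ν μ W) (v : List ℕ) : productSpan μ W := ⟨h.zL1 v, h.zL1_mem v⟩

lemma norm_z (h : Hyp ν μ W) (v : List ℕ) : ‖h.z v‖ = 1 := by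
  rw [Submodule.coe_norm]
  show ‖h.zL1 v‖ = 1
  rw [zL1, L1.norm_of_fun_eq_integral_norm]
  simp only [Real.norm_eq_abs]
  exact h.integral_abs_pathProduct v

lemma norm_z_child_sub [IsProbabilityMeasure ν] (h : Hyp ν μ W) (a : ℕ) (v : List ℕ) :
    ‖h.z (a :: v) - h.z v‖ = delta ν := by
  rw [Submodule.coe_norm]
  show ‖h.zL1 (a :: v) - h.zL1 v‖ = delta ν
  rw [zL1, zL1, ← Integrable.toL1_sub, L1.norm_of_fun_eq_integral_norm]
  simp only [Real.norm_eq_abs, Pi.sub_apply]
  exact h.integral_abs_child_sub a v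

lemma norm_sum_children_le [IsProbabilityMeasure ν] (h : Hyp ν μ W) (v : List ℕ)
    (A : Finset ℕ) :
    ‖∑ i ∈ A, (h.z (i :: v) - h.z v)‖ ≤ Real.sqrt (sigma2 ν) * Real.sqrt A.card := by
  rw [Submodule.coe_norm]
  have hi : ∀ i : ℕ, Integrable (pathProduct W (i :: v) - pathProduct W v) μ := fun i =>
    (h.integrable_pathProduct (i :: v)).sub (h.integrable_pathProduct v)
  have hg : Integrable (fun ω => ∑ i ∈ A, (pathProduct W (i :: v) ω - pathProduct W v ω)) μ :=
    integrable_finsetSum A (fun i _ => hi i)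
  have hcoe : ((∑ i ∈ A, (h.z (i :: v) - h.z v) : productSpan μ W) : Lp ℝ 1 μ)
      = hg.toL1 _ := by
    rw [Submodule.coe_sum]
    have : ∀ i ∈ A, ((h.z (i :: v) - h.z v : productSpan μ W) : Lp ℝ 1 μ)
        = (hi i).toL1 _ := by
      intro i _
      show h.zL1 (i :: v) - h.zL1 v = _
      rw [zL1, zL1, ← Integrable.toL1_sub]
    rw [Finset.sum_congr rfl this]
    exact sum_toL1_eq A _ hi _ hg (fun ω => rfl)
  rw [hcoe, L1.norm_of_fun_eq_integral_norm]
  simp only [Real.norm_eq_abs]
  refine (h.integral_abs_children_sum_le v A).trans (le_of_eq ?_)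
  rw [Real.sqrt_mul (Nat.cast_nonneg _), mul_comm]

end Hyp

/-- **Tree data for S0169.**  Under the hypotheses of S0169 the classes `z v` of the path products
form a bounded tree in the product span whose children increments are `δ`-separated from the
parent and satisfy the square-root (Cesàro) bound. -/
theorem tree_data [IsProbabilityMeasure μ] [IsProbabilityMeasure ν] (h : Hyp ν μ W)
    (hnc : ν ≠ Measure.dirac 1) :
    ∃ (δ C : ℝ) (z : List ℕ → productSpan μ W), 0 < δ ∧ 0 ≤ C ∧
      (∀ v, ‖z v‖ = 1) ∧ (∀ a v, ‖z (a :: v) - z v‖ = δ) ∧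
      (∀ v (A : Finset ℕ), ‖∑ i ∈ A, (z (i :: v) - z v)‖ ≤ C * Real.sqrt A.card) :=
  ⟨Hyp.delta ν, Real.sqrt (Hyp.sigma2 ν), h.z, h.delta_pos hnc, Real.sqrt_nonneg _, h.norm_z,
    h.norm_z_child_sub, h.norm_sum_children_le⟩

end Crest.Agent.Helper9.TreeProd
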